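import Vale.Agent.P224.LinA

/-!
# The Laplacian of the position vector in a chart  (TASK)

Put `A = Dφ`, `G = gop A`, `J = √det G`, `w = tco A v = G⁻¹ Aᵀ v`, `B h = D²φ(h, ·)`.
`DG(h) = B(h)ᵀ A + Aᵀ B(h)`, so `DJ(h) = (J/2) tr (G⁻¹ DG(h)) = J tr (G⁻¹ Aᵀ B(h))` (`fderiv_det`,
`gop_inverse_symm`).  Differentiating `G w = Aᵀ v` (true near `z`):
`Dw(h) = G⁻¹ (B(h)ᵀ (v - A w) - Aᵀ B(h) w)`.  With the symmetry `B(h) k = B(k) h`
(`ContDiffAt.isSymmSndFDerivAt`), `div (J w) = J ∑ᵢ ⟪B(eᵢ) (G⁻¹ eᵢ), v - A w⟫`.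
Now `v - A w = ⟪φ,v⟫ φ + ν` with `ν ⟂ φ` and `ν ⟂ range A` (`⟪φ, A h⟫ = 0` from `‖φ‖ = 1`,
`tco_inner`); the `ν` part vanishes by `hmin` (`gram_inv`; `pd (pd φ j) i z = B(eᵢ) eⱼ`), and
`⟪B(h) k, φ⟫ = -⟪A h, A k⟫` (differentiate `⟪φ, A k⟫ = 0`) gives `-m` for the `φ` part.
-/

namespace Vale.Agent.P224

open scoped RealInnerProductSpace ENNReal Topology
open MeasureTheory Set Filter

variable {m N : ℕ} {φ : Euc m → Euc N} {U : Set (Euc m)}

/-- The vector field `√g ∇⟪φ, v⟫` in coordinates. -/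
noncomputable def vf (φ : Euc m → Euc N) (v : Euc N) (z : Euc m) : Euc m :=
  √(gram φ z).det • tco (fderiv ℝ φ z) v

private theorem cd_Div (hU : IsOpen U) (hφ : ContDiffOn ℝ 2 φ U) {z : Euc m} (hz : z ∈ U) :
    ContDiffAt ℝ 1 (fderiv ℝ φ) z :=
  (hφ.contDiffAt (hU.mem_nhds hz)).fderiv_right (by norm_num)

theorem contDiffOn_J (hU : IsOpen U) (hφ : ContDiffOn ℝ 2 φ U)
    (hi : ∀ z ∈ U, Function.Injective (fderiv ℝ φ z)) :
    ContDiffOn ℝ 1 (fun z => √(gram φ z).det) U := by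
  intro z hz
  simp only [gram_det]
  exact ((contDiff_det.comp contDiff_gop).contDiffAt.comp z (cd_Div hU hφ hz)).sqrt
    (gop_det_pos (hi z hz)).ne' |>.contDiffWithinAt

theorem contDiffOn_tco (hU : IsOpen U) (hφ : ContDiffOn ℝ 2 φ U)
    (hi : ∀ z ∈ U, Function.Injective (fderiv ℝ φ z)) :
    ContDiffOn ℝ 1 (fun z => tco (fderiv ℝ φ z)) U := by
  exact fun z hz => ((contDiffAt_tco (hi z hz)).comp z (cd_Div hU hφ hz)).contDiffWithinAt

private theorem inner_Div {k l : ℕ} {z : Euc m} {f g : Euc m → Euc k} {p q : Euc m → Euc l}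
    {f' g' : Euc m →L[ℝ] Euc k} {p' q' : Euc m →L[ℝ] Euc l} (hf : HasFDerivAt f f' z)
    (hg : HasFDerivAt g g' z) (hp : HasFDerivAt p p' z) (hq : HasFDerivAt q q' z)
    (e : ∀ᶠ y in 𝓝 z, ⟪f y, g y⟫ = ⟪p y, q y⟫) (h : Euc m) :
    ⟪f z, g' h⟫ + ⟪f' h, g z⟫ = ⟪p z, q' h⟫ + ⟪p' h, q z⟫ := by
  have h1 := (hf.inner ℝ hg).unique ((hp.inner ℝ hq).congr_of_eventuallyEq e)
  simpa [fderivInnerCLM_apply] using DFunLike.congr_fun h1 h

theorem inner_fderiv_zero (hU : IsOpen U) (hφ : DifferentiableOn ℝ φ U) (hu : ∀ z ∈ U, ‖φ z‖ = 1)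
    {z : Euc m} (hz : z ∈ U) (h : Euc m) : ⟪φ z, fderiv ℝ φ z h⟫ = 0 := by
  have h1 := (hφ.differentiableAt (hU.mem_nhds hz)).hasFDerivAt
  have h2 := inner_Div h1 h1 (hasFDerivAt_const (φ z) z) (hasFDerivAt_const (φ z) z)
    (by filter_upwards [hU.mem_nhds hz] with y hy
        rw [real_inner_self_eq_norm_sq, real_inner_self_eq_norm_sq, hu y hy, hu z hz]) h
  rw [real_inner_comm (φ z)] at h2
  simp only [zero_apply, inner_zero_left, inner_zero_right] at h2
  linarith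

private theorem expand_Div {E : Type*} [NormedAddCommGroup E] [NormedSpace ℝ E]
    (L : Euc m →L[ℝ] E) (u : Euc m) : L u = ∑ i, u i • L (EuclideanSpace.single i 1) := by
  conv_lhs => rw [← (EuclideanSpace.basisFun (Fin m) ℝ).sum_repr u]
  simp

private theorem coord_Div (u : Euc m) (i : Fin m) : ⟪u, EuclideanSpace.single i 1⟫ = u i := by
  simp [EuclideanSpace.inner_single_right]

private theorem inv_Div {A : Euc m →L[ℝ] Euc N} (hA : Function.Injective A) (u : Euc m)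
    (i : Fin m) : ⟪A u, A ((gop A).inverse (EuclideanSpace.single i 1))⟫ = u i := by
  rw [real_inner_comm, ← gop_inner, (gop_isInvertible hA).self_apply_inverse, real_inner_comm,
    coord_Div]

private theorem swap_Div {A : Euc m →L[ℝ] Euc N} (hA : Function.Injective A)
    (P Q : Euc m →L[ℝ] Euc N) :
    ∑ i, ⟪P (EuclideanSpace.single i 1), Q ((gop A).inverse (EuclideanSpace.single i 1))⟫ =
      ∑ i, ⟪P ((gop A).inverse (EuclideanSpace.single i 1)), Q (EuclideanSpace.single i 1)⟫ := by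
  simp only [expand_Div P ((gop A).inverse _), expand_Div Q ((gop A).inverse _), inner_sum,
    sum_inner, real_inner_smul_left, real_inner_smul_right]
  rw [Finset.sum_comm]
  refine Finset.sum_congr rfl fun i _ => Finset.sum_congr rfl fun j _ => ?_
  rw [← coord_Div, gop_inverse_symm hA, real_inner_comm, coord_Div]

private theorem dJ_Div {D : Euc m → Euc m →L[ℝ] Euc N} {B : Euc m →L[ℝ] Euc m →L[ℝ] Euc N}
    {z : Euc m} (hD : HasFDerivAt D B z) (hA : Function.Injective (D z)) (h : Euc m) :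
    fderiv ℝ (fun y => √(gop (D y)).det) z h = √(gop (D z)).det *
      ∑ i, ⟪B h (EuclideanSpace.single i 1),
        D z ((gop (D z)).inverse (EuclideanSpace.single i 1))⟫ := by
  have h1 : HasFDerivAt (fun y => gop (D y)) (fderiv ℝ (fun y => gop (D y)) z) z :=
    ((contDiff_gop.differentiable one_ne_zero _).comp z hD.differentiableAt).hasFDerivAt
  generalize fderiv ℝ (fun y => gop (D y)) z = G at h1
  have h2 : ∀ a b, ⟪G h a, b⟫ = ⟪D z a, B h b⟫ + ⟪B h a, D z b⟫ := fun a b => by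
    simpa using inner_Div (h1.clm_apply (hasFDerivAt_const a z)) (hasFDerivAt_const b z)
      (hD.clm_apply (hasFDerivAt_const a z)) (hD.clm_apply (hasFDerivAt_const b z))
      (Eventually.of_forall fun y => gop_inner _ a b) h
  have h3 := gop_det_pos hA
  have h8 := (contDiff_det.differentiable one_ne_zero (gop (D z))).hasFDerivAt.comp z h1
  have h4 := HasFDerivAt.sqrt (f := fun y => (gop (D y)).det) h8 h3.ne'
  have h5 : ∀ i, (gop (D z)).inverse (G h (EuclideanSpace.single i 1)) i = _ := fun i => by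
    rw [← coord_Div, gop_inverse_symm hA, h2]
  have h6 := Real.sqrt_pos.2 h3
  have h7 := Real.mul_self_sqrt h3.le
  rw [h4.fderiv]
  simp only [smul_apply, ContinuousLinearMap.comp_apply, fderiv_det (gop_isInvertible hA), h5,
    Finset.sum_add_distrib, swap_Div hA (D z) (B h), smul_eq_mul]
  simp only [real_inner_comm (B h _)]
  generalize √(gop (D z)).det = J at h6 h7
  rw [← h7]
  field_simp
  ring

theorem div_vf (hU : IsOpen U) (hφ : ContDiffOn ℝ 2 φ U) (hu : ∀ z ∈ U, ‖φ z‖ = 1)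
    (hi : ∀ z ∈ U, Function.Injective (fderiv ℝ φ z)) {z : Euc m} (hz : z ∈ U)
    (hmin : ∀ w : Euc N, ⟪w, φ z⟫ = 0 → (∀ i, ⟪w, pd φ i z⟫ = 0) →
      ∑ i, ∑ j, (gram φ z)⁻¹ i j * ⟪pd (pd φ j) i z, w⟫ = 0) (v : Euc N) :
    ∑ i, fderiv ℝ (vf φ v) z (EuclideanSpace.single i 1) i =
      -(m * (√(gram φ z).det * ⟪φ z, v⟫)) := by
  have hA := hi z hz
  have hn := hU.mem_nhds hz
  have hD := ((cd_Div hU hφ hz).differentiableAt one_ne_zero).hasFDerivAt
  have hs : ∀ a b, fderiv ℝ (fderiv ℝ φ) z a b = fderiv ℝ (fderiv ℝ φ) z b a :=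
    ((hφ.contDiffAt hn).isSymmSndFDerivAt (by simp)).eq
  have hp : ∀ i j, pd (pd φ j) i z = fderiv ℝ (fderiv ℝ φ) z (EuclideanSpace.single i 1)
      (EuclideanSpace.single j 1) := fun i j => by
    have := (hD.clm_apply (hasFDerivAt_const (EuclideanSpace.single j (1 : ℝ)) z)).fderiv
    unfold pd
    rw [this]
    simp
  have hJ := dJ_Div hD hA
  generalize fderiv ℝ (fderiv ℝ φ) z = B at hD hs hp hJ
  have hd := hφ.differentiableOn two_ne_zero
  have h0 := inner_fderiv_zero hU hd hu hz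
  have h1 : ∀ h k, ⟪φ z, B h k⟫ = -⟪fderiv ℝ φ z h, fderiv ℝ φ z k⟫ := fun h k => by
    have := inner_Div (hd.differentiableAt hn).hasFDerivAt (hD.clm_apply (hasFDerivAt_const k z))
      (hasFDerivAt_const (0 : Euc N) z) (hasFDerivAt_const (0 : Euc N) z)
      (by filter_upwards [hn] with y hy
          rw [inner_fderiv_zero hU hd hu hy, inner_zero_left]) h
    simp at this
    linarith
  have hw := ((((contDiffOn_tco hU hφ hi).contDiffAt hn).differentiableAt one_ne_zero).clm_apply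
    (differentiableAt_const v)).hasFDerivAt
  generalize fderiv ℝ (fun y => tco (fderiv ℝ φ y) v) z = W at hw
  have h2 : ∀ h k, ⟪fderiv ℝ φ z (W h), fderiv ℝ φ z k⟫ =
      ⟪v - fderiv ℝ φ z (tco (fderiv ℝ φ z) v), B h k⟫
        - ⟪B h (tco (fderiv ℝ φ z) v), fderiv ℝ φ z k⟫ := fun h k => by
    have := inner_Div (hD.clm_apply hw) (hD.clm_apply (hasFDerivAt_const k z))
      (hasFDerivAt_const v z) (hD.clm_apply (hasFDerivAt_const k z))
      (by filter_upwards [hn] with y hy using tco_inner (hi y hy) v k) h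
    simp [inner_add_left] at this
    rw [inner_sub_left]
    linarith
  have hJ' := (((contDiffOn_J hU hφ hi).contDiffAt hn).differentiableAt one_ne_zero).hasFDerivAt
  have h3 : fderiv ℝ (vf φ v) z = _ := (hJ'.fun_smul hw).fderiv
  simp only [gram_det] at h3 ⊢
  have h4 := hmin (v - fderiv ℝ φ z (tco (fderiv ℝ φ z) v) - ⟪φ z, v⟫ • φ z)
    (by rw [inner_sub_left, inner_sub_left, real_inner_smul_left, real_inner_self_eq_norm_sq,
          hu z hz, real_inner_comm (φ z) (fderiv ℝ φ z _), h0, real_inner_comm]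
        ring)
    (fun i => by
      rw [pd, inner_sub_left, inner_sub_left, real_inner_smul_left, h0, tco_inner hA]
      ring)
  rw [Finset.sum_comm] at h4
  have h5 : ∀ (j : Fin m) (u : Euc N), ∑ i, (gram φ z)⁻¹ i j * ⟪pd (pd φ j) i z, u⟫
      = ⟪u, B (EuclideanSpace.single j 1)
        ((gop (fderiv ℝ φ z)).inverse (EuclideanSpace.single j 1))⟫ := fun j u => by
    rw [expand_Div (B _), inner_sum]
    refine Finset.sum_congr rfl fun i _ => ?_
    rw [gram_inv hA, hp, hs, real_inner_smul_right, real_inner_comm]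
  simp only [h5, inner_sub_left _ (_ • φ z), real_inner_smul_left, h1, inv_Div hA,
    Finset.sum_sub_distrib] at h4
  have h6 : ∀ i, W (EuclideanSpace.single i 1) i = _ := fun i => by
    rw [← inv_Div hA, h2, hs _ (tco _ v)]
  have h7 := hJ (tco (fderiv ℝ φ z) v)
  rw [expand_Div (fderiv ℝ _ z)] at h7
  simp only [h3, add_apply, smul_apply,
    ContinuousLinearMap.smulRight_apply, PiLp.add_apply, PiLp.smul_apply, smul_eq_mul, h6,
    Finset.sum_add_distrib, ← Finset.mul_sum, Finset.sum_sub_distrib] at h7 ⊢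
  simp only [mul_comm (tco (fderiv ℝ φ z) v _)] at h7
  simp at h4
  rw [h7]
  linear_combination √(gop (fderiv ℝ φ z)).det * h4

end Vale.Agent.P224
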