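import Vale.Agent.P224.Rad
import Vale.Agent.P224.Div

/-!
# The cone over a link has density at least one  (TASK)

Let `z₀ = r₀ • x p`, and `U, z, φ` from `L.piece p`, `A = Dφ(z)`, `J y = √det gram φ y`
(continuous on `U`: `gram_det`, `contDiff_det`, `contDiff_gop`).  By Tonelli (`lintegral_prod`,
`lintegral_withDensity_eq_lintegral_mul`) and `piece`, the integral is at least
`∫_{r > 0} ∫_{y ∈ U} r ^ m gk (r φ y) W (r φ y) J y`.  Substitute `r = r₀ + √t s`, `y = z + √t v`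
(`lintegral_add_left_eq_self`, `Measure.map_addHaar_smul` or
`lintegral_image_eq_lintegral_abs_det_fderiv_mul`; the factor `t ^ ((m+1)/2)` cancels the
normalisation).  As `t → 0⁺` the integrand (with the indicators) tends pointwise to
`r₀ ^ m (2π) ^ (-(m+1)/2) exp (-‖s • φ z + r₀ • A v‖² / 2) W z₀ J z`, and
`‖s • φ z + r₀ • A v‖² = s² + r₀² ‖A v‖²` (`inner_fderiv_zero`).  Fatou
(`lintegral_liminf_le`, the filter `𝓝[>] 0` is countably generated), `gauss_lin`, and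
`Filter.eventually_lt_of_lt_liminf` (the case `b ≤ 0` is trivial).
`gauss_lin`: `exists_sqrt`, `integral_comp_linearMap`-type change of variables
(`Measure.map_linearMap_addHaar_eq_smul_addHaar`, or `lintegral_image_eq_…` on `univ`),
`GaussianFourier.integral_rexp_neg_mul_sq_norm`.
-/

namespace Vale.Agent.P224

open scoped RealInnerProductSpace ENNReal Topology
open MeasureTheory Set Filter

theorem gauss_std_Dens (V : Type*) [NormedAddCommGroup V] [InnerProductSpace ℝ V]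
    [FiniteDimensional ℝ V] [MeasurableSpace V] [BorelSpace V] :
    ∫⁻ w : V, ENNReal.ofReal (Real.exp (-‖w‖ ^ 2 / 2)) =
      ENNReal.ofReal ((2 * Real.pi) ^ ((Module.finrank ℝ V : ℝ) / 2)) := by
  have h1 := GaussianFourier.integral_rexp_neg_mul_sq_norm (V := V) (b := 1 / 2) (by norm_num)
  have h2 : Real.pi / (1 / 2) = 2 * Real.pi := by ring
  rw [h2] at h1
  have h3 : (fun w : V => Real.exp (-‖w‖ ^ 2 / 2)) = fun w => Real.exp (-(1 / 2) * ‖w‖ ^ 2) := by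
    funext w; congr 1; ring
  have hi : Integrable (fun w : V => Real.exp (-(1 / 2) * ‖w‖ ^ 2)) := by
    by_contra hn
    rw [integral_undef hn] at h1
    have : (0 : ℝ) < (2 * Real.pi) ^ ((Module.finrank ℝ V : ℝ) / 2) := by positivity
    linarith
  rw [← h1, ofReal_integral_eq_lintegral_ofReal hi
    (Eventually.of_forall fun w => (Real.exp_pos _).le)]
  refine lintegral_congr fun w => ?_
  rw [congrFun h3 w]

theorem gauss_lin {m N : ℕ} {A : Euc m →L[ℝ] Euc N} (hA : Function.Injective A) {r : ℝ}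
    (hr : 0 < r) : ∫⁻ v : Euc m, ENNReal.ofReal (Real.exp (-(r ^ 2 * ‖A v‖ ^ 2) / 2)) =
      ENNReal.ofReal ((2 * Real.pi) ^ ((m : ℝ) / 2) / (r ^ m * √(gop A).det)) := by
  obtain ⟨B, hB, hd⟩ := exists_sqrt hA
  have hpos : 0 < √(gop A).det := Real.sqrt_pos.2 (gop_det_pos hA)
  set T : Euc m →ₗ[ℝ] Euc m := r • (B : Euc m →ₗ[ℝ] Euc m) with hT
  have hdet : |LinearMap.det T| = r ^ m * √(gop A).det := by
    rw [hT, LinearMap.det_smul, abs_mul, abs_pow, abs_of_pos hr, finrank_euclideanSpace_fin, ← hd]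
  have hne : LinearMap.det T ≠ 0 := by
    intro h
    rw [h, abs_zero] at hdet
    have : 0 < r ^ m * √(gop A).det := by positivity
    linarith
  have hm : Measurable fun w : Euc m => ENNReal.ofReal (Real.exp (-‖w‖ ^ 2 / 2)) := by
    fun_prop
  have hTm : Measurable T := T.continuous_of_finiteDimensional.measurable
  have h1 : ∫⁻ v : Euc m, ENNReal.ofReal (Real.exp (-(r ^ 2 * ‖A v‖ ^ 2) / 2)) =
      ∫⁻ w, ENNReal.ofReal (Real.exp (-‖w‖ ^ 2 / 2)) ∂(Measure.map T volume) := by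
    rw [lintegral_map hm hTm]
    refine lintegral_congr fun v => ?_
    have : ‖T v‖ ^ 2 = r ^ 2 * ‖A v‖ ^ 2 := by
      rw [hT, LinearMap.smul_apply, norm_smul, mul_pow, ← hB v, Real.norm_eq_abs, sq_abs]
      rfl
    rw [this]
  rw [h1, Measure.map_linearMap_addHaar_eq_smul_addHaar _ hne, lintegral_smul_measure,
    gauss_std_Dens, finrank_euclideanSpace_fin, abs_inv, hdet, smul_eq_mul,
    ← ENNReal.ofReal_mul (by positivity)]
  congr 1
  exact (div_eq_inv_mul _ _).symm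

theorem subst_Dens {E : Type*} [NormedAddCommGroup E] [NormedSpace ℝ E] [MeasurableSpace E]
    [BorelSpace E] [FiniteDimensional ℝ E] (μ : Measure E) [μ.IsAddHaarMeasure] (a : E) {c : ℝ}
    (hc : 0 < c) {f : E → ℝ≥0∞} (hf : Measurable f) :
    ∫⁻ q, ENNReal.ofReal (c ^ Module.finrank ℝ E) * f (a + c • q) ∂μ = ∫⁻ q, f q ∂μ := by
  have h1 : Measurable fun q : E => f (a + q) := hf.comp (measurable_const_add a)
  have h2 : ∫⁻ q, f (a + c • q) ∂μ = ∫⁻ q, f (a + q) ∂(Measure.map (fun q : E => c • q) μ) := by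
    rw [lintegral_map h1 (measurable_const_smul c)]
  have hp : 0 < c ^ Module.finrank ℝ E := by positivity
  rw [lintegral_const_mul' _ _ ENNReal.ofReal_ne_top, h2, Measure.map_addHaar_smul μ hc.ne',
    lintegral_smul_measure, lintegral_add_left_eq_self, smul_eq_mul, ← mul_assoc,
    ← ENNReal.ofReal_mul hp.le, abs_of_pos (inv_pos.2 hp), mul_inv_cancel₀ hp.ne']
  simp

theorem gk_scale_Dens (n : ℕ) {N : ℕ} (z x : Euc N) {t : ℝ} (ht : 0 < t) :
    √t ^ n * gk n z t x =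
      (2 * Real.pi) ^ (-(n : ℝ) / 2) * Real.exp (-‖(√t)⁻¹ • (x - z)‖ ^ 2 / 2) := by
  have hs : 0 < √t := Real.sqrt_pos.2 ht
  have h1 : ‖(√t)⁻¹ • (x - z)‖ ^ 2 = ‖x - z‖ ^ 2 / t := by
    rw [norm_smul, mul_pow, Real.norm_eq_abs, sq_abs, inv_pow, Real.sq_sqrt ht.le]
    ring
  have h2 : √t ^ n * t ^ (-(n : ℝ) / 2) = 1 := by
    rw [Real.sqrt_eq_rpow, ← Real.rpow_natCast, ← Real.rpow_mul ht.le, ← Real.rpow_add ht]
    have : 1 / 2 * (n : ℝ) + -(n : ℝ) / 2 = 0 := by ring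
    rw [this, Real.rpow_zero]
  unfold gk
  rw [h1, Real.mul_rpow (by positivity) ht.le]
  have h3 : -‖x - z‖ ^ 2 / (2 * t) = -(‖x - z‖ ^ 2 / t) / 2 := by
    field_simp
  rw [h3]
  calc √t ^ n * ((2 * Real.pi) ^ (-(n : ℝ) / 2) * t ^ (-(n : ℝ) / 2) *
        Real.exp (-(‖x - z‖ ^ 2 / t) / 2))
      = (√t ^ n * t ^ (-(n : ℝ) / 2)) * ((2 * Real.pi) ^ (-(n : ℝ) / 2) *
        Real.exp (-(‖x - z‖ ^ 2 / t) / 2)) := by ring
    _ = _ := by rw [h2, one_mul]

theorem gk_cont_Dens (n : ℕ) {N : ℕ} (z : Euc N) (t : ℝ) : Continuous (gk n z t) := by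
  unfold gk
  fun_prop

theorem gk_nonneg_Dens (n : ℕ) {N : ℕ} (z : Euc N) {t : ℝ} (ht : 0 < t) (x : Euc N) :
    0 ≤ gk n z t x := by
  unfold gk
  positivity

theorem contJ_Dens {m N : ℕ} {φ : Euc m → Euc N} {U : Set (Euc m)} (hU : IsOpen U)
    (hφ : ContDiffOn ℝ 1 φ U) : ContinuousOn (fun y => √(gram φ y).det) U := by
  have h1 : ContinuousOn (fun y => fderiv ℝ φ y) U := hφ.continuousOn_fderiv_of_isOpen hU le_rfl
  have h2 : Continuous fun B : Euc m →L[ℝ] Euc N => √(gop B).det :=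
    Real.continuous_sqrt.comp (contDiff_det.continuous.comp contDiff_gop.continuous)
  simp only [gram_det]
  exact h2.comp_continuousOn h1

/-- The integrand of the cone in the chart. -/
noncomputable def K_Dens {m : ℕ} (U : Set (Euc m)) (φ : Euc m → Euc (m + 2))
    (H : Euc (m + 2) → ℝ) (q : ℝ × Euc m) : ℝ≥0∞ :=
  (Ioi (0 : ℝ) ×ˢ U).indicator
    (fun q : ℝ × Euc m => ENNReal.ofReal (q.1 ^ m * H (q.1 • φ q.2) * √(gram φ q.2).det)) q

theorem K_meas_Dens {m : ℕ} {U : Set (Euc m)} {φ : Euc m → Euc (m + 2)} (hU : IsOpen U)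
    (hφ : ContDiffOn ℝ 1 φ U) {H : Euc (m + 2) → ℝ} (hH : Continuous H) :
    Measurable (K_Dens U φ H) := by
  classical
  have hs : MeasurableSet (Ioi (0 : ℝ) ×ˢ U) := measurableSet_Ioi.prod hU.measurableSet
  have h2 : MapsTo Prod.snd (Ioi (0 : ℝ) ×ˢ U) U := fun q hq => hq.2
  have h3 : ContinuousOn (fun q : ℝ × Euc m => φ q.2) (Ioi (0 : ℝ) ×ˢ U) :=
    hφ.continuousOn.comp continuous_snd.continuousOn h2
  have h4 : ContinuousOn (fun q : ℝ × Euc m => √(gram φ q.2).det) (Ioi (0 : ℝ) ×ˢ U) :=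
    (contJ_Dens hU hφ).comp continuous_snd.continuousOn h2
  have h5 : ContinuousOn (fun q : ℝ × Euc m =>
      ENNReal.ofReal (q.1 ^ m * H (q.1 • φ q.2) * √(gram φ q.2).det)) (Ioi (0 : ℝ) ×ˢ U) :=
    ENNReal.continuous_ofReal.comp_continuousOn
      ((((continuous_fst.pow m).continuousOn).mul
        (hH.comp_continuousOn (continuous_fst.continuousOn.smul h3))).mul h4)
  have h6 := h5.measurable_piecewise (g := 0) continuousOn_const hs
  rw [Set.piecewise_eq_indicator] at h6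
  exact h6

theorem K_le_Dens {m : ℕ} {M : Type*} [MeasurableSpace M] (L : Link m M) {U : Set (Euc m)}
    {φ : Euc m → Euc (m + 2)} (hU : IsOpen U)
    (hp : ∀ h : Euc (m + 2) → ℝ≥0∞, Measurable h →
      ∫⁻ y in U, h (φ y) * ENNReal.ofReal √(gram φ y).det ≤ ∫⁻ q, h (L.x q) ∂L.σ)
    {H : Euc (m + 2) → ℝ} (hH : Continuous H) (h0 : ∀ x, 0 ≤ H x) :
    ∫⁻ q, K_Dens U φ H q ∂((volume : Measure ℝ).prod (volume : Measure (Euc m))) ≤
      ∫⁻ q, ENNReal.ofReal (H (L.cX q)) ∂L.cμ := by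
  have hmx := L.mx
  have hm : Measurable fun q : ℝ × M => ENNReal.ofReal (H (L.cX q)) := by
    unfold Link.cX
    exact (hH.measurable.comp (measurable_fst.smul (hmx.comp measurable_snd))).ennreal_ofReal
  refine (lintegral_prod_le _).trans ?_
  rw [Link.cμ, lintegral_prod _ hm.aemeasurable, rad,
    lintegral_withDensity_eq_lintegral_mul_non_measurable _ (by fun_prop)
      (Eventually.of_forall fun _ => ENNReal.ofReal_lt_top), ← lintegral_indicator measurableSet_Ioi]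
  refine lintegral_mono fun r => ?_
  by_cases hr : r ∈ Ioi (0 : ℝ)
  · rw [indicator_of_mem hr, Pi.mul_apply]
    have hr' : 0 < r := hr
    have h1 := hp (fun x => ENNReal.ofReal (H (r • x)))
      (hH.measurable.comp (measurable_const_smul r)).ennreal_ofReal
    refine le_trans (le_of_eq ?_) (mul_le_mul_right h1 _)
    rw [← lintegral_const_mul' _ _ ENNReal.ofReal_ne_top, ← lintegral_indicator hU.measurableSet]
    refine lintegral_congr fun y => ?_
    unfold K_Dens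
    by_cases hy : y ∈ U
    · rw [indicator_of_mem hy, indicator_of_mem (mk_mem_prod hr hy),
        ENNReal.ofReal_mul (mul_nonneg (by positivity) (h0 _)),
        ENNReal.ofReal_mul (by positivity), mul_assoc]
    · rw [indicator_of_notMem hy, indicator_of_notMem fun h => hy h.2]
  · rw [indicator_of_notMem hr]
    refine le_of_eq ?_
    have : ∀ y, K_Dens U φ H (r, y) = 0 := fun y => indicator_of_notMem (fun h => hr h.1) _
    simp [this]

theorem lim_Dens {m : ℕ} {U : Set (Euc m)} {z : Euc m} {φ : Euc m → Euc (m + 2)} (hU : IsOpen U)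
    (hz : z ∈ U) (hφ : ContDiffOn ℝ 1 φ U) (hu : ∀ y ∈ U, ‖φ y‖ = 1) {r₀ : ℝ} (hr : 0 < r₀)
    {W : Euc (m + 2) → ℝ} (hW : Continuous W) (q : ℝ × Euc m) :
    Tendsto (fun t : ℝ => ENNReal.ofReal (√t ^ (m + 1)) *
      K_Dens U φ (fun x => gk (m + 1) (r₀ • φ z) t x * W x) ((r₀, z) + √t • q)) (𝓝[>] 0)
      (𝓝 (ENNReal.ofReal (r₀ ^ m * (2 * Real.pi) ^ (-((m + 1 : ℕ) : ℝ) / 2) * W (r₀ • φ z) *
        √(gram φ z).det) * (ENNReal.ofReal (Real.exp (-‖q.1‖ ^ 2 / 2)) *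
          ENNReal.ofReal (Real.exp (-(r₀ ^ 2 * ‖fderiv ℝ φ z q.2‖ ^ 2) / 2))))) := by
  obtain ⟨s, v⟩ := q
  have hUz : U ∈ 𝓝 z := hU.mem_nhds hz
  have hd : DifferentiableOn ℝ φ U := hφ.differentiableOn one_ne_zero
  have hA : HasFDerivAt φ (fderiv ℝ φ z) z := (hd.differentiableAt hUz).hasFDerivAt
  have hl : HasDerivAt (fun c : ℝ => z + c • v) v 0 := by
    simpa using ((hasDerivAt_id (0 : ℝ)).smul_const v).const_add z
  have hl1 : HasDerivAt (fun c : ℝ => r₀ + c * s) s 0 := by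
    simpa using ((hasDerivAt_id (0 : ℝ)).mul_const s).const_add r₀
  have hl2 : HasDerivAt (fun c : ℝ => φ (z + c • v)) (fderiv ℝ φ z v) 0 := by
    have h : HasFDerivAt φ (fderiv ℝ φ z) ((fun c : ℝ => z + c • v) 0) := by simpa using hA
    exact h.comp_hasDerivAt (0 : ℝ) hl
  have hl3 : HasDerivAt (fun c : ℝ => (r₀ + c * s) • φ (z + c • v))
      (r₀ • fderiv ℝ φ z v + s • φ z) 0 := by
    have h := hl1.smul hl2
    simp only [zero_mul, add_zero, zero_smul] at h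
    exact h
  have hsq : Tendsto (fun t : ℝ => √t) (𝓝[>] 0) (𝓝[>] 0) := by
    refine tendsto_nhdsWithin_iff.2 ⟨?_, ?_⟩
    · have h := Real.continuous_sqrt.tendsto 0
      rw [Real.sqrt_zero] at h
      exact h.mono_left nhdsWithin_le_nhds
    · filter_upwards [self_mem_nhdsWithin] with t ht using Real.sqrt_pos.2 ht
  have hsq0 : Tendsto (fun t : ℝ => √t) (𝓝[>] 0) (𝓝 0) := hsq.mono_right nhdsWithin_le_nhds
  have t1 : Tendsto (fun t : ℝ => z + √t • v) (𝓝[>] 0) (𝓝 z) := by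
    have h := hl.continuousAt.tendsto.comp hsq0
    simp only [zero_smul, add_zero] at h
    exact h
  have t2 : Tendsto (fun t : ℝ => r₀ + √t * s) (𝓝[>] 0) (𝓝 r₀) := by
    have h := hl1.continuousAt.tendsto.comp hsq0
    simp only [zero_mul, add_zero] at h
    exact h
  have t3 : Tendsto (fun t : ℝ => (r₀ + √t * s) • φ (z + √t • v)) (𝓝[>] 0) (𝓝 (r₀ • φ z)) := by
    have h := hl3.continuousAt.tendsto.comp hsq0
    simp only [zero_mul, zero_smul, add_zero] at h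
    exact h
  have t4 : Tendsto (fun t : ℝ => (√t)⁻¹ • ((r₀ + √t * s) • φ (z + √t • v) - r₀ • φ z)) (𝓝[>] 0)
      (𝓝 (r₀ • fderiv ℝ φ z v + s • φ z)) := by
    have h := hl3.tendsto_slope_zero_right.comp hsq
    simp only [zero_mul, zero_smul, add_zero, zero_add] at h
    exact h
  have t5 : Tendsto (fun t : ℝ => √(gram φ (z + √t • v)).det) (𝓝[>] 0) (𝓝 √(gram φ z).det) :=
    ((contJ_Dens hU hφ).continuousAt hUz).tendsto.comp t1
  have hn : ‖r₀ • fderiv ℝ φ z v + s • φ z‖ ^ 2 = ‖s‖ ^ 2 + r₀ ^ 2 * ‖fderiv ℝ φ z v‖ ^ 2 := by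
    rw [norm_add_sq_real, inner_smul_left, inner_smul_right, real_inner_comm,
      inner_fderiv_zero hU hd hu hz, norm_smul, norm_smul, hu z hz, mul_pow, Real.norm_eq_abs r₀,
      sq_abs]
    simp only [mul_zero, add_zero, mul_one]
    ring
  have t6 : Tendsto (fun t : ℝ => Real.exp
      (-‖(√t)⁻¹ • ((r₀ + √t * s) • φ (z + √t • v) - r₀ • φ z)‖ ^ 2 / 2)) (𝓝[>] 0)
      (𝓝 (Real.exp (-‖r₀ • fderiv ℝ φ z v + s • φ z‖ ^ 2 / 2))) :=
    (Real.continuous_exp.tendsto _).comp ((t4.norm.pow 2).neg.div_const 2)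
  have t7 := (ENNReal.continuous_ofReal.tendsto _).comp
    ((((t2.pow m).mul (t6.const_mul ((2 * Real.pi) ^ (-((m + 1 : ℕ) : ℝ) / 2)))).mul
      ((hW.tendsto _).comp t3)).mul t5)
  have he : ENNReal.ofReal (r₀ ^ m * (2 * Real.pi) ^ (-((m + 1 : ℕ) : ℝ) / 2) * W (r₀ • φ z) *
        √(gram φ z).det) * (ENNReal.ofReal (Real.exp (-‖s‖ ^ 2 / 2)) *
          ENNReal.ofReal (Real.exp (-(r₀ ^ 2 * ‖fderiv ℝ φ z v‖ ^ 2) / 2))) =
      ENNReal.ofReal (r₀ ^ m * ((2 * Real.pi) ^ (-((m + 1 : ℕ) : ℝ) / 2) *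
        Real.exp (-‖r₀ • fderiv ℝ φ z v + s • φ z‖ ^ 2 / 2)) * W (r₀ • φ z) *
        √(gram φ z).det) := by
    rw [← ENNReal.ofReal_mul (Real.exp_pos _).le, ← Real.exp_add,
      ← ENNReal.ofReal_mul' (Real.exp_pos _).le, hn]
    have : -‖s‖ ^ 2 / 2 + -(r₀ ^ 2 * ‖fderiv ℝ φ z v‖ ^ 2) / 2 =
        -(‖s‖ ^ 2 + r₀ ^ 2 * ‖fderiv ℝ φ z v‖ ^ 2) / 2 := by ring
    rw [this]
    congr 1
    ring
  rw [he]
  refine t7.congr' ?_
  filter_upwards [self_mem_nhdsWithin, t1.eventually hUz, t2.eventually (Ioi_mem_nhds hr)]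
    with t ht h1 h2
  have ht0 : 0 < t := ht
  have hmem : ((r₀, z) + √t • (s, v) : ℝ × Euc m) ∈ Ioi (0 : ℝ) ×ˢ U := ⟨h2, h1⟩
  rw [K_Dens, indicator_of_mem hmem, ← ENNReal.ofReal_mul (by positivity), Function.comp_apply,
    ← gk_scale_Dens _ _ _ ht0]
  congr 1
  simp only [Prod.smul_mk, Prod.mk_add_mk, smul_eq_mul, Function.comp_apply]
  ring

theorem Link.c_dens {m : ℕ} {M : Type*} [MeasurableSpace M] (L : Link m M) (p : M) {r₀ : ℝ}
    (hr : 0 < r₀) {W : Euc (m + 2) → ℝ} (hW : Continuous W) (h0 : ∀ x, 0 ≤ W x) {b : ℝ}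
    (hb : b < W (r₀ • L.x p)) : ∀ᶠ t in 𝓝[>] (0 : ℝ), ENNReal.ofReal b ≤
      ∫⁻ q, ENNReal.ofReal (gk (m + 1) (r₀ • L.x p) t (L.cX q) * W (L.cX q)) ∂L.cμ := by
  rcases le_or_gt b 0 with hb0 | hb0
  · simp [ENNReal.ofReal_of_nonpos hb0]
  obtain ⟨U, z, φ, hU, hz, hφ, hx, hu, hi, hp⟩ := L.piece p
  rw [← hx] at hb ⊢
  set μ : Measure (ℝ × Euc m) := (volume : Measure ℝ).prod (volume : Measure (Euc m)) with hμ
  set F : ℝ → ℝ × Euc m → ℝ≥0∞ := fun t q => ENNReal.ofReal (√t ^ (m + 1)) *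
      K_Dens U φ (fun x => gk (m + 1) (r₀ • φ z) t x * W x) ((r₀, z) + √t • q) with hF
  have hK : ∀ t, Measurable (K_Dens U φ fun x => gk (m + 1) (r₀ • φ z) t x * W x) := fun t =>
    K_meas_Dens hU hφ ((gk_cont_Dens _ _ _).mul hW)
  have hFm : ∀ t, Measurable (F t) := fun t =>
    ((hK t).comp ((measurable_const_smul _).const_add _)).const_mul _
  have h1 := lintegral_liminf_le (μ := μ) (u := 𝓝[>] (0 : ℝ)) hFm
  have h2 : ∀ q, liminf (fun t => F t q) (𝓝[>] (0 : ℝ)) = _ := fun q =>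
    (lim_Dens hU hz hφ hu hr hW q).liminf_eq
  simp only [h2] at h1
  have hJ : 0 < √(gop (fderiv ℝ φ z)).det := Real.sqrt_pos.2 (gop_det_pos hi)
  rw [lintegral_const_mul' _ _ ENNReal.ofReal_ne_top, hμ,
    lintegral_prod_mul (f := fun s : ℝ => ENNReal.ofReal (Real.exp (-‖s‖ ^ 2 / 2)))
      (g := fun v : Euc m =>
        ENNReal.ofReal (Real.exp (-(r₀ ^ 2 * ‖fderiv ℝ φ z v‖ ^ 2) / 2))) (by fun_prop)
      (by fun_prop), gauss_std_Dens, gauss_lin hi hr, ← ENNReal.ofReal_mul (by positivity),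
    ← ENNReal.ofReal_mul (by have := h0 (r₀ • φ z); positivity), gram_det] at h1
  have h3 : r₀ ^ m * (2 * Real.pi) ^ (-((m + 1 : ℕ) : ℝ) / 2) * W (r₀ • φ z) *
      √(gop (fderiv ℝ φ z)).det * ((2 * Real.pi) ^ ((Module.finrank ℝ ℝ : ℝ) / 2) *
        ((2 * Real.pi) ^ ((m : ℝ) / 2) / (r₀ ^ m * √(gop (fderiv ℝ φ z)).det))) =
      W (r₀ • φ z) := by
    have h4 : (2 * Real.pi) ^ (-((m + 1 : ℕ) : ℝ) / 2) *
        ((2 * Real.pi) ^ ((Module.finrank ℝ ℝ : ℝ) / 2) * (2 * Real.pi) ^ ((m : ℝ) / 2)) = 1 := by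
      rw [← Real.rpow_add (by positivity), ← Real.rpow_add (by positivity), Module.finrank_self]
      have : -((m + 1 : ℕ) : ℝ) / 2 + (((1 : ℕ) : ℝ) / 2 + (m : ℝ) / 2) = 0 := by
        push_cast; ring
      rw [this, Real.rpow_zero]
    calc _ = W (r₀ • φ z) * ((2 * Real.pi) ^ (-((m + 1 : ℕ) : ℝ) / 2) *
        ((2 * Real.pi) ^ ((Module.finrank ℝ ℝ : ℝ) / 2) * (2 * Real.pi) ^ ((m : ℝ) / 2))) := by
          field_simp
      _ = _ := by rw [h4, mul_one]
  rw [h3] at h1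
  have h5 : ENNReal.ofReal b < ENNReal.ofReal (W (r₀ • φ z)) :=
    (ENNReal.ofReal_lt_ofReal_iff (hb0.trans hb)).2 hb
  filter_upwards [Filter.eventually_lt_of_lt_liminf (h5.trans_le h1), self_mem_nhdsWithin]
    with t ht ht0
  refine ht.le.trans ?_
  have ht1 : 0 < t := ht0
  have h6 := subst_Dens ((volume : Measure ℝ).prod (volume : Measure (Euc m))) (r₀, z)
    (Real.sqrt_pos.2 ht1) (hK t)
  have h7 : Module.finrank ℝ (ℝ × Euc m) = m + 1 := by
    rw [Module.finrank_prod, Module.finrank_self, finrank_euclideanSpace_fin, add_comm]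
  rw [h7] at h6
  rw [hF]
  refine h6.le.trans ?_
  exact K_le_Dens L hU hp ((gk_cont_Dens _ _ _).mul hW)
    fun x => mul_nonneg (gk_nonneg_Dens _ _ ht1 _) (h0 x)

end Vale.Agent.P224
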