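import Vale.Agent.P224.Div

/-!
# Integration by parts in a chart  (TASK)

`int_div_zero`: extend `Y` by `indicator U` (it is `C¹` on the whole space: near points of `U` it is
`Y`, near points outside the compact `K` it is `0`), apply
`integral_mul_fderiv_eq_neg_fderiv_mul_of_integrable` (with the constant function `1`) to each
coordinate; continuous functions with compact support are integrable.
`chart_stat`: apply it to `Y = u • vf φ v`; product rule, `∑ᵢ Du(eᵢ) Yᵢ = Du(Y)`, `div_vf`.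
Both integrands are continuous on `U` and vanish outside `K`, so they are integrable on `U`.
-/

namespace Vale.Agent.P224

open scoped RealInnerProductSpace ENNReal Topology
open MeasureTheory Set Filter

variable {m N : ℕ} {φ : Euc m → Euc N} {U K : Set (Euc m)}

theorem ind_DivInt {E : Type*} [NormedAddCommGroup E] [NormedSpace ℝ E] (hU : IsOpen U)
    (hK : IsCompact K) (hKU : K ⊆ U) {Y : Euc m → E} {n : WithTop ℕ∞} (hY : ContDiffOn ℝ n Y U)
    (h0 : ∀ z ∈ U, z ∉ K → Y z = 0) :
    ContDiff ℝ n (U.indicator Y) ∧ HasCompactSupport (U.indicator Y) ∧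
      (∀ z ∈ U, U.indicator Y =ᶠ[𝓝 z] Y) ∧ ∀ z ∉ U, U.indicator Y =ᶠ[𝓝 z] fun _ => 0 := by
  have h1 : ∀ z ∈ U, U.indicator Y =ᶠ[𝓝 z] Y := fun z hz => by
    filter_upwards [hU.mem_nhds hz] with y hy using indicator_of_mem hy Y
  have h2 : ∀ z ∉ K, U.indicator Y z = 0 := fun z hz => by
    by_cases h : z ∈ U
    · rw [indicator_of_mem h, h0 z h hz]
    · exact indicator_of_notMem h Y
  have h3 : ∀ z ∉ U, U.indicator Y =ᶠ[𝓝 z] fun _ => 0 := fun z hz => by
    filter_upwards [hK.isClosed.isOpen_compl.mem_nhds fun h => hz (hKU h)] with y hy using h2 y hy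
  refine ⟨contDiff_iff_contDiffAt.2 fun z => ?_, HasCompactSupport.intro hK h2, h1, h3⟩
  by_cases hz : z ∈ U
  · exact (hY.contDiffAt (hU.mem_nhds hz)).congr_of_eventuallyEq (h1 z hz)
  · exact contDiffAt_const.congr_of_eventuallyEq (h3 z hz)

theorem coord_DivInt {W : Euc m → Euc m} (hW : ContDiff ℝ 1 W) (hc : HasCompactSupport W)
    (i : Fin m) : Integrable (fun z => fderiv ℝ W z (EuclideanSpace.single i 1) i) ∧
      ∫ z, fderiv ℝ W z (EuclideanSpace.single i 1) i = 0 := by
  have hg : ContDiff ℝ 1 fun z => W z i := (EuclideanSpace.proj (𝕜 := ℝ) i).contDiff.comp hW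
  have hgc : HasCompactSupport fun z => W z i := hc.comp_left (g := fun y : Euc m => y i) rfl
  have e : ∀ z, fderiv ℝ W z (EuclideanSpace.single i 1) i =
      fderiv ℝ (fun z => W z i) z (EuclideanSpace.single i 1) := fun z => by
    rw [show fderiv ℝ (fun z => W z i) z = _ from ((EuclideanSpace.proj (𝕜 := ℝ) i).hasFDerivAt.comp
      z (hW.differentiable one_ne_zero z).hasFDerivAt).fderiv]
    rfl
  have hi : Integrable fun z => fderiv ℝ (fun z => W z i) z (EuclideanSpace.single i 1) :=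
    ((hg.continuous_fderiv one_ne_zero).clm_apply continuous_const).integrable_of_hasCompactSupport
      (hgc.fderiv_apply ℝ _)
  have h := integral_mul_fderiv_eq_neg_fderiv_mul_of_integrable (μ := volume)
    (f := fun _ : Euc m => (1 : ℝ)) (g := fun z => W z i) (v := EuclideanSpace.single i 1)
    (by simp) (by simpa using hi) (by simpa using hg.continuous.integrable_of_hasCompactSupport hgc)
    (fun _ _ => differentiableAt_const _) fun z _ => hg.differentiable one_ne_zero z
  simp only [e]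
  exact ⟨hi, by simpa using h⟩

theorem integrableOn_of_supp (hU : IsOpen U) (hK : IsCompact K) (hKU : K ⊆ U) {f : Euc m → ℝ}
    (hf : ContinuousOn f U) (h0 : ∀ z ∈ U, z ∉ K → f z = 0) : IntegrableOn f U := by
  obtain ⟨h1, h2, -⟩ := ind_DivInt hU hK hKU (contDiffOn_zero.2 hf) h0
  exact (integrable_indicator_iff hU.measurableSet).1
    (h1.continuous.integrable_of_hasCompactSupport h2)

theorem int_div_zero (hU : IsOpen U) (hK : IsCompact K) (hKU : K ⊆ U) {Y : Euc m → Euc m}
    (hY : ContDiffOn ℝ 1 Y U) (h0 : ∀ z ∈ U, z ∉ K → Y z = 0) :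
    ∫ z in U, ∑ i, fderiv ℝ Y z (EuclideanSpace.single i 1) i = 0 := by
  obtain ⟨h1, h2, h3, h4⟩ := ind_DivInt hU hK hKU hY h0
  rw [setIntegral_congr_fun hU.measurableSet (g := fun z =>
      ∑ i, fderiv ℝ (U.indicator Y) z (EuclideanSpace.single i 1) i)
      fun z hz => by simp only [(h3 z hz).fderiv_eq],
    setIntegral_eq_integral_of_forall_compl_eq_zero fun z hz => by simp [(h4 z hz).fderiv_eq],
    integral_finsetSum _ fun i _ => (coord_DivInt h1 h2 i).1]
  exact Finset.sum_eq_zero fun i _ => (coord_DivInt h1 h2 i).2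

theorem chart_stat (hU : IsOpen U) (hK : IsCompact K) (hKU : K ⊆ U) (hφ : ContDiffOn ℝ 2 φ U)
    (hu : ∀ z ∈ U, ‖φ z‖ = 1) (hi : ∀ z ∈ U, Function.Injective (fderiv ℝ φ z))
    (hmin : ∀ z ∈ U, ∀ w : Euc N, ⟪w, φ z⟫ = 0 → (∀ i, ⟪w, pd φ i z⟫ = 0) →
      ∑ i, ∑ j, (gram φ z)⁻¹ i j * ⟪pd (pd φ j) i z, w⟫ = 0)
    {u : Euc m → ℝ} (hu1 : ContDiffOn ℝ 1 u U) (h0 : ∀ z ∈ U, z ∉ K → u z = 0) (v : Euc N) :
    ∫ z in U, √(gram φ z).det * fderiv ℝ u z (tco (fderiv ℝ φ z) v) =
      m * ∫ z in U, √(gram φ z).det * (u z * ⟪φ z, v⟫) := by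
  have hJ := contDiffOn_J hU hφ hi
  have hT : ContDiffOn ℝ 1 (fun z => tco (fderiv ℝ φ z) v) U :=
    (contDiffOn_tco hU hφ hi).clm_apply contDiffOn_const
  have hV : ContDiffOn ℝ 1 (vf φ v) U := hJ.smul hT
  have h1 := int_div_zero hU hK hKU (Y := fun z => u z • vf φ v z) (hu1.smul hV)
    fun z hz hz' => by rw [h0 z hz hz', zero_smul]
  have hd : ∀ z ∈ U, z ∉ K → fderiv ℝ u z = 0 := fun z hz hz' => by
    have e : u =ᶠ[𝓝 z] fun _ => 0 := by
      filter_upwards [hU.mem_nhds hz, hK.isClosed.isOpen_compl.mem_nhds hz'] with y a b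
        using h0 y a b
    simp [e.fderiv_eq]
  have i1 : IntegrableOn (fun z => √(gram φ z).det * fderiv ℝ u z (tco (fderiv ℝ φ z) v)) U :=
    integrableOn_of_supp hU hK hKU (hJ.continuousOn.mul
      ((hu1.continuousOn_fderiv_of_isOpen hU le_rfl).clm_apply hT.continuousOn))
      fun z hz hz' => by simp [hd z hz hz']
  have i2 : IntegrableOn (fun z => √(gram φ z).det * (u z * ⟪φ z, v⟫)) U :=
    integrableOn_of_supp hU hK hKU (hJ.continuousOn.mul
      (hu1.continuousOn.mul (hφ.continuousOn.inner continuousOn_const)))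
      fun z hz hz' => by simp [h0 z hz hz']
  rw [setIntegral_congr_fun hU.measurableSet (g := fun z =>
      √(gram φ z).det * fderiv ℝ u z (tco (fderiv ℝ φ z) v) -
        m * (√(gram φ z).det * (u z * ⟪φ z, v⟫))) fun z hz => ?_,
    integral_sub i1 (i2.const_mul _), integral_const_mul, sub_eq_zero] at h1
  · exact h1
  have du := (hu1.contDiffAt (hU.mem_nhds hz)).differentiableAt one_ne_zero
  have dV := (hV.contDiffAt (hU.mem_nhds hz)).differentiableAt one_ne_zero
  have e1 := div_vf hU hφ hu hi hz (hmin z hz) v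
  have e2 : ∑ i, fderiv ℝ u z (EuclideanSpace.single i 1) * vf φ v z i =
      fderiv ℝ u z (vf φ v z) := by
    conv_rhs => rw [← (EuclideanSpace.basisFun (Fin m) ℝ).sum_repr (vf φ v z)]
    simp [mul_comm]
  have e3 : fderiv ℝ u z (vf φ v z) = √(gram φ z).det * fderiv ℝ u z (tco (fderiv ℝ φ z) v) := by
    rw [vf, map_smul, smul_eq_mul]
  simp only [fderiv_fun_smul du dV, add_apply,
    smul_apply, ContinuousLinearMap.smulRight_apply, PiLp.add_apply,
    PiLp.smul_apply, smul_eq_mul, Finset.sum_add_distrib]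
  rw [← Finset.mul_sum, e1, e2, e3]
  ring

end Vale.Agent.P224
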