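import Vale.Agent.P224.Div

/-!
# An immersion into an equator covers it  (TASK)

`range F` is compact, nonempty and contained in the connected set `S = {‖y‖ = 1, ⟪a,y⟫ = 0}`
(image of the unit sphere of `(ℝ ∙ a)ᗮ`, `isConnected_sphere`, rank `m + 1 > 1`).  It is also
relatively open: at `p`, with `φ = F ∘ e.symm`, `z = e p`, `A = Dφ(z)`, the map `Aᵀ ∘ φ` has the
invertible strict derivative `gop A` at `z`, so it maps neighbourhoods of `z` to neighbourhoods
(`HasStrictFDerivAt.map_nhds_eq_of_equiv`).  `range A` is orthogonal to `a` and `φ z`, so by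
dimension `ker Aᵀ = span {a, φ z}`.  If `y ∈ S` is near `φ z` then `Aᵀ y = Aᵀ (φ ζ)` with `ζ` near
`z`; `y - φ ζ = c • φ z` (both are orthogonal to `a`), and `‖y‖ = ‖φ ζ‖ = 1` gives
`c ⟪φ z, y + φ ζ⟫ = 0`, so `c = 0`.  Conclude with `IsPreconnected.subset_of_closure_inter_subset`
or `isClopen_iff` on the subtype.
-/

namespace Vale.Agent.P224

open scoped RealInnerProductSpace ENNReal Topology
open MeasureTheory Set Filter

theorem span_Equator {m : ℕ} {A : Euc m →L[ℝ] Euc (m + 2)} (hA : Function.Injective A)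
    {a u w : Euc (m + 2)} (ha : a ≠ 0) (hu : ‖u‖ = 1) (hau : ⟪a, u⟫ = 0)
    (haA : ∀ h, ⟪a, A h⟫ = 0) (huA : ∀ h, ⟪u, A h⟫ = 0) (hwA : ∀ h, ⟪w, A h⟫ = 0)
    (hwa : ⟪a, w⟫ = 0) : w = ⟪u, w⟫ • u := by
  let T : (Euc m × ℝ × ℝ) →ₗ[ℝ] Euc (m + 2) :=
    (A : Euc m →ₗ[ℝ] Euc (m + 2)).coprod
      ((LinearMap.toSpanSingleton ℝ _ a).coprod (LinearMap.toSpanSingleton ℝ _ u))
  have hT : ∀ x, T x = A x.1 + (x.2.1 • a + x.2.2 • u) := fun x => rfl
  have uu : ⟪u, u⟫ = 1 := by rw [real_inner_self_eq_norm_sq, hu, one_pow]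
  have ua : ⟪u, a⟫ = 0 := by rw [real_inner_comm, hau]
  have inj : Function.Injective T := by
    rw [injective_iff_map_eq_zero]
    rintro ⟨h, s, t⟩ e
    rw [hT] at e
    have e1 := congrArg (fun y => ⟪a, y⟫) e
    have e2 := congrArg (fun y => ⟪u, y⟫) e
    simp only [inner_add_right, inner_smul_right, haA, huA, hau, ua, uu, inner_zero_right,
      mul_zero, add_zero, zero_add, mul_one] at e1 e2
    have s0 : s = 0 := (mul_eq_zero.mp e1).resolve_right (inner_self_ne_zero.mpr ha)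
    rw [s0, e2] at e
    simp only [zero_smul, add_zero] at e
    rw [s0, e2, hA (e.trans (map_zero A).symm)]
    rfl
  have sur : Function.Surjective T :=
    (LinearMap.injective_iff_surjective_of_finrank_eq_finrank (by simp)).mp inj
  obtain ⟨⟨h, s, t⟩, e⟩ := sur w
  rw [hT] at e
  have e1 := congrArg (fun y => ⟪a, y⟫) e
  have e2 := congrArg (fun y => ⟪u, y⟫) e
  have e3 := congrArg (fun y => ⟪y, A h⟫) e
  simp only [inner_add_right, inner_smul_right, haA, huA, hau, ua, uu, hwa,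
    mul_zero, add_zero, zero_add, mul_one] at e1 e2
  simp only [inner_add_left, real_inner_smul_left, haA, huA, hwA, mul_zero, add_zero] at e3
  have s0 : s = 0 := (mul_eq_zero.mp e1).resolve_right (inner_self_ne_zero.mpr ha)
  rw [inner_self_eq_zero.mp e3, s0, zero_smul, zero_add, zero_add] at e
  rw [← e2]
  exact e.symm

theorem Imm.open_Equator {m : ℕ} {M : Type*} [TopologicalSpace M] [ChartedSpace (Euc m) M]
    {F : M → Euc (m + 2)} (h : Imm m F) {a : Euc (m + 2)}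
    (ha : a ≠ 0) (h0 : ∀ p, ⟪a, F p⟫ = 0) (p : M) :
    ∀ᶠ y in 𝓝 (F p), ‖y‖ = 1 ∧ ⟪a, y⟫ = 0 → y ∈ range F := by
  obtain ⟨e, he⟩ : ∃ e, e = chartAt (Euc m) p := ⟨_, rfl⟩
  have ea : e ∈ atlas (Euc m) M := he ▸ chart_mem_atlas _ p
  have ps : p ∈ e.source := he ▸ mem_chart_source _ p
  have zt : e p ∈ e.target := e.map_source ps
  obtain ⟨φ, hφ⟩ : ∃ φ, φ = F ∘ e.symm := ⟨_, rfl⟩
  have φz : φ (e p) = F p := by rw [hφ, Function.comp_apply, e.left_inv ps]
  have sm : ContDiffOn ℝ 2 φ e.target := hφ ▸ h.smooth e ea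
  have cd : ContDiffAt ℝ 2 φ (e p) := sm.contDiffAt (e.open_target.mem_nhds zt)
  have sd := cd.hasStrictFDerivAt (by norm_num)
  have inj : Function.Injective (fderiv ℝ φ (e p)) := hφ ▸ h.inj e ea _ zt
  have un : ∀ z, ‖φ z‖ = 1 := fun z => hφ ▸ h.unit _
  have a0 : ∀ z, ⟪a, φ z⟫ = 0 := fun z => hφ ▸ h0 _
  have uA := inner_fderiv_zero e.open_target (sm.differentiableOn (by norm_num))
    (fun z _ => un z) zt
  obtain ⟨A, hA⟩ : ∃ A, A = fderiv ℝ φ (e p) := ⟨_, rfl⟩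
  rw [← hA] at sd inj uA
  have aA : ∀ k, ⟪a, A k⟫ = 0 := by
    intro k
    have b1 := (innerSL ℝ a).hasFDerivAt.comp (e p) sd.hasFDerivAt
    have b2 : (innerSL ℝ a) ∘ φ = fun _ => 0 := funext a0
    rw [b2] at b1
    exact congrArg (fun T : Euc m →L[ℝ] ℝ => T k) (b1.unique (hasFDerivAt_const 0 _))
  obtain ⟨G, hG⟩ := gop_isInvertible inj
  have s2 : HasStrictFDerivAt ((ContinuousLinearMap.adjoint A) ∘ φ) (G : Euc m →L[ℝ] Euc m)
      (e p) := by
    rw [hG]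
    exact (ContinuousLinearMap.adjoint A).hasStrictFDerivAt.comp (e p) sd
  have pos : 0 < ⟪F p, F p⟫ := by rw [real_inner_self_eq_norm_sq, h.unit]; norm_num
  have n1 : {z | 0 < ⟪F p, φ z⟫} ∈ 𝓝 (e p) :=
    (continuousAt_const.inner cd.continuousAt).eventually
      (lt_mem_nhds (show 0 < ⟪F p, φ (e p)⟫ by rw [φz]; exact pos))
  have n2 := image_mem_map (m := (ContinuousLinearMap.adjoint A) ∘ φ) n1
  rw [s2.map_nhds_eq_of_equiv, Function.comp_apply, φz] at n2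
  have n3 := (ContinuousLinearMap.adjoint A).continuous.continuousAt.eventually n2
  have n4 : ∀ᶠ y in 𝓝 (F p), 0 < ⟪F p, y⟫ :=
    (continuousAt_const.inner continuousAt_id).eventually (lt_mem_nhds pos)
  filter_upwards [n3, n4] with y hy y0 hS
  obtain ⟨z, z1, z2⟩ := hy
  have z0 : 0 < ⟪F p, φ z⟫ := z1
  rw [φz] at uA
  have w1 := span_Equator (w := y - φ z) inj ha (h.unit p) (h0 p) aA uA (fun k => by
    rw [← ContinuousLinearMap.adjoint_inner_left, map_sub, ← z2, Function.comp_apply, sub_self,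
      inner_zero_left]) (by rw [inner_sub_right, hS.2, a0, sub_zero])
  have w2 : ⟪y - φ z, y + φ z⟫ = 0 := by
    rw [inner_sub_left, inner_add_right, inner_add_right, real_inner_self_eq_norm_sq,
      real_inner_self_eq_norm_sq, hS.1, un, real_inner_comm]
    ring
  rw [w1, real_inner_smul_left, inner_add_right] at w2
  have w3 := (mul_eq_zero.mp w2).resolve_right (add_pos y0 z0).ne'
  rw [w3, zero_smul, sub_eq_zero] at w1
  exact ⟨e.symm z, by rw [w1, hφ]; rfl⟩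

theorem conn_Equator {m : ℕ} (hm : 1 ≤ m) {a : Euc (m + 2)} (ha : a ≠ 0) :
    IsPreconnected {y : Euc (m + 2) | ‖y‖ = 1 ∧ ⟪a, y⟫ = 0} := by
  have f1 : Fact (Module.finrank ℝ (Euc (m + 2)) = m + 1 + 1) := ⟨by simp⟩
  have f2 := Submodule.finrank_orthogonal_span_singleton (𝕜 := ℝ) (n := m + 1) ha
  have f3 : 1 < Module.rank ℝ (ℝ ∙ a)ᗮ := by
    rw [← Module.finrank_eq_rank, f2]
    exact_mod_cast Nat.lt_succ_of_le hm
  have f4 := (isPreconnected_sphere f3 0 1).image _ continuous_subtype_val.continuousOn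
  have e : Subtype.val '' Metric.sphere (0 : (ℝ ∙ a)ᗮ) 1 =
      {y : Euc (m + 2) | ‖y‖ = 1 ∧ ⟪a, y⟫ = 0} := by
    ext y
    constructor
    · rintro ⟨x, hx, rfl⟩
      exact ⟨mem_sphere_zero_iff_norm.mp hx,
        Submodule.mem_orthogonal_singleton_iff_inner_right.mp x.2⟩
    · rintro ⟨h1, h2⟩
      exact ⟨⟨y, Submodule.mem_orthogonal_singleton_iff_inner_right.mpr h2⟩,
        mem_sphere_zero_iff_norm.mpr h1, rfl⟩
  rwa [e] at f4

theorem Imm.range_eq {m : ℕ} (hm : 1 ≤ m) {M : Type*} [TopologicalSpace M] [ChartedSpace (Euc m) M]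
    [CompactSpace M] [Nonempty M] {F : M → Euc (m + 2)} (h : Imm m F) {a : Euc (m + 2)}
    (ha : a ≠ 0) (h0 : ∀ p, ⟪a, F p⟫ = 0) : range F = {y | ‖y‖ = 1 ∧ ⟪a, y⟫ = 0} := by
  refine Subset.antisymm ?_ fun y hy => ?_
  · rintro _ ⟨p, rfl⟩
    exact ⟨h.unit p, h0 p⟩
  by_contra hc
  obtain ⟨p⟩ := ‹Nonempty M›
  obtain ⟨x, x1, x2, x3⟩ := conn_Equator hm ha
    {y | ∀ᶠ y' in 𝓝 y, ‖y'‖ = 1 ∧ ⟪a, y'⟫ = 0 → y' ∈ range F} (range F)ᶜ
    isOpen_setOfPred_eventually_nhds (isCompact_range h.cont).isClosed.isOpen_compl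
    (fun x _ => by
      by_cases c : x ∈ range F
      · obtain ⟨q, rfl⟩ := c
        exact Or.inl (h.open_Equator ha h0 q)
      · exact Or.inr c)
    ⟨F p, ⟨h.unit p, h0 p⟩, h.open_Equator ha h0 p⟩ ⟨y, hy, hc⟩
  exact x3 (Filter.Eventually.self_of_nhds x2 x1)

end Vale.Agent.P224
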