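import Vale.Agent.P224.Defs

/-!
# From manifolds to charts  (TASK)

`imm_of`: `contMDiffOn_symm_of_mem_maximalAtlas`, `contMDiffOn_of_mem_maximalAtlas`
(`IsManifold.subset_maximalAtlas`), `contMDiffOn_iff_contDiffOn`; injectivity from the chain rule
`mfderiv_comp` for `F ∘ e.symm`, `mfderiv_eq_fderiv`, and injectivity of `mfderiv e.symm`
(`OpenPartialHomeomorph.MDifferentiable.mfderiv_injective`, `mdifferentiable_of_mem_atlas`).
`exists_pou`: a finite subcover of the chart sources (`CompactSpace.elim_nhds_subcover` or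
`IsCompact.elim_finite_subcover`), `SmoothPartitionOfUnity.exists_isSubordinate`,
`sum_eq_one`, `finsum_eq_sum_of_fintype`.
-/

namespace Vale.Agent.P224

open scoped RealInnerProductSpace ENNReal Topology
open MeasureTheory Set Filter

open scoped Manifold ContDiff

variable {m N : ℕ} {M : Type*} [TopologicalSpace M] [ChartedSpace (Euc m) M]
  [IsManifold 𝓘(ℝ, Euc m) ∞ M]

theorem le_Man (n : ℕ) : (n : WithTop ℕ∞) ≤ ((⊤ : ℕ∞) : WithTop ℕ∞) := by
  exact_mod_cast le_top

theorem imm_of {F : M → Euc N} (hF : ContMDiff 𝓘(ℝ, Euc m) 𝓘(ℝ, Euc N) ∞ F) (hS : ∀ p, ‖F p‖ = 1)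
    (hI : ∀ p, Function.Injective (mfderiv 𝓘(ℝ, Euc m) 𝓘(ℝ, Euc N) F p)) : Imm m F := by
  refine ⟨hF.continuous, hS, fun e he => ?_, fun e he e' he' => ?_, fun e he z hz => ?_⟩
  · exact (contMDiffOn_iff_contDiffOn.1 (hF.comp_contMDiffOn
      (contMDiffOn_symm_of_mem_maximalAtlas (IsManifold.subset_maximalAtlas he)))).of_le (le_Man 2)
  · exact (contMDiffOn_iff_contDiffOn.1 (ContMDiffOn.comp'
      (contMDiffOn_of_mem_maximalAtlas (I := 𝓘(ℝ, Euc m)) (n := ∞)
        (IsManifold.subset_maximalAtlas he'))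
      (contMDiffOn_symm_of_mem_maximalAtlas (IsManifold.subset_maximalAtlas he)))).of_le (le_Man 2)
  · have h := mdifferentiable_of_mem_atlas (I := 𝓘(ℝ, Euc m)) he
    rw [← mfderiv_eq_fderiv, mfderiv_comp z (hF.mdifferentiableAt (by simp))
      (h.mdifferentiableAt_symm hz)]
    exact (hI _).comp (h.symm.mfderiv_injective hz)

variable (m M) in
theorem exists_pou [T2Space M] [CompactSpace M] : ∃ (s : Finset M) (ψ : s → M → ℝ),
    (∀ i, Continuous (ψ i)) ∧ (∀ i, tsupport (ψ i) ⊆ (chartAt (Euc m) (i : M)).source) ∧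
    (∀ p, ∑ i, ψ i p = 1) ∧
    ∀ i, ∀ e ∈ atlas (Euc m) M, ContDiffOn ℝ 1 (ψ i ∘ e.symm) e.target := by
  obtain ⟨s, hs⟩ := CompactSpace.elim_nhds_subcover (fun p : M => (chartAt (Euc m) p).source)
    fun p => chart_source_mem_nhds _ p
  obtain ⟨f, hf⟩ := SmoothPartitionOfUnity.exists_isSubordinate 𝓘(ℝ, Euc m) isClosed_univ
    (fun i : s => (chartAt (Euc m) (i : M)).source) (fun i => (chartAt _ _).open_source)
    (fun p hp => by
      obtain ⟨i, hi, h⟩ := mem_iUnion₂.1 (hs.ge hp)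
      exact mem_iUnion.2 ⟨⟨i, hi⟩, h⟩)
  refine ⟨s, fun i => f i, fun i => (f i).contMDiff.continuous, hf, fun p => ?_, fun i e he => ?_⟩
  · rw [← finsum_eq_sum_of_fintype]
    exact f.sum_eq_one (mem_univ p)
  · exact (contMDiffOn_iff_contDiffOn.1 ((f i).contMDiff.comp_contMDiffOn
      (contMDiffOn_symm_of_mem_maximalAtlas (IsManifold.subset_maximalAtlas he)))).of_le
      (le_Man 1)

end Vale.Agent.P224
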