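import Vale.Agent.P224.Meas
import Vale.Agent.P224.DivInt

/-!
# Stationarity of a closed minimal immersion  (TASK)

`tp_eq`: `Imm.chain` with `u = F`, `prj_comp`.  `tp_cont`: on `e.source`,
`tp p = prj (D(F ∘ e.symm) (e p))` is continuous (`contDiffOn_tco`).
`stat`: let `dψ i p = D(ψ i ∘ c.symm) (c p) (tco (D(F ∘ c.symm) (c p)) v)`, `c = chartAt p`; by
`Imm.chain` and `tco_comp` the same formula holds in every chart `e` with `p ∈ e.source`, so
`dψ i` is continuous, it vanishes off `tsupport (ψ i)`, and `∑ᵢ dψ i p = 0` (differentiate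
`∑ᵢ ψ i ∘ c.symm = 1`).  For each `i`, `chart_stat` in the chart `e = chartAt i` with
`u = (ψ i * g ∘ F) ∘ e.symm`, `K = e ’’ tsupport (ψ i)`, and `chm_int`,
`setIntegral_eq_integral_of_forall_compl_eq_zero`, give
`∫ (dψ i * g (F p) + ψ i * Dg (F p) (tp p v)) dσ = m ∫ ψ i * g (F p) * ⟪F p, v⟫ dσ`.
Sum over `i` (continuous functions on a compact space are integrable for a finite measure).
-/

namespace Vale.Agent.P224

open scoped RealInnerProductSpace ENNReal Topology
open MeasureTheory Set Filter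

variable {m N : ℕ} {M : Type*} [TopologicalSpace M] [ChartedSpace (Euc m) M] {F : M → Euc N}

private theorem diffF_StatM (h : Imm m F) {e : OpenPartialHomeomorph M (Euc m)}
    (he : e ∈ atlas (Euc m) M) {z : Euc m} (hz : z ∈ e.target) :
    DifferentiableAt ℝ (F ∘ e.symm) z :=
  ((h.smooth e he).contDiffAt (e.open_target.mem_nhds hz)).differentiableAt (by norm_num)

theorem Imm.tp_eq (h : Imm m F) {e : OpenPartialHomeomorph M (Euc m)} (he : e ∈ atlas (Euc m) M)
    {p : M} (hp : p ∈ e.source) : tp m F p = prj (fderiv ℝ (F ∘ e.symm) (e p)) := by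
  borelize M
  have hc := chart_mem_atlas (Euc m) p
  have hpc := mem_chart_source (Euc m) p
  have hch := h.chain hc he hpc hp (diffF_StatM h he (e.map_source hp))
  have hi := h.inj _ hc _ ((chartAt (Euc m) p).map_source hpc)
  unfold tp
  rw [hch] at hi ⊢
  exact prj_comp hi (h.inj e he _ (e.map_source hp))

private theorem contD_StatM (h : Imm m F) {e : OpenPartialHomeomorph M (Euc m)}
    (he : e ∈ atlas (Euc m) M) :
    ContinuousOn (fun p => fderiv ℝ (F ∘ e.symm) (e p)) e.source :=
  ((h.smooth e he).continuousOn_fderiv_of_isOpen e.open_target (by norm_num)).comp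
    e.continuousOn e.mapsTo

private theorem contT_StatM (h : Imm m F) {e : OpenPartialHomeomorph M (Euc m)}
    (he : e ∈ atlas (Euc m) M) :
    ContinuousOn (fun p => tco (fderiv ℝ (F ∘ e.symm) (e p))) e.source :=
  (contDiffOn_tco e.open_target (h.smooth e he) (h.inj e he)).continuousOn.comp
    e.continuousOn e.mapsTo

theorem Imm.tp_cont (h : Imm m F) : Continuous (tp m F) := by
  rw [continuous_iff_continuousAt]
  intro p
  have hc := chart_mem_atlas (Euc m) p
  have hpc := mem_chart_source (Euc m) p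
  have h1 : ContinuousOn (tp m F) (chartAt (Euc m) p).source := by
    refine ((contD_StatM h hc).clm_comp (contT_StatM h hc)).congr ?_
    intro q hq
    exact h.tp_eq hc hq
  exact h1.continuousAt ((chartAt (Euc m) p).open_source.mem_nhds hpc)

/-- The derivative of `u` in the direction of the tangential part of `v`. -/
private noncomputable def gr_StatM (m : ℕ) {N : ℕ} {M : Type*} [TopologicalSpace M]
    [ChartedSpace (Euc m) M] (F : M → Euc N) (v : Euc N) (u : M → ℝ) (p : M) : ℝ :=
  fderiv ℝ (u ∘ (chartAt (Euc m) p).symm) (chartAt (Euc m) p p)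
    (tco (fderiv ℝ (F ∘ (chartAt (Euc m) p).symm) (chartAt (Euc m) p p)) v)

private theorem diffU_StatM {u : M → ℝ}
    (hu : ∀ e ∈ atlas (Euc m) M, ContDiffOn ℝ 1 (u ∘ e.symm) e.target)
    {e : OpenPartialHomeomorph M (Euc m)} (he : e ∈ atlas (Euc m) M) {z : Euc m}
    (hz : z ∈ e.target) : DifferentiableAt ℝ (u ∘ e.symm) z :=
  ((hu e he).contDiffAt (e.open_target.mem_nhds hz)).differentiableAt (by norm_num)

private theorem gr_eq_StatM (h : Imm m F) (v : Euc N) {u : M → ℝ}
    (hu : ∀ e ∈ atlas (Euc m) M, ContDiffOn ℝ 1 (u ∘ e.symm) e.target)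
    {e : OpenPartialHomeomorph M (Euc m)} (he : e ∈ atlas (Euc m) M) {p : M}
    (hp : p ∈ e.source) :
    gr_StatM m F v u p = fderiv ℝ (u ∘ e.symm) (e p) (tco (fderiv ℝ (F ∘ e.symm) (e p)) v) := by
  borelize M
  have hc := chart_mem_atlas (Euc m) p
  have hpc := mem_chart_source (Euc m) p
  have hch := h.chain hc he hpc hp (diffF_StatM h he (e.map_source hp))
  have hcu := h.chain hc he hpc hp (diffU_StatM hu he (e.map_source hp))
  have hi := h.inj _ hc _ ((chartAt (Euc m) p).map_source hpc)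
  unfold gr_StatM
  rw [hch] at hi ⊢
  rw [hcu, ContinuousLinearMap.comp_apply, tco_comp hi (h.inj e he _ (e.map_source hp))]

private theorem gr_cont_StatM (h : Imm m F) (v : Euc N) {u : M → ℝ}
    (hu : ∀ e ∈ atlas (Euc m) M, ContDiffOn ℝ 1 (u ∘ e.symm) e.target) :
    Continuous (gr_StatM m F v u) := by
  rw [continuous_iff_continuousAt]
  intro p
  have hc := chart_mem_atlas (Euc m) p
  have hpc := mem_chart_source (Euc m) p
  have h0 : ContinuousOn (fun q => fderiv ℝ (u ∘ (chartAt (Euc m) p).symm) (chartAt (Euc m) p q))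
      (chartAt (Euc m) p).source :=
    ((hu _ hc).continuousOn_fderiv_of_isOpen (chartAt (Euc m) p).open_target le_rfl).comp
      (chartAt (Euc m) p).continuousOn (chartAt (Euc m) p).mapsTo
  have h1 : ContinuousOn (gr_StatM m F v u) (chartAt (Euc m) p).source := by
    refine (h0.clm_apply ((contT_StatM h hc).clm_apply (continuousOn_const (c := v)))).congr ?_
    intro q hq
    exact gr_eq_StatM h v hu hc hq
  exact h1.continuousAt ((chartAt (Euc m) p).open_source.mem_nhds hpc)

private theorem gr_zero_StatM (v : Euc N) {u : M → ℝ} {p : M} (hp : p ∉ tsupport u) :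
    gr_StatM m F v u p = 0 := by
  have hpc := mem_chart_source (Euc m) p
  have h1 : u =ᶠ[𝓝 p] 0 := notMem_tsupport_iff_eventuallyEq.1 hp
  have h2 : Tendsto (chartAt (Euc m) p).symm (𝓝 (chartAt (Euc m) p p)) (𝓝 p) :=
    (chartAt (Euc m) p).tendsto_symm hpc
  have h3 : u ∘ (chartAt (Euc m) p).symm =ᶠ[𝓝 (chartAt (Euc m) p p)] fun _ => (0 : ℝ) :=
    h2.eventually h1
  unfold gr_StatM
  rw [h3.fderiv_eq]
  simp

private theorem loc_StatM [CompactSpace M] [MeasurableSpace M] [BorelSpace M] (h : Imm m F)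
    (hmin : IsMinimal m F) {σ : Measure M}
    (hσ : ∀ e ∈ atlas (Euc m) M, σ.restrict e.source = chm m F e) (v : Euc N) {u : M → ℝ}
    (huc : Continuous u) (hu : ∀ e ∈ atlas (Euc m) M, ContDiffOn ℝ 1 (u ∘ e.symm) e.target)
    {e : OpenPartialHomeomorph M (Euc m)} (he : e ∈ atlas (Euc m) M)
    (hs : tsupport u ⊆ e.source) :
    ∫ p, gr_StatM m F v u p ∂σ = m * ∫ p, u p * ⟪F p, v⟫ ∂σ := by
  have hK : IsCompact (e '' tsupport u) :=
    (isClosed_tsupport u).isCompact.image_of_continuousOn (e.continuousOn.mono hs)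
  have hKU : e '' tsupport u ⊆ e.target := by
    rintro _ ⟨p, hp, rfl⟩
    exact e.map_source (hs hp)
  have h0 : ∀ z ∈ e.target, z ∉ e '' tsupport u → (u ∘ e.symm) z = 0 := by
    intro z hz hzK
    refine image_eq_zero_of_notMem_tsupport (f := u) fun hp => hzK ⟨_, hp, e.right_inv hz⟩
  have key := chart_stat e.open_target hK hKU (h.smooth e he) (fun z _ => h.unit _) (h.inj e he)
    (hmin e he) (hu e he) h0 v
  have c2 : Continuous fun p => u p * ⟪F p, v⟫ := huc.mul (h.cont.inner continuous_const)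
  rw [← setIntegral_eq_integral_of_forall_compl_eq_zero (s := e.source)
      (fun p hp => gr_zero_StatM v fun hq => hp (hs hq)),
    ← setIntegral_eq_integral_of_forall_compl_eq_zero (s := e.source)
      (f := fun p => u p * ⟪F p, v⟫)
      (fun p hp => by rw [image_eq_zero_of_notMem_tsupport fun hq => hp (hs hq), zero_mul]),
    hσ e he, h.chm_int he (gr_cont_StatM h v hu).measurable, h.chm_int he c2.measurable]
  refine Eq.trans ?_ key
  refine setIntegral_congr_fun e.open_target.measurableSet fun z hz => ?_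
  rw [gr_eq_StatM h v hu he (e.map_target hz), e.right_inv hz]

theorem Imm.stat [T2Space M] [CompactSpace M] [MeasurableSpace M] [BorelSpace M] (h : Imm m F)
    (hmin : IsMinimal m F) {s : Finset M} {ψ : s → M → ℝ} (hc : ∀ i, Continuous (ψ i))
    (hs : ∀ i, tsupport (ψ i) ⊆ (chartAt (Euc m) (i : M)).source) (h1 : ∀ p, ∑ i, ψ i p = 1)
    (hd : ∀ i, ∀ e ∈ atlas (Euc m) M, ContDiffOn ℝ 1 (ψ i ∘ e.symm) e.target)
    {σ : Measure M} [IsFiniteMeasure σ]
    (hσ : ∀ e ∈ atlas (Euc m) M, σ.restrict e.source = chm m F e)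
    {g : Euc N → ℝ} (hg : ContDiff ℝ 1 g) (v : Euc N) :
    ∫ p, fderiv ℝ g (F p) (tp m F p v) ∂σ = m * ∫ p, g (F p) * ⟪F p, v⟫ ∂σ := by
  have hint : ∀ f : M → ℝ, Continuous f → Integrable f σ := fun f hf =>
    hf.integrable_of_hasCompactSupport (HasCompactSupport.of_compactSpace f)
  have huc : ∀ i, Continuous fun p => ψ i p * g (F p) := fun i =>
    (hc i).mul (hg.continuous.comp h.cont)
  have hu : ∀ i, ∀ e ∈ atlas (Euc m) M,
      ContDiffOn ℝ 1 ((fun p => ψ i p * g (F p)) ∘ e.symm) e.target := fun i e he =>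
    (hd i e he).mul (hg.comp_contDiffOn ((h.smooth e he).of_le (by norm_num)))
  have hloc : ∀ i, ∫ p, gr_StatM m F v (fun p => ψ i p * g (F p)) p ∂σ =
      m * ∫ p, (ψ i p * g (F p)) * ⟪F p, v⟫ ∂σ := fun i =>
    loc_StatM h hmin hσ v (huc i) (hu i) (chart_mem_atlas _ _)
      ((tsupport_mul_subset_left (f := ψ i) (g := fun p => g (F p))).trans (hs i))
  have hL : ∀ p, fderiv ℝ g (F p) (tp m F p v) =
      ∑ i, gr_StatM m F v (fun p => ψ i p * g (F p)) p := by
    intro p
    have hcp := chart_mem_atlas (Euc m) p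
    have hpc := mem_chart_source (Euc m) p
    have hz := (chartAt (Euc m) p).map_source hpc
    have hsum : (g ∘ (F ∘ (chartAt (Euc m) p).symm)) =
        fun z => ∑ i, ((fun p => ψ i p * g (F p)) ∘ (chartAt (Euc m) p).symm) z := by
      funext z
      simp only [Function.comp_apply]
      rw [← Finset.sum_mul, h1, one_mul]
    have e1 := fderiv_comp (𝕜 := ℝ) (chartAt (Euc m) p p)
      ((hg.differentiable (by norm_num)) ((F ∘ (chartAt (Euc m) p).symm) (chartAt (Euc m) p p)))
      (diffF_StatM h hcp hz)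
    rw [hsum, fderiv_fun_sum fun i _ => diffU_StatM (hu i) hcp hz] at e1
    have e2 : (F ∘ (chartAt (Euc m) p).symm) (chartAt (Euc m) p p) = F p := by
      simp only [Function.comp_apply]
      rw [(chartAt (Euc m) p).left_inv hpc]
    rw [e2] at e1
    unfold gr_StatM
    rw [← _root_.sum_apply, e1]
    rfl
  have hR : ∀ p, g (F p) * ⟪F p, v⟫ = ∑ i, (ψ i p * g (F p)) * ⟪F p, v⟫ := by
    intro p
    rw [← Finset.sum_mul, ← Finset.sum_mul, h1, one_mul]
  simp_rw [hL, hR]
  rw [integral_finsetSum _ fun i _ => hint _ (gr_cont_StatM h v (hu i)),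
    integral_finsetSum _ fun i _ => hint (fun p => ψ i p * g (F p) * ⟪F p, v⟫)
      ((huc i).mul (h.cont.inner continuous_const)),
    Finset.mul_sum]
  exact Finset.sum_congr rfl fun i _ => hloc i

end Vale.Agent.P224
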