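import Vale.Agent.P224.Gap
import Vale.Agent.P224.StatM
import Vale.Agent.P224.Man
import Vale.Agent.P224.Dens
import Vale.Agent.P224.Equator

/-!
# Assembly
-/

namespace Vale.Agent.P224

open scoped RealInnerProductSpace ENNReal Topology
open MeasureTheory Set Filter

section

variable {m : ℕ} {M : Type*} [MeasurableSpace M] (L : Link m M)

theorem Link.cP_apply (q : ℝ × M) (v : Euc (m + 2)) :
    L.cP q v = L.P q.2 v + ⟪L.x q.2, v⟫ • L.x q.2 := by
  simp [Link.cP]

theorem Link.x_P (p : M) (v : Euc (m + 2)) : ⟪L.x p, L.P p v⟫ = 0 := by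
  rw [← L.symm, L.ker, inner_zero_left]

theorem Link.x_x (p : M) : ⟪L.x p, L.x p⟫ = 1 := by
  rw [real_inner_self_eq_norm_sq, L.unit]; norm_num

theorem Link.cP_symm (q : ℝ × M) (u v : Euc (m + 2)) : ⟪L.cP q u, v⟫ = ⟪u, L.cP q v⟫ := by
  rw [L.cP_apply, L.cP_apply, inner_add_left, inner_add_right, L.symm, real_inner_smul_left,
    real_inner_smul_right, real_inner_comm u (L.x q.2)]
  ring

theorem Link.cP_idem (q : ℝ × M) (v : Euc (m + 2)) : L.cP q (L.cP q v) = L.cP q v := by
  rw [L.cP_apply, L.cP_apply, map_add, map_smul, L.idem, L.ker, smul_zero, add_zero,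
    inner_add_right, L.x_P, real_inner_smul_right, L.x_x, zero_add, mul_one]

theorem Link.cP_inner (q : ℝ × M) (v : Euc (m + 2)) : ⟪L.cP q v, v⟫ = ‖L.cP q v‖ ^ 2 := by
  rw [← real_inner_self_eq_norm_sq, L.cP_symm q v (L.cP q v), L.cP_idem, real_inner_comm]

/-- The cone over a link. -/
noncomputable def Link.cone (hm : 1 ≤ m) : Cone (m + 1) (ℝ × M) where
  μ := L.cμ
  X := L.cX
  P := L.cP
  Z := {z | ∃ (r : ℝ) (p : M), 0 < r ∧ z = r • L.x p}
  sf := by unfold Link.cμ; infer_instance
  mX := measurable_fst.smul (L.mx.comp measurable_snd)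
  mP v := by
    simp only [L.cP_apply]
    have h1 : Measurable fun q : ℝ × M => L.x q.2 := L.mx.comp measurable_snd
    have h2 : Measurable fun q : ℝ × M => ⟪L.x q.2, v⟫ := h1.inner measurable_const
    exact ((L.mP v).comp measurable_snd).add (h2.smul h1)
  symm := L.cP_symm
  nonneg q v := by rw [L.cP_inner]; positivity
  nrm q v := by
    have h1 := L.cP_inner q v
    have h2 := real_inner_le_norm (L.cP q v) v
    rcases (norm_nonneg (L.cP q v)).eq_or_lt with h | h
    · rw [← h]; exact norm_nonneg _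
    · nlinarith
  tr q := by
    simp only [L.cP_apply, PiLp.add_apply, Finset.sum_add_distrib, L.tr, PiLp.smul_apply,
      EuclideanSpace.inner_single_right, smul_eq_mul]
    have h := L.x_x q.2
    rw [PiLp.inner_apply] at h
    simp only [conj_trivial, one_mul, RCLike.inner_apply] at h ⊢
    rw [h]; push_cast; ring
  fix q := by
    rw [L.cP_apply, Link.cX, map_smul, L.ker, smul_zero, zero_add, real_inner_smul_right, L.x_x,
      mul_one]
  integ c hc := L.c_integ hc
  stat g C c hg hc h0 h1 v := L.c_stat hm g C c hg hc h0 h1 v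
  scale l hl h := L.c_scale hl h
  aeZ := by
    have h : ∀ᵐ r ∂rad m, 0 < r :=
      (withDensity_absolutelyContinuous _ _).ae_le (ae_restrict_mem measurableSet_Ioi)
    filter_upwards [Measure.quasiMeasurePreserving_fst.ae h] with q hq
    exact ⟨q.1, q.2, hq, rfl⟩
  smulZ := by
    rintro z ⟨r, p, hr, rfl⟩ l hl
    exact ⟨l * r, p, mul_pos hl hr, by rw [smul_smul]⟩
  dens := by
    rintro z ⟨r, p, hr, rfl⟩ W hW h0 b hb
    exact L.c_dens p hr hW h0 hb

end

theorem Link.gap {m : ℕ} (hm : 1 ≤ m) {M : Type*} [MeasurableSpace M] (L : Link m M)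
    (hL : ∀ a : Euc (m + 2), a ≠ 0 → ∃ p, ⟪a, L.x p⟫ ≠ 0) :
    61 / 60 * (2 * Real.pi ^ (((m : ℝ) + 1) / 2) / Real.Gamma ((m + 1) / 2)) ≤
      (L.σ univ).toReal := by
  have h := (L.cone hm).gap fun a ha => by
    obtain ⟨p, hp⟩ := hL a ha
    exact ⟨L.x p, ⟨1, p, one_pos, (one_smul _ _).symm⟩, hp⟩
  have h2 : (L.cone hm).θ = _ := L.c_theta
  rw [h2] at h
  have hG : 0 < Real.Gamma ((m + 1) / 2) := Real.Gamma_pos_of_pos (by positivity)
  have hp : 0 < 2 * Real.pi ^ (((m : ℝ) + 1) / 2) := by positivity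
  rw [← mul_div_assoc, le_div_iff₀ hp] at h
  rw [← mul_div_assoc, div_le_iff₀ hG]
  exact h

open scoped Manifold ContDiff in
theorem main {m : ℕ} (hm : 1 ≤ m) {M : Type*} [TopologicalSpace M] [ChartedSpace (Euc m) M]
    [IsManifold 𝓘(ℝ, Euc m) ∞ M] [T2Space M] [CompactSpace M] [Nonempty M]
    (F : M → Euc (m + 2)) (hF : ContMDiff 𝓘(ℝ, Euc m) 𝓘(ℝ, Euc (m + 2)) ∞ F)
    (hS : ∀ p, ‖F p‖ = 1)
    (hI : ∀ p, Function.Injective (mfderiv 𝓘(ℝ, Euc m) 𝓘(ℝ, Euc (m + 2)) F p))
    (hmin : IsMinimal m F)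
    (hne : ∀ a : Euc (m + 2), a ≠ 0 → range F ≠ {y | ‖y‖ = 1 ∧ ⟪a, y⟫ = 0}) :
    ENNReal.ofReal (61 / 60 * (2 * Real.pi ^ (((m : ℝ) + 1) / 2) / Real.Gamma ((m + 1) / 2))) ≤
      vol m F := by
  borelize M
  have h := imm_of hF hS hI
  obtain ⟨s, ψ, hc, hs, h1, hd⟩ := exists_pou m M
  obtain ⟨σ, hfin, hle, hσ⟩ := h.exists_meas
  have hj : ∀ p, Function.Injective
      (fderiv ℝ (F ∘ (chartAt (Euc m) p).symm) (chartAt (Euc m) p p)) := fun p =>
    h.inj _ (chart_mem_atlas _ p) _ (mem_chart_target _ p)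
  let L : Link m M :=
    { σ := σ
      x := F
      P := tp m F
      fin := hfin
      mx := h.cont.measurable
      mP := fun v => (h.tp_cont.clm_apply continuous_const).measurable
      unit := hS
      symm := fun p u v => prj_symm (hj p) u v
      idem := fun p v => prj_idem (hj p) v
      tr := fun p => prj_tr (hj p)
      ker := fun p => prj_normal (hj p) fun k => by
        have := inner_fderiv_zero (chartAt (Euc m) p).open_target
          ((h.smooth _ (chart_mem_atlas _ p)).differentiableOn (by norm_num))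
          (fun z _ => hS _) (mem_chart_target _ p) k
        simpa using this
      stat := fun g hg v => h.stat hmin hc hs h1 hd hσ hg v
      piece := fun p => by
        refine ⟨(chartAt (Euc m) p).target, chartAt (Euc m) p p, F ∘ (chartAt (Euc m) p).symm,
          (chartAt (Euc m) p).open_target, mem_chart_target _ p,
          (h.smooth _ (chart_mem_atlas _ p)).of_le (by norm_num), by simp, fun y _ => hS _,
          hj p, fun g hg => ?_⟩
        have e := h.chm_lint (chart_mem_atlas _ p) (hg.comp h.cont.measurable)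
        refine le_trans (le_of_eq e.symm) ?_
        rw [← hσ _ (chart_mem_atlas _ p)]
        exact lintegral_mono' Measure.restrict_le_self le_rfl }
  have hg := L.gap hm fun a ha => by
    by_contra hcon
    push Not at hcon
    exact hne a ha (h.range_eq hm ha hcon)
  refine le_trans ?_ hle
  exact ENNReal.ofReal_le_of_le_toReal hg

end Vale.Agent.P224
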