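import Vale.Agent.P224.Mehler

/-!
# The integrated Mehler formula  (TASK)

`α k = (k!)⁻¹ ∑ᵢ ‖∫ f herm i (X)‖²`.  Each `f * herm i X` is integrable (`herm_bound` with
`c = 1/4`).  `∫ f f pk k = α k` by `integral_finset_sum`, `integral_prod_mul`, `integral_conj`,
`Complex.mul_conj`.  Sum over `k` with `hasSum_integral_of_dominated_convergence` and the bounds
`(ρ / r) ^ k K |f| exp (r ‖X‖²/2) |f| exp (r ‖X‖²/2)` (`pk_bound`, `r = (1 + ρ) / 2`,
`Integrable.mul_prod`), then take real parts (`Complex.hasSum_re` or `Complex.hasSum_ofReal`,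
`integral_ofReal`).  The values at `k = 0, 1, 2`: `herm_zero/one/two`, sums over `Fin 1 → Fin N`
and `Fin 2 → Fin N` (`Equiv.funUnique`, `finTwoArrowEquiv`, `Fintype.sum_prod_type`).
`tail_mono`: write both sides as sums of `α (k + j) * ρ ^ k` (`hasSum_nat_add_iff`,
`HasSum.div_const`), compare termwise with `hasSum_le`.
-/

namespace Vale.Agent.P224

open scoped RealInnerProductSpace ENNReal Topology
open MeasureTheory Set Filter

theorem real_MehInt {Ω : Type*} [MeasurableSpace Ω] (μ : Measure Ω) (f g : Ω → ℝ) :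
    ‖∫ ω, (f ω : ℂ) * (g ω : ℂ) ∂μ‖ ^ 2 = (∫ ω, f ω * g ω ∂μ) ^ 2 := by
  simp only [← Complex.ofReal_mul]
  rw [integral_complex_ofReal, Complex.norm_real, Real.norm_eq_abs, sq_abs]

theorem mehler_int {N : ℕ} {Ω : Type*} [MeasurableSpace Ω] (μ : Measure Ω) [SFinite μ]
    {X : Ω → Euc N} (hX : Measurable X) {f : Ω → ℝ} (hf : Measurable f)
    (hi : ∀ c : ℝ, c < 1 / 2 → Integrable (fun ω => f ω * Real.exp (c * ‖X ω‖ ^ 2)) μ) :
    ∃ α : ℕ → ℝ, (∀ k, 0 ≤ α k) ∧ α 0 = (∫ ω, f ω ∂μ) ^ 2 ∧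
      α 1 = ∑ a, (∫ ω, f ω * X ω a ∂μ) ^ 2 ∧
      α 2 = 1 / 2 * ∑ a, ∑ b,
        (∫ ω, f ω * (X ω a * X ω b - if a = b then 1 else 0) ∂μ) ^ 2 ∧
      ∀ ρ : ℝ, 0 ≤ ρ → ρ < 1 → HasSum (fun k => α k * ρ ^ k)
        (∫ p : Ω × Ω, f p.1 * f p.2 * meh ρ (X p.1) (X p.2) ∂(μ.prod μ)) := by
  have hu : ∀ {k : ℕ} (i : Fin k → Fin N), Integrable (fun ω => (f ω : ℂ) * herm i (X ω)) μ := by
    intro k i
    obtain ⟨K, hK⟩ := herm_bound N k (c := 1 / 4) (by norm_num)
    refine ((hi (1 / 4) (by norm_num)).norm.const_mul K).mono'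
      ((Complex.measurable_ofReal.comp hf).mul ((herm_meas i).comp hX)).aestronglyMeasurable
      (Eventually.of_forall fun ω => ?_)
    rw [norm_mul, norm_mul, Complex.norm_real, Real.norm_of_nonneg (Real.exp_pos _).le,
      mul_left_comm]
    exact mul_le_mul_of_nonneg_left (hK i _) (norm_nonneg _)
  refine ⟨fun k => (k.factorial : ℝ)⁻¹ * ∑ i : Fin k → Fin N,
    ‖∫ ω, (f ω : ℂ) * herm i (X ω) ∂μ‖ ^ 2, fun k => by positivity, ?_, ?_, ?_, ?_⟩
  · simp only [herm_zero, Nat.factorial_zero, Nat.cast_one, inv_one, one_mul, mul_one]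
    rw [Fintype.sum_unique, integral_complex_ofReal, Complex.norm_real, Real.norm_eq_abs, sq_abs]
  · simp only [herm_one, Nat.factorial_one, Nat.cast_one, inv_one, one_mul, real_MehInt]
    exact Fintype.sum_equiv (Equiv.funUnique (Fin 1) (Fin N)) _ _ fun i => rfl
  · simp only [herm_two, real_MehInt, Nat.factorial_two, Nat.cast_ofNat, one_div]
    rw [← Fintype.sum_prod_type']
    exact congrArg _ (Fintype.sum_equiv (finTwoArrowEquiv (Fin N)) _ _ fun i => rfl)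
  intro ρ h0 h1
  set r := (1 + ρ) / 2 with hr
  have hr0 : 0 < r := by linarith
  have hr1 : r < 1 := by linarith
  have hq0 : 0 ≤ ρ / r := div_nonneg h0 hr0.le
  have hq1 : ρ / r < 1 := (div_lt_one hr0).2 (by linarith)
  obtain ⟨K, hK⟩ := pk_bound N hr0 hr1
  have hc : ∀ {k : ℕ} (i : Fin k → Fin N), Integrable (fun p : Ω × Ω =>
      (f p.1 : ℂ) * herm i (X p.1) * (starRingEnd ℂ) ((f p.2 : ℂ) * herm i (X p.2))) (μ.prod μ) :=
    fun i => (hu i).mul_prod ((Complex.conjCLE : ℂ →L[ℝ] ℂ).integrable_comp (hu i))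
  have hF : ∀ (k : ℕ) (p : Ω × Ω),
      ((f p.1 * f p.2 : ℝ) : ℂ) * ((ρ : ℂ) ^ k * pk k (X p.1) (X p.2)) =
      (ρ : ℂ) ^ k * (k.factorial : ℂ)⁻¹ * ∑ i : Fin k → Fin N,
        (f p.1 : ℂ) * herm i (X p.1) * (starRingEnd ℂ) ((f p.2 : ℂ) * herm i (X p.2)) := by
    intro k p
    simp only [pk, Finset.mul_sum, map_mul, Complex.conj_ofReal, Complex.ofReal_mul]
    exact Finset.sum_congr rfl fun i _ => by ring
  have hg := (hi (r / 2) (by linarith)).norm
  have key := hasSum_integral_of_dominated_convergence (μ := μ.prod μ)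
    (F := fun k p => ((f p.1 * f p.2 : ℝ) : ℂ) * ((ρ : ℂ) ^ k * pk k (X p.1) (X p.2)))
    (f := fun p => ((f p.1 * f p.2 : ℝ) : ℂ) * (meh ρ (X p.1) (X p.2) : ℂ))
    (fun k p => (ρ / r) ^ k * (K * (‖f p.1 * Real.exp (r / 2 * ‖X p.1‖ ^ 2)‖ *
      ‖f p.2 * Real.exp (r / 2 * ‖X p.2‖ ^ 2)‖)))
    (fun k => by
      simp only [hF]
      exact ((integrable_finsetSum _ fun i _ => hc i).const_mul _).aestronglyMeasurable)
    (fun k => Eventually.of_forall fun p => by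
      have h2 := mul_le_mul_of_nonneg_left (hK k (X p.1) (X p.2))
        (show 0 ≤ (ρ / r) ^ k * (‖f p.1‖ * ‖f p.2‖) by positivity)
      have h3 : ρ ^ k = (ρ / r) ^ k * r ^ k := by rw [← mul_pow, div_mul_cancel₀ _ hr0.ne']
      simp only [norm_mul, norm_pow, Complex.norm_real, Real.norm_of_nonneg h0,
        Real.norm_of_nonneg (Real.exp_pos _).le]
      rw [h3]
      linarith)
    (Eventually.of_forall fun p => (summable_geometric_of_lt_one hq0 hq1).mul_right _)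
    (by
      simp only [tsum_mul_right]
      exact ((hg.mul_prod hg).const_mul K).const_mul _)
    (Eventually.of_forall fun p => (mehler h0 h1 _ _).mul_left _)
  simp only [← Complex.ofReal_mul] at key
  rw [integral_complex_ofReal] at key
  refine Complex.hasSum_ofReal.1 ((congrArg (fun F => HasSum F _) (funext fun k => ?_)).mp key)
  simp only [hF]
  rw [integral_const_mul, integral_finsetSum _ fun i _ => hc i]
  have h2 : ∀ i : Fin k → Fin N, ∫ p : Ω × Ω, (f p.1 : ℂ) * herm i (X p.1) *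
      (starRingEnd ℂ) ((f p.2 : ℂ) * herm i (X p.2)) ∂(μ.prod μ) =
      ((‖∫ ω, (f ω : ℂ) * herm i (X ω) ∂μ‖ ^ 2 : ℝ) : ℂ) := by
    intro i
    rw [integral_prod_mul (fun ω => (f ω : ℂ) * herm i (X ω))
      (fun ω => (starRingEnd ℂ) ((f ω : ℂ) * herm i (X ω))), integral_conj, Complex.mul_conj',
      Complex.ofReal_pow]
  simp only [h2]
  push_cast
  ring

theorem tail_mono {α : ℕ → ℝ} (hα : ∀ k, 0 ≤ α k) (j : ℕ) {ρ r A B : ℝ} (h0 : 0 < ρ) (h : ρ ≤ r)
    (hA : HasSum (fun k => α k * ρ ^ k) A) (hB : HasSum (fun k => α k * r ^ k) B) :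
    (A - ∑ k ∈ Finset.range j, α k * ρ ^ k) / ρ ^ j ≤
      (B - ∑ k ∈ Finset.range j, α k * r ^ k) / r ^ j := by
  have key : ∀ {s S : ℝ}, 0 < s → HasSum (fun k => α k * s ^ k) S →
      HasSum (fun k => α (k + j) * s ^ k) ((S - ∑ k ∈ Finset.range j, α k * s ^ k) / s ^ j) := by
    intro s S hs hS
    have h1 := ((hasSum_nat_add_iff' j).2 hS).div_const (s ^ j)
    simpa only [pow_add, ← mul_assoc, mul_div_cancel_right₀ _ (pow_pos hs j).ne'] using h1
  exact hasSum_le (fun k => mul_le_mul_of_nonneg_left (pow_le_pow_left₀ h0.le h k) (hα _))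
    (key h0 hA) (key (h0.trans_le h) hB)

end Vale.Agent.P224
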