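import Vale.Agent.P224.Ker
import Vale.Agent.P224.MehInt

/-!
# The density gap of a stationary cone
-/

namespace Vale.Agent.P224

open scoped RealInnerProductSpace ENNReal Topology
open MeasureTheory Set Filter

theorem psd_cs {V : Type*} [AddCommGroup V] [Module ℝ V] (M : V →ₗ[ℝ] V →ₗ[ℝ] ℝ)
    (hs : ∀ u v, M u v = M v u) (hp : ∀ v, 0 ≤ M v v) (u v : V) :
    M u v ^ 2 ≤ M u u * M v v := by
  have h : ∀ t : ℝ, 0 ≤ M v v * (t * t) + 2 * M u v * t + M u u := fun t => by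
    have := hp (u + t • v)
    simp only [map_add, map_smul, LinearMap.add_apply, LinearMap.smul_apply, smul_eq_mul] at this
    rw [hs v u] at this
    nlinarith
  have := discrim_le_zero h
  unfold discrim at this
  nlinarith

theorem psd_dichotomy {N : ℕ} (M : Euc (N + 1) →ₗ[ℝ] Euc (N + 1) →ₗ[ℝ] ℝ)
    (hs : ∀ u v, M u v = M v u) (hp : ∀ v, 0 ≤ M v v) :
    ∃ (a : Euc (N + 1)) (ν : ℝ), ‖a‖ = 1 ∧ (∀ v, M a v = ν * ⟪a, v⟫) ∧
      ∑ i, ∑ j, M (EuclideanSpace.single i 1) (EuclideanSpace.single j 1) ^ 2 ≤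
        ν * ∑ i, M (EuclideanSpace.single i 1) (EuclideanSpace.single i 1) := by
  have hc : Continuous fun v : Euc (N + 1) => M v v := by
    let B : Euc (N + 1) →L[ℝ] Euc (N + 1) →L[ℝ] ℝ := LinearMap.toContinuousLinearMap
      ((LinearMap.toContinuousLinearMap : (Euc (N + 1) →ₗ[ℝ] ℝ) ≃ₗ[ℝ] _).toLinearMap ∘ₗ M)
    exact B.continuous.clm_apply continuous_id
  obtain ⟨a, ha, hmax⟩ := (isCompact_sphere (0 : Euc (N + 1)) 1).exists_isMaxOn
    ⟨EuclideanSpace.single 0 1, by simp⟩ hc.continuousOn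
  have ha1 : ‖a‖ = 1 := by simpa using ha
  have hb : ∀ v, M v v ≤ M a a * ⟪v, v⟫ := fun v => by
    rcases eq_or_ne v 0 with rfl | hv
    · simp
    have hn : 0 < ‖v‖ := norm_pos_iff.2 hv
    have h1 : M (‖v‖⁻¹ • v) (‖v‖⁻¹ • v) ≤ M a a :=
      hmax (by simp [norm_smul, hn.ne'] : ‖v‖⁻¹ • v ∈ Metric.sphere (0 : Euc (N + 1)) 1)
    simp only [map_smul, LinearMap.smul_apply, smul_eq_mul] at h1
    rw [real_inner_self_eq_norm_sq]
    have e : M v v = ‖v‖ ^ 2 * (‖v‖⁻¹ * (‖v‖⁻¹ * M v v)) := by field_simp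
    rw [e, mul_comm (M a a)]
    exact mul_le_mul_of_nonneg_left h1 (by positivity)
  refine ⟨a, M a a, ha1, fun v => ?_, ?_⟩
  · let B : Euc (N + 1) →ₗ[ℝ] Euc (N + 1) →ₗ[ℝ] ℝ := M a a • innerₗ (Euc (N + 1)) - M
    have hB : ∀ u v, B u v = M a a * ⟪u, v⟫ - M u v := fun u v => by simp [B]
    have := psd_cs B (fun u v => by rw [hB, hB, hs u v, real_inner_comm])
      (fun v => by rw [hB]; linarith [hb v]) a v
    rw [hB a a, real_inner_self_eq_norm_sq, ha1, hB] at this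
    have h0 : (M a a * ⟪a, v⟫ - M a v) ^ 2 = 0 := le_antisymm (by simpa using this) (sq_nonneg _)
    linarith [pow_eq_zero_iff (two_ne_zero) |>.1 h0]
  · rw [Finset.mul_sum]
    refine Finset.sum_le_sum fun i _ => ?_
    set e : Euc (N + 1) := EuclideanSpace.single i 1
    let w : Euc (N + 1) := WithLp.toLp 2 fun j => M e (EuclideanSpace.single j 1)
    have hw : ⟪w, w⟫ = ∑ j, M e (EuclideanSpace.single j 1) ^ 2 := by
      rw [PiLp.inner_apply]; simp [w, sq]
    have hw2 : M e w = ∑ j, M e (EuclideanSpace.single j 1) ^ 2 := by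
      conv_lhs => rw [← (EuclideanSpace.basisFun (Fin (N + 1)) ℝ).sum_repr w]
      simp [w, map_sum, sq]
    have h1 := psd_cs M hs hp e w
    have h2 := hb w
    rw [hw] at h2
    rw [hw2] at h1
    set q := ∑ j, M e (EuclideanSpace.single j 1) ^ 2
    have hq : 0 ≤ q := Finset.sum_nonneg fun j _ => sq_nonneg _
    rcases hq.eq_or_lt with h | h
    · rw [← h]; exact mul_nonneg (hp a) (hp e)
    · have h3 := mul_le_mul_of_nonneg_left h2 (hp e)
      nlinarith

theorem numA {θ S A B : ℝ} (h1 : θ < 61 / 60) (hS : 0 < S) (hS2 : S ≤ 19 / 25 * θ)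
    (hA : (1 + 13 / 85 - θ) * S ≤ 84 / 85 * A) (hB : 45 / 53 * B ≤ (θ - 1 + 28 / 53) * S)
    (h : (A - S ^ 2 * (13 / 85)) / (13 / 85) ^ 2 ≤ (B - S ^ 2 * (28 / 53)) / (28 / 53) ^ 2) :
    False := by
  have h2 := mul_pos hS (sub_pos.2 h1)
  have h3 := mul_nonneg hS.le (sub_nonneg.2 hS2)
  rw [div_le_div_iff₀ (by norm_num) (by norm_num)] at h
  linarith

theorem numB {θ β A B : ℝ} (h0 : 1 ≤ θ) (h1 : θ < 61 / 60) (hβ : β ≤ 3 / 25 * θ ^ 2)
    (hA : θ ≤ 80 / 89 * A) (hB : 15 / 17 * B ≤ 80 / 89 * A)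
    (h : (A - (θ ^ 2 + β * (39 / 89) ^ 2)) / (39 / 89) ^ 3 ≤
      (B - (θ ^ 2 + β * (8 / 17) ^ 2)) / (8 / 17) ^ 3) : False := by
  have h2 := mul_pos (lt_of_lt_of_le one_pos h0) (sub_pos.2 h1)
  rw [div_le_div_iff₀ (by norm_num) (by norm_num)] at h
  linarith

section

variable {n : ℕ} {Ω : Type*} [MeasurableSpace Ω] (C : Cone n Ω)

theorem Cone.int0 {h : Ω → ℝ} (hh : C.SG h) :
    Integrable (fun ω => gk n 0 1 (C.X ω) * h ω) C.μ := hh.int1 0 one_pos

theorem Cone.SG.nrm (u v : Euc (n + 1)) : C.SG fun ω => ⟪u, v⟫ - ⟪C.P ω u, v⟫ :=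
  (Cone.SG.const C _).sub (Cone.SG.proj C u v)

/-- The Gaussian second moment of the normal. -/
noncomputable def Cone.nf : Euc (n + 1) →ₗ[ℝ] Euc (n + 1) →ₗ[ℝ] ℝ :=
  LinearMap.mk₂ ℝ (fun u v => ∫ ω, gk n 0 1 (C.X ω) * (⟪u, v⟫ - ⟪C.P ω u, v⟫) ∂C.μ)
    (fun u u' v => by
      rw [← integral_add (C.int0 (Cone.SG.nrm C u v)) (C.int0 (Cone.SG.nrm C u' v))]
      refine integral_congr_ae (ae_of_all _ fun ω => ?_)
      simp only [map_add, inner_add_left]; ring)
    (fun c u v => by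
      rw [smul_eq_mul, ← integral_const_mul]
      refine integral_congr_ae (ae_of_all _ fun ω => ?_)
      simp only [map_smul, real_inner_smul_left]; ring)
    (fun u v v' => by
      rw [← integral_add (C.int0 (Cone.SG.nrm C u v)) (C.int0 (Cone.SG.nrm C u v'))]
      refine integral_congr_ae (ae_of_all _ fun ω => ?_)
      simp only [inner_add_right]; ring)
    (fun c u v => by
      rw [smul_eq_mul, ← integral_const_mul]
      refine integral_congr_ae (ae_of_all _ fun ω => ?_)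
      simp only [real_inner_smul_right]; ring)

theorem Cone.nf_apply (u v : Euc (n + 1)) :
    C.nf u v = ∫ ω, gk n 0 1 (C.X ω) * (⟪u, v⟫ - ⟪C.P ω u, v⟫) ∂C.μ := rfl

theorem Cone.nf_symm (u v : Euc (n + 1)) : C.nf u v = C.nf v u := by
  rw [C.nf_apply, C.nf_apply]
  refine integral_congr_ae (ae_of_all _ fun ω => ?_)
  simp only [C.symm ω u v, real_inner_comm u v, real_inner_comm u (C.P ω v)]

theorem Cone.nf_nonneg (v : Euc (n + 1)) : 0 ≤ C.nf v v := by
  refine integral_nonneg fun ω => mul_nonneg (gk_pos n _ one_pos _).le (sub_nonneg.2 ?_)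
  refine (real_inner_le_norm _ _).trans ?_
  rw [real_inner_self_eq_norm_mul_norm]
  exact mul_le_mul_of_nonneg_right (C.nrm ω v) (norm_nonneg _)

theorem Cone.nf_tr :
    ∑ i, C.nf (EuclideanSpace.single i 1) (EuclideanSpace.single i 1) = C.θ := by
  simp only [C.nf_apply]
  rw [← integral_finsetSum _ fun i _ => C.int0 (Cone.SG.nrm C _ _)]
  refine integral_congr_ae (ae_of_all _ fun ω => ?_)
  have := C.tr ω
  simp only [← Finset.mul_sum, Finset.sum_sub_distrib, EuclideanSpace.inner_single_right,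
    conj_trivial, one_mul, this]
  simp

theorem Cone.mom_nf (u v : Euc (n + 1)) :
    ∫ ω, gk n 0 1 (C.X ω) * (⟪u, C.X ω⟫ * ⟪v, C.X ω⟫) ∂C.μ = C.θ * ⟪u, v⟫ - C.nf u v := by
  rw [C.mom2, C.nf_apply, Cone.θ, ← integral_mul_const,
    ← integral_sub (C.int0 (Cone.SG.const C _)) (C.int0 (Cone.SG.nrm C u v))]
  refine integral_congr_ae (ae_of_all _ fun ω => ?_)
  ring

theorem Cone.meas_gk {h : Ω → ℝ} (hh : C.SG h) : Measurable fun ω => gk n 0 1 (C.X ω) * h ω :=
  ((gk_cont n (n + 1) 1).measurable.comp (measurable_const.prodMk C.mX)).mul hh.1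

theorem coord_eq {N : ℕ} (x : Euc N) (i : Fin N) :
    x i = ⟪(EuclideanSpace.single i 1 : Euc N), x⟫ := by
  simp [EuclideanSpace.inner_single_left]

theorem Cone.caseA {a : Euc (n + 1)} {ν : ℝ} (ha : ‖a‖ = 1) (hev : ∀ v, C.nf a v = ν * ⟪a, v⟫)
    (hS : 0 < C.S a) (hν : 6 / 25 * C.θ ≤ ν) (h1 : C.θ < 61 / 60) : False := by
  have haa : ⟪a, a⟫ = 1 := by rw [real_inner_self_eq_norm_sq, ha]; norm_num
  have hSe : C.S a = C.θ - ν := by
    have := C.mom_nf a a
    rw [hev, haa] at this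
    simp only [Cone.S, sq]
    linarith
  obtain ⟨α, hα, h0, hα1, -, hsum⟩ := mehler_int C.μ C.mX (C.meas_gk (Cone.SG.inner C a))
    fun c hc => (Cone.SG.inner C a).intExp hc
  rw [C.mom1] at h0
  have hα2 : α 1 = C.S a ^ 2 := by
    rw [hα1]
    have e : ∀ i, ∫ ω, gk n 0 1 (C.X ω) * ⟪a, C.X ω⟫ * C.X ω i ∂C.μ = C.S a * a i := fun i => by
      have := C.mom_nf a (EuclideanSpace.single i 1)
      rw [hev, ← sub_mul, ← hSe, real_inner_comm, ← coord_eq] at this
      rw [← this]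
      refine integral_congr_ae (ae_of_all _ fun ω => ?_)
      simp only [← coord_eq]; ring
    simp only [e, mul_pow, ← Finset.mul_sum]
    rw [← EuclideanSpace.real_norm_sq_eq, ha]; ring
  have ht := tail_mono hα 2 (ρ := 13 / 85) (r := 28 / 53) (by norm_num) (by norm_num)
    (hsum _ (by norm_num) (by norm_num)) (hsum _ (by norm_num) (by norm_num))
  have s1 : √(1 - (13 / 85 : ℝ) ^ 2) = 84 / 85 := by
    rw [Real.sqrt_eq_iff_mul_self_eq (by norm_num) (by norm_num)]; norm_num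
  have s2 : √(1 - (28 / 53 : ℝ) ^ 2) = 45 / 53 := by
    rw [Real.sqrt_eq_iff_mul_self_eq (by norm_num) (by norm_num)]; norm_num
  have hA := C.k2_low a (ρ := 13 / 85) (by norm_num) (by norm_num)
  have hB := C.k2_up a (ρ := 28 / 53) (by norm_num) (by norm_num)
  rw [s1] at hA
  rw [s2] at hB
  refine numA h1 hS (by linarith) hA hB ?_
  simp only [Finset.sum_range_succ, Finset.sum_range_zero, h0, hα2] at ht
  simpa [Cone.Q] using ht

theorem Cone.caseB {ν : ℝ} (h0 : 1 ≤ C.θ) (hν : ν ≤ 6 / 25 * C.θ)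
    (hF : ∑ i, ∑ j, C.nf (EuclideanSpace.single i 1) (EuclideanSpace.single j 1) ^ 2 ≤ ν * C.θ)
    (h1 : C.θ < 61 / 60) : False := by
  obtain ⟨α, hα, hα0, hα1, hα2, hsum⟩ := mehler_int C.μ C.mX (C.meas_gk (Cone.SG.const C 1))
    fun c hc => (Cone.SG.const C 1).intExp hc
  have e0 : α 0 = C.θ ^ 2 := by rw [hα0]; simp [Cone.θ]
  have e1 : α 1 = 0 := by
    rw [hα1]
    refine Finset.sum_eq_zero fun i _ => ?_
    have := C.mom1 (EuclideanSpace.single i 1)
    simp only [← coord_eq] at this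
    simp [this]
  have e2 : α 2 ≤ 3 / 25 * C.θ ^ 2 := by
    have e : ∀ i j, ∫ ω, gk n 0 1 (C.X ω) * 1 * (C.X ω i * C.X ω j - if i = j then 1 else 0) ∂C.μ =
        -C.nf (EuclideanSpace.single i 1) (EuclideanSpace.single j 1) := fun i j => by
      have := C.mom_nf (EuclideanSpace.single i 1) (EuclideanSpace.single j 1)
      simp only [← coord_eq] at this
      simp only [mul_one, mul_sub]
      rw [integral_sub (C.int0 ((Cone.SG.coord C i).mul (Cone.SG.coord C j)))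
        (C.int0 (Cone.SG.const C _)), this, integral_mul_const]
      simp [Cone.θ]
    rw [hα2]
    simp only [e, neg_sq]
    nlinarith
  have ht := tail_mono hα 3 (ρ := 39 / 89) (r := 8 / 17) (by norm_num) (by norm_num)
    (hsum _ (by norm_num) (by norm_num)) (hsum _ (by norm_num) (by norm_num))
  have s1 : √(1 - (39 / 89 : ℝ) ^ 2) = 80 / 89 := by
    rw [Real.sqrt_eq_iff_mul_self_eq (by norm_num) (by norm_num)]; norm_num
  have s2 : √(1 - (8 / 17 : ℝ) ^ 2) = 15 / 17 := by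
    rw [Real.sqrt_eq_iff_mul_self_eq (by norm_num) (by norm_num)]; norm_num
  have hA := C.Phi_low (ρ := 39 / 89) (by norm_num) (by norm_num)
  have hB := C.Phi_anti (ρ := 39 / 89) (r := 8 / 17) (by norm_num) (by norm_num) (by norm_num)
  rw [s1] at hA hB
  rw [s2] at hB
  refine numB h0 h1 e2 hA hB ?_
  simp only [Finset.sum_range_succ, Finset.sum_range_zero, e0, e1] at ht
  simpa [Cone.Q] using ht

end

theorem Cone.gap {n : ℕ} {Ω : Type*} [MeasurableSpace Ω] (C : Cone n Ω)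
    (hZ : ∀ a : Euc (n + 1), a ≠ 0 → ∃ z ∈ C.Z, ⟪a, z⟫ ≠ 0) : 61 / 60 ≤ C.θ := by
  by_contra h1
  push Not at h1
  obtain ⟨a, ν, ha, hev, hF⟩ := psd_dichotomy C.nf C.nf_symm C.nf_nonneg
  obtain ⟨z, hz, haz⟩ := hZ a (by rintro rfl; simp at ha)
  rw [C.nf_tr] at hF
  rcases le_total ν (6 / 25 * C.θ) with h | h
  · exact C.caseB ((C.one_le_F hz one_pos).trans (C.F_le z one_pos)) h hF h1
  · exact C.caseA ha hev (C.S_pos hz haz) h h1

end Vale.Agent.P224
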