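import Vale.Agent.P224.Defs

/-!
# Complex Gaussian representation of the Hermite tensors  (TASK)

`gw` is the standard Gaussian density on `Fin N → ℝ`; `herm i x = E ∏ⱼ (x_{iⱼ} + I ξ_{iⱼ})`.
* `gw_int`: `gw ξ * exp (c ∑ ξₐ²)` is a product of one-dimensional Gaussians
  (`Integrable.fintype_prod`, `integrable_exp_neg_mul_sq`) or use
  `GaussianFourier.integrable_cexp_neg_mul_sum_add`.
* `herm_bound`: `‖xₐ + I ξₐ‖ ≤ R := √(‖x‖² + ∑ ξ²)` and `R ^ k ≤ K exp (c R²)`
  (w.l.o.g. use `min c (1/4)`; `u ^ k / k! ≤ exp u`, `R ^ k ≤ 1 + (R²) ^ k`).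
* `herm_meas`: `StronglyMeasurable.integral_prod_right`.
* `herm_zero/one/two`: `gw ξ = ∏ₐ (2π)^(-1/2) exp (-ξₐ²/2)`; moments by
  `integral_fintype_prod_volume_eq_prod` (write `gw ξ * ξ a * ξ b` as a product over the
  coordinates with `if`s or `Function.update`), `integral_gaussian`, oddness
  (`integral_neg_eq_self`) and `∫ s² exp (-s²/2) = √(2π)` (integration by parts, or
  `integral_rpow_mul_exp_neg_mul_rpow` with `integral_comp_abs`).
-/

namespace Vale.Agent.P224

open scoped RealInnerProductSpace ENNReal Topology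
open MeasureTheory Set Filter

variable {N : ℕ}

/-- The standard Gaussian density. -/
noncomputable def gw (N : ℕ) (ξ : Fin N → ℝ) : ℝ :=
  (2 * Real.pi) ^ (-(N : ℝ) / 2) * Real.exp (-(∑ a, ξ a ^ 2) / 2)

/-- The complexified point `x + I ξ`. -/
noncomputable def cz (x : Euc N) (ξ : Fin N → ℝ) (a : Fin N) : ℂ := (x a : ℂ) + Complex.I * ξ a

/-- The Hermite tensor. -/
noncomputable def herm {k : ℕ} (i : Fin k → Fin N) (x : Euc N) : ℂ :=
  ∫ ξ, (gw N ξ : ℂ) * ∏ j, cz x ξ (i j)

open ProbabilityTheory in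
theorem gw_prod_Herm (ξ : Fin N → ℝ) : gw N ξ = ∏ a, gaussianPDFReal 0 1 (ξ a) := by
  simp only [gw, gaussianPDFReal, Finset.prod_mul_distrib, Finset.prod_const, Finset.card_univ,
    Fintype.card_fin, ← Real.exp_sum, NNReal.coe_one, mul_one, sub_zero]
  congr 1
  · rw [Real.sqrt_eq_rpow, ← Real.rpow_neg (by positivity), ← Real.rpow_natCast,
      ← Real.rpow_mul (by positivity)]
    congr 1
    ring
  · rw [← Finset.sum_div, Finset.sum_neg_distrib]

open ProbabilityTheory in
theorem split_Herm {k : ℕ} (i : Fin k → Fin N) (x : Euc N) (ξ : Fin N → ℝ) :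
    (gw N ξ : ℂ) * ∏ j, cz x ξ (i j) = ∏ a, gaussianPDFReal 0 1 (ξ a) •
      ((x a : ℂ) + Complex.I * ξ a) ^ (Finset.univ.filter fun j => i j = a).card := by
  rw [← Finset.prod_fiberwise' _ i (cz x ξ), gw_prod_Herm]
  simp [Finset.prod_mul_distrib, cz]

open ProbabilityTheory in
theorem eq_Herm {k : ℕ} (i : Fin k → Fin N) (x : Euc N) :
    herm i x = ∏ a, ∫ s : ℝ, ((x a : ℂ) + Complex.I * s) ^
      (Finset.univ.filter fun j => i j = a).card ∂gaussianReal 0 1 := by
  simp only [herm, split_Herm, integral_gaussianReal_eq_integral_smul one_ne_zero]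
  exact integral_fintype_prod_volume_eq_prod fun a s => gaussianPDFReal 0 1 s •
    ((x a : ℂ) + Complex.I * s) ^ (Finset.univ.filter fun j => i j = a).card

theorem pt_Herm {n k : ℕ} (h : n ≤ k) (u s : ℝ) : ‖((u : ℂ) + Complex.I * s) ^ n‖ ≤
    Real.exp (k * |u|) * (Real.exp (k * s) + Real.exp (-k * s)) := by
  have h1 : ‖(u : ℂ) + Complex.I * s‖ ≤ Real.exp (|u| + |s|) := by
    refine (norm_add_le _ _).trans ?_
    have := Real.add_one_le_exp (|u| + |s|)
    simp only [Complex.norm_real, Real.norm_eq_abs, norm_mul, Complex.norm_I, one_mul]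
    linarith
  have h2 : Real.exp (k * |s|) ≤ Real.exp (k * s) + Real.exp (-k * s) := by
    rcases abs_choice s with h | h <;> rw [h]
    · linarith [Real.exp_pos (-k * s)]
    · rw [mul_neg, neg_mul]; linarith [Real.exp_pos (k * s)]
  calc _ ≤ Real.exp (|u| + |s|) ^ k := by
        rw [norm_pow]
        exact (pow_le_pow_left₀ (norm_nonneg _) h1 n).trans
          (pow_le_pow_right₀ (Real.one_le_exp (by positivity)) h)
    _ = Real.exp (k * |u|) * Real.exp (k * |s|) := by
        rw [← Real.exp_nat_mul, mul_add, Real.exp_add]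
    _ ≤ _ := by gcongr

open ProbabilityTheory in
theorem dom_Herm (k : ℕ) :
    Integrable (fun s : ℝ => Real.exp (k * s) + Real.exp (-k * s)) (gaussianReal 0 1) :=
  (integrable_exp_mul_gaussianReal _).add (integrable_exp_mul_gaussianReal _)

open ProbabilityTheory in
theorem int_Herm (n : ℕ) (u : ℝ) :
    Integrable (fun s : ℝ => ((u : ℂ) + Complex.I * s) ^ n) (gaussianReal 0 1) :=
  ((dom_Herm n).const_mul _).mono' (Continuous.aestronglyMeasurable (by fun_prop))
    (Eventually.of_forall (pt_Herm le_rfl u))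

open ProbabilityTheory in
theorem odd_Herm : ∫ s : ℝ, (s : ℂ) ∂gaussianReal 0 1 = 0 := by
  rw [integral_complex_ofReal (f := fun s : ℝ => s), integral_id_gaussianReal]
  simp

open ProbabilityTheory in
theorem one_Herm (u : ℝ) :
    ∫ s : ℝ, ((u : ℂ) + Complex.I * s) ^ 1 ∂gaussianReal 0 1 = u := by
  have h : Integrable (fun s : ℝ => Complex.I * s) (gaussianReal 0 1) := by
    simpa using int_Herm 1 0
  simp [integral_add (integrable_const _) h, integral_const_mul, odd_Herm]

open ProbabilityTheory in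
theorem two_Herm (u : ℝ) :
    ∫ s : ℝ, ((u : ℂ) + Complex.I * s) ^ 2 ∂gaussianReal 0 1 = u * u - 1 := by
  have h : Integrable (fun s : ℝ => Complex.I * s) (gaussianReal 0 1) := by
    simpa using int_Herm 1 0
  have h2 : Integrable (fun s : ℝ => (Complex.I * s) ^ 2) (gaussianReal 0 1) := by
    simpa using int_Herm 2 0
  have h3 : ∫ s : ℝ, s ^ 2 ∂gaussianReal 0 1 = 1 := by
    rw [← variance_of_integral_eq_zero (by fun_prop) integral_id_gaussianReal]
    simp
  have h4 : ∫ s : ℝ, (Complex.I * s) ^ 2 ∂gaussianReal 0 1 = -1 := by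
    simp only [mul_pow, integral_const_mul, ← Complex.ofReal_pow, integral_complex_ofReal, h3]
    simp
  simp only [add_sq]
  rw [integral_add (by exact (integrable_const _).add (h.const_mul _)) h2,
    integral_add (integrable_const _) (h.const_mul _), h4]
  simp [integral_const_mul, odd_Herm, sq, sub_eq_add_neg]

theorem gw_pos (ξ : Fin N → ℝ) : 0 < gw N ξ := by
  unfold gw
  positivity

theorem gw_int {c : ℝ} (hc : c < 1 / 2) :
    Integrable fun ξ : Fin N → ℝ => gw N ξ * Real.exp (c * ∑ a, ξ a ^ 2) := by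
  have := (Integrable.fintype_prod (μ := fun _ : Fin N => (volume : Measure ℝ))
    (f := fun _ s => Real.exp (-(1 / 2 - c) * s ^ 2))
    fun _ => integrable_exp_neg_mul_sq (sub_pos.2 hc)).const_mul
      ((2 * Real.pi) ^ (-(N : ℝ) / 2))
  refine this.congr (Eventually.of_forall fun ξ => ?_)
  simp only [gw, ← Real.exp_sum, mul_assoc, ← Real.exp_add, ← Finset.mul_sum]
  congr 2
  ring

theorem herm_int {k : ℕ} (i : Fin k → Fin N) (x : Euc N) :
    Integrable fun ξ => (gw N ξ : ℂ) * ∏ j, cz x ξ (i j) := by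
  simp only [split_Herm]
  refine Integrable.fintype_prod (μ := fun _ : Fin N => (volume : Measure ℝ))
    (f := fun a s => ProbabilityTheory.gaussianPDFReal 0 1 s •
      ((x a : ℂ) + Complex.I * s) ^ (Finset.univ.filter fun j => i j = a).card) fun a => ?_
  have := int_Herm (Finset.univ.filter fun j => i j = a).card (x a)
  rw [ProbabilityTheory.gaussianReal_of_var_ne_zero _ one_ne_zero,
    integrable_withDensity_iff_integrable_smul' (by fun_prop)
      (Eventually.of_forall fun _ => ProbabilityTheory.gaussianPDF_lt_top)] at this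
  simpa using this

theorem herm_bound (N k : ℕ) {c : ℝ} (hc : 0 < c) : ∃ K : ℝ, ∀ (i : Fin k → Fin N) (x : Euc N),
    ‖herm i x‖ ≤ K * Real.exp (c * ‖x‖ ^ 2) := by
  set M := ∫ s, (Real.exp (k * s) + Real.exp (-k * s)) ∂ProbabilityTheory.gaussianReal 0 1
  have hM : 0 ≤ M := integral_nonneg fun s => by positivity
  refine ⟨(M * Real.exp (k ^ 2 / (4 * c))) ^ N, fun i x => ?_⟩
  rw [eq_Herm, norm_prod, EuclideanSpace.real_norm_sq_eq, Finset.mul_sum, Real.exp_sum]
  refine (Finset.prod_le_prod (g := fun a => M * Real.exp (k ^ 2 / (4 * c)) *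
    Real.exp (c * x a ^ 2)) (fun _ _ => norm_nonneg _) fun a _ => ?_).trans_eq
    (by simp [Finset.prod_mul_distrib, mul_pow])
  refine (norm_integral_le_of_norm_le ((dom_Herm k).const_mul _) (Eventually.of_forall
    (pt_Herm ((Finset.card_filter_le _ _).trans_eq (by simp)) (x a)))).trans ?_
  rw [integral_const_mul, mul_comm, mul_assoc, ← Real.exp_add]
  gcongr
  rw [← sq_abs (x a), ← sub_nonneg, show k ^ 2 / (4 * c) + c * |x a| ^ 2 - k * |x a| =
    (k - 2 * c * |x a|) ^ 2 / (4 * c) by field_simp; ring]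
  positivity

theorem herm_meas {k : ℕ} (i : Fin k → Fin N) : Measurable (herm i) := by
  have : Continuous fun p : Euc N × (Fin N → ℝ) => (gw N p.2 : ℂ) * ∏ j, cz p.1 p.2 (i j) := by
    unfold gw cz
    fun_prop
  exact this.stronglyMeasurable.integral_prod_right'.measurable

theorem herm_zero (i : Fin 0 → Fin N) (x : Euc N) : herm i x = 1 := by
  simp [eq_Herm]

theorem herm_one (i : Fin 1 → Fin N) (x : Euc N) : herm i x = (x (i 0) : ℂ) := by
  rw [eq_Herm, Finset.prod_eq_single (i 0)]
  · simpa [-Finset.sum_boole, Finset.card_filter] using one_Herm (x (i 0))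
  · intro b _ hb
    simp [-Finset.sum_boole, Finset.card_filter, hb.symm]
  · simp

theorem herm_two (i : Fin 2 → Fin N) (x : Euc N) :
    herm i x = ((x (i 0) * x (i 1) - if i 0 = i 1 then 1 else 0 : ℝ) : ℂ) := by
  rw [eq_Herm]
  by_cases h : i 0 = i 1
  · rw [Finset.prod_eq_single (i 0)]
    · simp [-Finset.sum_boole, Finset.card_filter, ← h, two_Herm]
    · intro b _ hb
      simp [-Finset.sum_boole, Finset.card_filter, ← h, hb.symm]
    · simp
  · rw [Finset.prod_eq_mul (i 0) (i 1) h]
    · simp only [Finset.card_filter, Fin.sum_univ_two, h, Ne.symm h, if_true, if_false, add_zero,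
        zero_add, one_Herm]
      simp
    · intro b _ hb
      simp [-Finset.sum_boole, Finset.card_filter, hb.1.symm, hb.2.symm]
    all_goals simp

end Vale.Agent.P224
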