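import Vale.Agent.P224.Defs

/-!
# Integrability and differentiation under the integral  (TASK)

`SG` is closed under the usual operations (`|⟪a,x⟫| ≤ ‖a‖ ‖x‖`, `s ≤ K exp (ε s²)`, e.g.
`s ≤ 1 + s² ≤ (1 + 1/ε) exp (ε s²)`).  `int1`: `‖x - z‖² ≥ ‖x‖²/2 - ‖z‖²`, take `ε = 1/(8t)`,
`C.integ`.  `int2`: `‖y‖²/2 + ‖x - ρ y‖²/(2t) ≥ c (‖x‖² + ‖y‖²)` for some `c > 0`
(use `‖x‖² ≤ 2 ‖x - ρ y‖² + 2 ρ² ‖y‖²`), take `ε = c/2`, `Integrable.mul_prod`.
`hasDerivAt_gauss`: `hasDerivAt_integral_of_dominated_loc_of_deriv_le` on the ball of radius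
`t/2`; `D exp (-D/(2s)) ≤ K exp (-D/(4t))`-type bounds (`u exp (-u) ≤ 1`) and `hint` at `2t`
(for `s ≤ 3t/2`: `1/(2s) - 1/(4t) ≥ 1/(12t)`).
-/

namespace Vale.Agent.P224

open scoped RealInnerProductSpace ENNReal Topology
open MeasureTheory Set Filter

variable {n : ℕ} {Ω : Type*} [MeasurableSpace Ω] {C : Cone n Ω}

theorem gk_pos (n : ℕ) {N : ℕ} (z : Euc N) {t : ℝ} (ht : 0 < t) (x : Euc N) : 0 < gk n z t x := by
  unfold gk
  positivity

theorem gk_cont (n N : ℕ) (t : ℝ) : Continuous fun p : Euc N × Euc N => gk n p.1 t p.2 := by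
  unfold gk
  fun_prop

theorem quad_Int (C : Cone n Ω) {h : Ω → ℝ} (hm : Measurable h) (A B : ℝ) (hA : 0 ≤ A)
    (hB : 0 ≤ B) (hb : ∀ ω, |h ω| ≤ A + B * ‖C.X ω‖ ^ 2) : C.SG h := by
  refine ⟨hm, fun ε hε => ⟨A + B / ε, fun ω => (hb ω).trans ?_⟩⟩
  have h1 := Real.add_one_le_exp (ε * ‖C.X ω‖ ^ 2)
  have h2 : 0 ≤ ε * ‖C.X ω‖ ^ 2 := by positivity
  have h3 : B * ‖C.X ω‖ ^ 2 = B / ε * (ε * ‖C.X ω‖ ^ 2) := by field_simp
  have h4 : 0 ≤ B / ε := by positivity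
  rw [h3, add_mul]
  refine add_le_add ?_ (mul_le_mul_of_nonneg_left (by linarith) h4)
  exact le_mul_of_one_le_right hA (by linarith)

theorem dom_Int (C : Cone n Ω) {u : Ω → ℝ} (hm : Measurable u) (K : ℝ) {c : ℝ} (hc : 0 < c)
    (hb : ∀ ω, |u ω| ≤ K * Real.exp (-c * ‖C.X ω‖ ^ 2)) : Integrable u C.μ :=
  ((C.integ c hc).const_mul K).mono' hm.aestronglyMeasurable (ae_of_all _ hb)

theorem gkm_Int {α : Type*} [MeasurableSpace α] {N : ℕ} (n : ℕ) (t : ℝ) {z x : α → Euc N}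
    (hz : Measurable z) (hx : Measurable x) : Measurable fun a => gk n (z a) t (x a) := by
  unfold gk
  exact ((((hx.sub hz).norm.pow_const 2).neg.div_const _).exp).const_mul _

theorem sq_Int {N : ℕ} (x z : Euc N) : ‖x‖ ^ 2 ≤ 2 * ‖x - z‖ ^ 2 + 2 * ‖z‖ ^ 2 := by
  have h : ‖x‖ ≤ ‖x - z‖ + ‖z‖ := by simpa using norm_add_le (x - z) z
  nlinarith [norm_nonneg x, norm_nonneg (x - z), norm_nonneg z, sq_nonneg (‖x - z‖ - ‖z‖)]

theorem Cone.SG.const (C : Cone n Ω) (c : ℝ) : C.SG fun _ => c := by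
  exact quad_Int C measurable_const |c| 0 (abs_nonneg c) le_rfl fun ω => by simp

theorem Cone.SG.inner (C : Cone n Ω) (a : Euc (n + 1)) : C.SG fun ω => ⟪a, C.X ω⟫ := by
  refine quad_Int C (measurable_const.inner C.mX) ‖a‖ ‖a‖ (norm_nonneg a) (norm_nonneg a)
    fun ω => (abs_real_inner_le_norm _ _).trans ?_
  nlinarith [norm_nonneg a, norm_nonneg (C.X ω), sq_nonneg (‖C.X ω‖ - 1),
    mul_nonneg (norm_nonneg a) (sq_nonneg (‖C.X ω‖ - 1)),
    mul_nonneg (norm_nonneg a) (norm_nonneg (C.X ω))]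

theorem Cone.SG.coord (C : Cone n Ω) (i : Fin (n + 1)) : C.SG fun ω => C.X ω i := by
  have := Cone.SG.inner C (EuclideanSpace.single i 1)
  simpa [EuclideanSpace.inner_single_left] using this

theorem Cone.SG.normSq (C : Cone n Ω) (z : Euc (n + 1)) : C.SG fun ω => ‖C.X ω - z‖ ^ 2 := by
  refine quad_Int C (((C.mX.sub_const z).norm).pow_const 2) (2 * ‖z‖ ^ 2) 2 (by positivity)
    (by norm_num) fun ω => ?_
  rw [abs_of_nonneg (by positivity)]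
  have := sq_Int (C.X ω - z) (C.X ω)
  rw [sub_sub_cancel_left, norm_neg] at this
  exact this

theorem Cone.SG.proj (C : Cone n Ω) (a b : Euc (n + 1)) : C.SG fun ω => ⟪C.P ω a, b⟫ := by
  refine quad_Int C ((C.mP a).inner measurable_const) (‖a‖ * ‖b‖) 0 (by positivity) le_rfl
    fun ω => (abs_real_inner_le_norm _ _).trans ?_
  rw [zero_mul, add_zero]
  exact mul_le_mul_of_nonneg_right (C.nrm ω a) (norm_nonneg b)

theorem Cone.SG.add {f g : Ω → ℝ} (hf : C.SG f) (hg : C.SG g) : C.SG fun ω => f ω + g ω := by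
  refine ⟨hf.1.add hg.1, fun ε hε => ?_⟩
  obtain ⟨K, hK⟩ := hf.2 ε hε
  obtain ⟨L, hL⟩ := hg.2 ε hε
  exact ⟨K + L, fun ω => (abs_add_le _ _).trans (by rw [add_mul]; exact add_le_add (hK ω) (hL ω))⟩

theorem Cone.SG.sub {f g : Ω → ℝ} (hf : C.SG f) (hg : C.SG g) : C.SG fun ω => f ω - g ω := by
  refine ⟨hf.1.sub hg.1, fun ε hε => ?_⟩
  obtain ⟨K, hK⟩ := hf.2 ε hε
  obtain ⟨L, hL⟩ := hg.2 ε hε
  exact ⟨K + L, fun ω => (abs_sub _ _).trans (by rw [add_mul]; exact add_le_add (hK ω) (hL ω))⟩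

theorem Cone.SG.mul {f g : Ω → ℝ} (hf : C.SG f) (hg : C.SG g) : C.SG fun ω => f ω * g ω := by
  refine ⟨hf.1.mul hg.1, fun ε hε => ?_⟩
  obtain ⟨K, hK⟩ := hf.2 (ε / 2) (half_pos hε)
  obtain ⟨L, hL⟩ := hg.2 (ε / 2) (half_pos hε)
  refine ⟨K * L, fun ω => ?_⟩
  rw [abs_mul]
  refine (mul_le_mul (hK ω) (hL ω) (abs_nonneg _) ((abs_nonneg _).trans (hK ω))).trans_eq ?_
  rw [mul_mul_mul_comm, ← Real.exp_add]
  congr 2
  ring

theorem Cone.SG.pow {f : Ω → ℝ} (hf : C.SG f) (k : ℕ) : C.SG fun ω => f ω ^ k := by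
  induction k with
  | zero => simpa using Cone.SG.const C 1
  | succ k ih => simpa [pow_succ] using ih.mul hf

theorem Cone.SG.int1 {h : Ω → ℝ} (hh : C.SG h) (z : Euc (n + 1)) {t : ℝ} (ht : 0 < t) :
    Integrable (fun ω => gk n z t (C.X ω) * h ω) C.μ := by
  obtain ⟨K, hK⟩ := hh.2 (1 / (8 * t)) (by positivity)
  refine dom_Int C ((gkm_Int n t measurable_const C.mX).mul hh.1)
    ((2 * Real.pi * t) ^ (-(n : ℝ) / 2) * Real.exp (‖z‖ ^ 2 / (2 * t)) * K)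
    (c := 1 / (8 * t)) (by positivity) fun ω => ?_
  have hK0 : 0 ≤ K := nonneg_of_mul_nonneg_left ((abs_nonneg _).trans (hK ω)) (Real.exp_pos _)
  rw [abs_mul, abs_of_pos (gk_pos n z ht _)]
  refine (mul_le_mul_of_nonneg_left (hK ω) (gk_pos n z ht _).le).trans ?_
  unfold gk
  have h1 : Real.exp (-‖C.X ω - z‖ ^ 2 / (2 * t)) * Real.exp (1 / (8 * t) * ‖C.X ω‖ ^ 2) ≤
      Real.exp (‖z‖ ^ 2 / (2 * t)) * Real.exp (-(1 / (8 * t)) * ‖C.X ω‖ ^ 2) := by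
    rw [← Real.exp_add, ← Real.exp_add, Real.exp_le_exp, ← sub_nonneg]
    have h2 := sq_Int (C.X ω) z
    have : ‖z‖ ^ 2 / (2 * t) + -(1 / (8 * t)) * ‖C.X ω‖ ^ 2 -
        (-‖C.X ω - z‖ ^ 2 / (2 * t) + 1 / (8 * t) * ‖C.X ω‖ ^ 2) =
        (2 * ‖C.X ω - z‖ ^ 2 + 2 * ‖z‖ ^ 2 - ‖C.X ω‖ ^ 2) / (4 * t) := by
      field_simp
      ring
    rw [this]
    exact div_nonneg (by linarith) (by positivity)
  have h3 : 0 ≤ (2 * Real.pi * t) ^ (-(n : ℝ) / 2) * K := by positivity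
  convert mul_le_mul_of_nonneg_left h1 h3 using 1 <;> ring

theorem Cone.SG.intExp {h : Ω → ℝ} (hh : C.SG h) {c : ℝ} (hc : c < 1 / 2) :
    Integrable (fun ω => gk n 0 1 (C.X ω) * h ω * Real.exp (c * ‖C.X ω‖ ^ 2)) C.μ := by
  have he : 0 < (1 / 2 - c) / 2 := by linarith
  obtain ⟨K, hK⟩ := hh.2 _ he
  refine dom_Int C (((gkm_Int n 1 measurable_const C.mX).mul hh.1).mul
    ((C.mX.norm.pow_const 2).const_mul c).exp)
    ((2 * Real.pi * 1) ^ (-(n : ℝ) / 2) * K) he fun ω => ?_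
  rw [abs_mul, abs_mul, abs_of_pos (gk_pos n 0 one_pos _), abs_of_pos (Real.exp_pos _)]
  refine (mul_le_mul_of_nonneg_right (mul_le_mul_of_nonneg_left (hK ω)
    (gk_pos n 0 one_pos _).le) (Real.exp_pos _).le).trans_eq ?_
  unfold gk
  have h1 : Real.exp (-‖C.X ω - 0‖ ^ 2 / (2 * 1)) * Real.exp ((1 / 2 - c) / 2 * ‖C.X ω‖ ^ 2) *
      Real.exp (c * ‖C.X ω‖ ^ 2) = Real.exp (-((1 / 2 - c) / 2) * ‖C.X ω‖ ^ 2) := by
    rw [← Real.exp_add, ← Real.exp_add, sub_zero]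
    congr 1
    ring
  rw [← h1]
  ring

theorem exp_Int {t ε ρ D X Y : ℝ} (ht : 0 < t) (hε : 0 < ε) (he1 : ε ≤ 1 / (8 * t))
    (he2 : ε ≤ 1 / (4 * (2 * ρ ^ 2 + 1))) (hD : 0 ≤ D) (hY : 0 ≤ Y)
    (h : X ≤ 2 * D + 2 * (ρ ^ 2 * Y)) :
    -Y / (2 * 1) + -D / (2 * t) + ε * Y + ε * X ≤ -ε * Y + -ε * X := by
  have h1 : ε * (4 * (2 * ρ ^ 2 + 1)) ≤ 1 := (le_div_iff₀ (by positivity)).1 he2
  have h2 : 4 * ε * D ≤ D / (2 * t) := by
    have : D / (2 * t) = 4 * (1 / (8 * t)) * D := by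
      field_simp
      ring
    rw [this]
    gcongr
  have h3 := mul_le_mul_of_nonneg_left h hε.le
  have h4 := mul_le_mul_of_nonneg_right h1 hY
  rw [neg_div (2 * t)]
  nlinarith

theorem Cone.SG.int2 {f g : Ω → ℝ} (hf : C.SG f) (hg : C.SG g) (ρ : ℝ) {t : ℝ} (ht : 0 < t) :
    Integrable (fun p : Ω × Ω => gk n 0 1 (C.X p.1) * gk n (ρ • C.X p.1) t (C.X p.2) *
      (f p.1 * g p.2)) (C.μ.prod C.μ) := by
  obtain ⟨ε, hε, he1, he2⟩ : ∃ ε : ℝ, 0 < ε ∧ ε ≤ 1 / (8 * t) ∧ ε ≤ 1 / (4 * (2 * ρ ^ 2 + 1)) :=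
    ⟨min _ _, lt_min (by positivity) (by positivity), min_le_left _ _, min_le_right _ _⟩
  obtain ⟨K, hK⟩ := hf.2 ε hε
  obtain ⟨L, hL⟩ := hg.2 ε hε
  have hX1 : Measurable fun p : Ω × Ω => C.X p.1 := C.mX.comp measurable_fst
  have hX2 : Measurable fun p : Ω × Ω => C.X p.2 := C.mX.comp measurable_snd
  have hm : Measurable fun p : Ω × Ω => gk n 0 1 (C.X p.1) * gk n (ρ • C.X p.1) t (C.X p.2) *
      (f p.1 * g p.2) :=
    ((gkm_Int n 1 measurable_const hX1).mul (gkm_Int n t (hX1.const_smul ρ) hX2)).mul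
      ((hf.1.comp measurable_fst).mul (hg.1.comp measurable_snd))
  refine (((C.integ ε hε).mul_prod (C.integ ε hε)).const_mul
    ((2 * Real.pi * 1) ^ (-(n : ℝ) / 2) * (2 * Real.pi * t) ^ (-(n : ℝ) / 2) * (K * L))).mono'
    hm.aestronglyMeasurable (ae_of_all _ fun p => ?_)
  have hK0 : 0 ≤ K := nonneg_of_mul_nonneg_left ((abs_nonneg _).trans (hK p.1)) (Real.exp_pos _)
  have hL0 : 0 ≤ L := nonneg_of_mul_nonneg_left ((abs_nonneg _).trans (hL p.2)) (Real.exp_pos _)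
  have hp := mul_pos (gk_pos n 0 one_pos (C.X p.1)) (gk_pos n (ρ • C.X p.1) ht (C.X p.2))
  rw [Real.norm_eq_abs, abs_mul, abs_of_pos hp, abs_mul]
  refine (mul_le_mul_of_nonneg_left (mul_le_mul (hK p.1) (hL p.2) (abs_nonneg _)
    ((abs_nonneg _).trans (hK p.1))) hp.le).trans ?_
  unfold gk
  have h1 : Real.exp (-‖C.X p.1 - 0‖ ^ 2 / (2 * 1)) *
      Real.exp (-‖C.X p.2 - ρ • C.X p.1‖ ^ 2 / (2 * t)) * Real.exp (ε * ‖C.X p.1‖ ^ 2) *
      Real.exp (ε * ‖C.X p.2‖ ^ 2) ≤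
      Real.exp (-ε * ‖C.X p.1‖ ^ 2) * Real.exp (-ε * ‖C.X p.2‖ ^ 2) := by
    rw [← Real.exp_add, ← Real.exp_add, ← Real.exp_add, ← Real.exp_add, Real.exp_le_exp, sub_zero]
    have h2 := sq_Int (C.X p.2) (ρ • C.X p.1)
    rw [norm_smul, mul_pow, Real.norm_eq_abs, sq_abs] at h2
    exact exp_Int ht hε he1 he2 (by positivity) (by positivity) h2
  have h3 : 0 ≤ (2 * Real.pi * 1) ^ (-(n : ℝ) / 2) * (2 * Real.pi * t) ^ (-(n : ℝ) / 2) *
      (K * L) := by positivity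
  convert mul_le_mul_of_nonneg_left h1 h3 using 1 <;> ring

theorem der_Int (n : ℕ) (D w : ℝ) {s : ℝ} (hs : 0 < s) :
    HasDerivAt (fun s : ℝ => (2 * Real.pi * s) ^ (-(n : ℝ) / 2) * Real.exp (-D / (2 * s)) * w)
      ((2 * Real.pi * s) ^ (-(n : ℝ) / 2) * Real.exp (-D / (2 * s)) * w *
        (D / (2 * s ^ 2) - n / (2 * s))) s := by
  have h0 : 0 < 2 * Real.pi * s := by positivity
  have h1 := ((hasDerivAt_id' s).const_mul (2 * Real.pi)).rpow_const (p := -(n : ℝ) / 2)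
    (Or.inl h0.ne')
  have h2 := ((hasDerivAt_const s (-D)).div ((hasDerivAt_id' s).const_mul 2)
    (by positivity)).exp
  refine ((h1.mul h2).mul_const w).congr_deriv ?_
  rw [Real.rpow_sub_one h0.ne']
  have := Real.pi_pos
  simp only [Pi.div_apply]
  field_simp
  ring

theorem bd_Int (n : ℕ) {D w s t : ℝ} (hD : 0 ≤ D) (ht : 0 < t) (h1 : t / 2 < s)
    (h2 : s < 3 * t / 2) :
    |(2 * Real.pi * s) ^ (-(n : ℝ) / 2) * Real.exp (-D / (2 * s)) * w *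
        (D / (2 * s ^ 2) - n / (2 * s))| ≤
      (Real.pi * t) ^ (-(n : ℝ) / 2) * ((24 + n) / t) * |Real.exp (-D / (2 * (2 * t))) * w| := by
  have hs : 0 < s := by linarith
  have hp := Real.pi_pos
  have a1 : (2 * Real.pi * s) ^ (-(n : ℝ) / 2) ≤ (Real.pi * t) ^ (-(n : ℝ) / 2) :=
    Real.rpow_le_rpow_of_nonpos (by positivity) (by nlinarith)
      (by have : (0 : ℝ) ≤ n := n.cast_nonneg; linarith)
  have a2 : Real.exp (-D / (2 * s)) ≤
      Real.exp (-D / (2 * (2 * t))) * Real.exp (-(D / (12 * t))) := by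
    rw [← Real.exp_add, Real.exp_le_exp]
    have : -D / (2 * (2 * t)) + -(D / (12 * t)) = -(D / (3 * t)) := by
      field_simp
      ring
    rw [this, neg_div, neg_le_neg_iff]
    exact div_le_div_of_nonneg_left hD (by positivity) (by linarith)
  have a3 : |D / (2 * s ^ 2) - n / (2 * s)| ≤ 2 * D / t ^ 2 + n / t := by
    refine (abs_sub _ _).trans ?_
    rw [abs_of_nonneg (by positivity), abs_of_nonneg (by positivity)]
    refine add_le_add ?_ (div_le_div_of_nonneg_left n.cast_nonneg ht (by linarith))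
    rw [div_le_div_iff₀ (by positivity) (by positivity)]
    have : t ^ 2 ≤ 4 * s ^ 2 := by nlinarith
    nlinarith
  have a4 : Real.exp (-(D / (12 * t))) * (2 * D / t ^ 2 + n / t) ≤ (24 + n) / t := by
    have b0 : 0 ≤ D / (12 * t) := by positivity
    have b1 : Real.exp (-(D / (12 * t))) ≤ 1 := Real.exp_le_one_iff.2 (by linarith)
    have b2 : Real.exp (-(D / (12 * t))) * (D / (12 * t)) ≤ 1 := by
      rw [Real.exp_neg, inv_mul_le_iff₀ (Real.exp_pos _)]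
      linarith [Real.add_one_le_exp (D / (12 * t))]
    have b3 : 2 * D / t ^ 2 = D / (12 * t) * (24 / t) := by
      field_simp
      ring
    rw [b3, mul_add, add_div, ← mul_assoc]
    exact add_le_add (mul_le_of_le_one_left (by positivity) b2)
      (mul_le_of_le_one_left (by positivity) b1)
  rw [abs_mul, abs_mul, abs_mul, abs_mul, abs_of_pos (Real.exp_pos _), abs_of_pos (Real.exp_pos _),
    abs_of_pos (by positivity : 0 < (2 * Real.pi * s) ^ (-(n : ℝ) / 2))]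
  calc _ ≤ (Real.pi * t) ^ (-(n : ℝ) / 2) *
        (Real.exp (-D / (2 * (2 * t))) * Real.exp (-(D / (12 * t)))) * |w| *
        (2 * D / t ^ 2 + n / t) := by gcongr
    _ = (Real.pi * t) ^ (-(n : ℝ) / 2) * (Real.exp (-(D / (12 * t))) * (2 * D / t ^ 2 + n / t)) *
        (Real.exp (-D / (2 * (2 * t))) * |w|) := by ring
    _ ≤ _ := by gcongr

theorem hasDerivAt_gauss {α : Type*} [MeasurableSpace α] {ν : Measure α} (n : ℕ) {D w : α → ℝ}
    (hD : Measurable D) (h0 : ∀ a, 0 ≤ D a) (hw : Measurable w)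
    (hint : ∀ s : ℝ, 0 < s → Integrable (fun a => Real.exp (-D a / (2 * s)) * w a) ν)
    {t : ℝ} (ht : 0 < t) :
    Integrable (fun a => (2 * Real.pi * t) ^ (-(n : ℝ) / 2) * Real.exp (-D a / (2 * t)) * w a *
      (D a / (2 * t ^ 2) - n / (2 * t))) ν ∧
    HasDerivAt (fun s : ℝ => ∫ a, (2 * Real.pi * s) ^ (-(n : ℝ) / 2) *
        Real.exp (-D a / (2 * s)) * w a ∂ν)
      (∫ a, (2 * Real.pi * t) ^ (-(n : ℝ) / 2) * Real.exp (-D a / (2 * t)) * w a *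
        (D a / (2 * t ^ 2) - n / (2 * t)) ∂ν) t := by
  have hF : ∀ s : ℝ, Measurable fun a => (2 * Real.pi * s) ^ (-(n : ℝ) / 2) *
      Real.exp (-D a / (2 * s)) * w a := fun s =>
    ((hD.neg.div_const _).exp.const_mul _).mul hw
  have hb : ∀ s ∈ Metric.ball t (t / 2), t / 2 < s ∧ s < 3 * t / 2 := fun s hs => by
    rw [Metric.mem_ball, Real.dist_eq, abs_lt] at hs
    constructor <;> linarith [hs.1, hs.2]
  refine hasDerivAt_integral_of_dominated_loc_of_deriv_le (s := Metric.ball t (t / 2))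
    (F := fun s a => (2 * Real.pi * s) ^ (-(n : ℝ) / 2) * Real.exp (-D a / (2 * s)) * w a)
    (F' := fun s a => (2 * Real.pi * s) ^ (-(n : ℝ) / 2) * Real.exp (-D a / (2 * s)) * w a *
      (D a / (2 * s ^ 2) - n / (2 * s)))
    (bound := fun a => (Real.pi * t) ^ (-(n : ℝ) / 2) * ((24 + n) / t) *
      |Real.exp (-D a / (2 * (2 * t))) * w a|)
    (Metric.ball_mem_nhds t (half_pos ht)) (Eventually.of_forall fun s => (hF s).aestronglyMeasurable)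
    ?_ ((hF t).mul ((hD.div_const _).sub_const _)).aestronglyMeasurable
    (ae_of_all _ fun a s hs => bd_Int n (h0 a) ht (hb s hs).1 (hb s hs).2)
    ((hint (2 * t) (by positivity)).abs.const_mul _)
    (ae_of_all _ fun a s hs => der_Int n (D a) (w a) (by linarith [(hb s hs).1]))
  simpa only [mul_assoc] using (hint t ht).const_mul ((2 * Real.pi * t) ^ (-(n : ℝ) / 2))

end Vale.Agent.P224
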