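import Vale.Agent.P224.Two

/-!
# Bounds for the Mehler quadratic forms  (TASK)

`gk_meh`: direct computation (`Real.sqrt_eq_rpow`, `Real.rpow_add`, `Real.mul_rpow`).
With `t = 1 - ρ²`, `K = gk n 0 1 Y * gk n (ρ Y) t X` is symmetric in `X, Y` (`gk_swap`, `t + ρ² = 1`).
`k₁ = ∫∫ K ⟪a,Y⟫² = ∫ gk n 0 1 Y ⟪a,Y⟫² F (ρ Y) t ≤ θ S` (`integral_prod`, `F_le`), and
`∫∫ K ⟪a,X⟫² = k₁` (`integral_prod_swap`).  `two_ineq` with `β = 1` and `β = -1` reads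
`(1 + β²) k₁ + 2 β k₂ ≥ (1 + 2ρβ + β²) S`, `k₂ = √(1 - ρ²) Q`.
`Phi_eq`: `integral_prod`; `Phi_low`: `one_le_F`, `aeZ`, `smulZ`; `Phi_anti`: `F_anti`
(integrability of the outer integrands: `Integrable.integral_prod_left` of `SG.int2`).
-/

namespace Vale.Agent.P224

open scoped RealInnerProductSpace ENNReal Topology
open MeasureTheory Set Filter

variable {n : ℕ} {Ω : Type*} [MeasurableSpace Ω] (C : Cone n Ω)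

theorem gk_meh (n : ℕ) (x y : Euc (n + 1)) {ρ : ℝ} (h0 : 0 ≤ ρ) (h1 : ρ < 1) :
    gk n 0 1 y * gk n (ρ • y) (1 - ρ ^ 2) x =
      √(1 - ρ ^ 2) * (gk n 0 1 y * gk n 0 1 x * meh ρ y x) := by
  have ht : 0 < 1 - ρ ^ 2 := by nlinarith
  have e1 : √(1 - ρ ^ 2) * (1 - ρ ^ 2) ^ (-((n + 1 : ℕ) : ℝ) / 2) = (1 - ρ ^ 2) ^ (-(n : ℝ) / 2) := by
    rw [Real.sqrt_eq_rpow, ← Real.rpow_add ht]
    congr 1
    push_cast
    ring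
  have e2 : Real.exp (-‖x - ρ • y‖ ^ 2 / (2 * (1 - ρ ^ 2))) = Real.exp (-‖x - 0‖ ^ 2 / (2 * 1)) *
      Real.exp ((2 * ρ * ⟪y, x⟫ - ρ ^ 2 * ‖y‖ ^ 2 - ρ ^ 2 * ‖x‖ ^ 2) / (2 * (1 - ρ ^ 2))) := by
    rw [← Real.exp_add, norm_sub_sq_real, real_inner_smul_right, norm_smul, mul_pow,
      Real.norm_eq_abs, sq_abs, sub_zero, real_inner_comm x y]
    congr 1
    field_simp
    ring
  unfold meh
  conv_lhs => rw [gk.eq_1 n (ρ • y), Real.mul_rpow (by positivity) ht.le, e2, ← e1]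
  rw [gk.eq_1 n 0 1 x, mul_one (2 * Real.pi)]
  ring

private theorem Q_Ker (h : Ω → ℝ) {ρ : ℝ} (h0 : 0 < ρ) (h1 : ρ < 1) :
    √(1 - ρ ^ 2) * C.Q h ρ = ∫ p : Ω × Ω, gk n 0 1 (C.X p.1) *
      gk n (ρ • C.X p.1) (1 - ρ ^ 2) (C.X p.2) * (h p.1 * h p.2) ∂(C.μ.prod C.μ) := by
  unfold Cone.Q
  rw [← integral_const_mul]
  refine integral_congr_ae (Eventually.of_forall fun p => ?_)
  simp only [gk_meh n _ _ h0.le h1]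
  ring

private theorem prod_Ker {f : Ω → ℝ} (hf : C.SG f) (ρ : ℝ) {t : ℝ} (ht : 0 < t) :
    Integrable (fun ω => gk n 0 1 (C.X ω) * f ω * ∫ ω', gk n (ρ • C.X ω) t (C.X ω') ∂C.μ) C.μ ∧
    ∫ p : Ω × Ω, gk n 0 1 (C.X p.1) * gk n (ρ • C.X p.1) t (C.X p.2) * (f p.1 * 1)
      ∂(C.μ.prod C.μ) =
      ∫ ω, gk n 0 1 (C.X ω) * f ω * ∫ ω', gk n (ρ • C.X ω) t (C.X ω') ∂C.μ ∂C.μ := by
  have hi := hf.int2 (Cone.SG.const C 1) ρ ht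
  have e : (fun ω => ∫ ω', gk n 0 1 (C.X ω) * gk n (ρ • C.X ω) t (C.X ω') * (f ω * 1) ∂C.μ) =
      fun ω => gk n 0 1 (C.X ω) * f ω * ∫ ω', gk n (ρ • C.X ω) t (C.X ω') ∂C.μ := by
    funext ω
    rw [← integral_const_mul]
    refine integral_congr_ae (Eventually.of_forall fun ω' => ?_)
    simp only
    ring
  refine ⟨e ▸ hi.integral_prod_left, ?_⟩
  rw [integral_prod _ hi, ← e]

private theorem two_Ker (a : Euc (n + 1)) {β ρ : ℝ} (hβ : β ^ 2 = 1) (h0 : 0 < ρ) (h1 : ρ < 1) :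
    (1 + ρ * β - C.θ) * C.S a ≤ β * (√(1 - ρ ^ 2) * C.Q (fun ω => ⟪a, C.X ω⟫) ρ) := by
  have ht : 0 < 1 - ρ ^ 2 := by nlinarith
  have ha := Cone.SG.inner C a
  have h2 := C.two_ineq a β h0 ht
  obtain ⟨j1, j2⟩ := prod_Ker C (ha.pow 2) ρ ht
  have k1 : ∫ p : Ω × Ω, gk n 0 1 (C.X p.1) * gk n (ρ • C.X p.1) (1 - ρ ^ 2) (C.X p.2) *
      (⟪a, C.X p.1⟫ ^ 2 * 1) ∂(C.μ.prod C.μ) ≤ C.S a * C.θ := by
    rw [j2, Cone.S, ← integral_mul_const]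
    refine integral_mono j1 (((ha.pow 2).int1 0 one_pos).mul_const _) fun ω => ?_
    exact mul_le_mul_of_nonneg_left (C.F_le _ ht)
      (mul_nonneg (gk_pos n 0 one_pos _).le (sq_nonneg _))
  have k2 : ∫ p : Ω × Ω, gk n 0 1 (C.X p.1) * gk n (ρ • C.X p.1) (1 - ρ ^ 2) (C.X p.2) *
      (1 * ⟪a, C.X p.2⟫ ^ 2) ∂(C.μ.prod C.μ) =
      ∫ p : Ω × Ω, gk n 0 1 (C.X p.1) * gk n (ρ • C.X p.1) (1 - ρ ^ 2) (C.X p.2) *
      (⟪a, C.X p.1⟫ ^ 2 * 1) ∂(C.μ.prod C.μ) := by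
    rw [← integral_prod_swap]
    refine integral_congr_ae (Eventually.of_forall fun p => ?_)
    simp only [Prod.fst_swap, Prod.snd_swap]
    rw [gk_swap n _ _ ρ ht, sub_add_cancel, div_one, div_one, mul_comm (1 : ℝ)]
  have i1 := (ha.pow 2).int2 (Cone.SG.const C 1) ρ ht
  have i2 := (Cone.SG.const C 1).int2 (ha.pow 2) ρ ht
  have i3 := (ha.int2 ha ρ ht).const_mul (2 * β)
  have e : ∫ p : Ω × Ω, gk n 0 1 (C.X p.1) * gk n (ρ • C.X p.1) (1 - ρ ^ 2) (C.X p.2) *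
      (⟪a, C.X p.2⟫ + β * ⟪a, C.X p.1⟫) ^ 2 ∂(C.μ.prod C.μ) =
      ∫ p : Ω × Ω, (gk n 0 1 (C.X p.1) * gk n (ρ • C.X p.1) (1 - ρ ^ 2) (C.X p.2) *
        (⟪a, C.X p.1⟫ ^ 2 * 1) + gk n 0 1 (C.X p.1) * gk n (ρ • C.X p.1) (1 - ρ ^ 2) (C.X p.2) *
        (1 * ⟪a, C.X p.2⟫ ^ 2)) + 2 * β * (gk n 0 1 (C.X p.1) *
        gk n (ρ • C.X p.1) (1 - ρ ^ 2) (C.X p.2) * (⟪a, C.X p.1⟫ * ⟪a, C.X p.2⟫))
        ∂(C.μ.prod C.μ) := by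
    refine integral_congr_ae (Eventually.of_forall fun p => ?_)
    simp only
    linear_combination (gk n 0 1 (C.X p.1) * gk n (ρ • C.X p.1) (1 - ρ ^ 2) (C.X p.2) *
      ⟪a, C.X p.1⟫ ^ 2) * hβ
  have e1 := integral_add (i1.add i2) i3
  simp only [Pi.add_apply] at e1
  rw [e, e1, integral_add i1 i2, integral_const_mul, k2] at h2
  rw [Q_Ker C _ h0 h1]
  have e2 : (ρ + β) ^ 2 + (1 - ρ ^ 2) = 2 + 2 * (ρ * β) := by linear_combination hβ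
  rw [e2] at h2
  linarith

theorem Cone.k2_low (a : Euc (n + 1)) {ρ : ℝ} (h0 : 0 < ρ) (h1 : ρ < 1) :
    (1 + ρ - C.θ) * C.S a ≤ √(1 - ρ ^ 2) * C.Q (fun ω => ⟪a, C.X ω⟫) ρ := by
  have := two_Ker C a (β := 1) (by norm_num) h0 h1
  linarith

theorem Cone.k2_up (a : Euc (n + 1)) {ρ : ℝ} (h0 : 0 < ρ) (h1 : ρ < 1) :
    √(1 - ρ ^ 2) * C.Q (fun ω => ⟪a, C.X ω⟫) ρ ≤ (C.θ - 1 + ρ) * C.S a := by
  have := two_Ker C a (β := -1) (by norm_num) h0 h1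
  linarith

private theorem Phi_Ker {ρ : ℝ} (h0 : 0 < ρ) (h1 : ρ < 1) :
    √(1 - ρ ^ 2) * C.Q (fun _ => 1) ρ =
      ∫ ω, gk n 0 1 (C.X ω) * 1 * ∫ ω', gk n (ρ • C.X ω) (1 - ρ ^ 2) (C.X ω') ∂C.μ ∂C.μ :=
  (Q_Ker C _ h0 h1).trans (prod_Ker C (Cone.SG.const C 1) ρ (by nlinarith)).2

theorem Cone.Phi_low {ρ : ℝ} (h0 : 0 < ρ) (h1 : ρ < 1) :
    C.θ ≤ √(1 - ρ ^ 2) * C.Q (fun _ => 1) ρ := by
  have ht : 0 < 1 - ρ ^ 2 := by nlinarith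
  rw [Phi_Ker C h0 h1, Cone.θ]
  refine integral_mono_ae ?_ (prod_Ker C (Cone.SG.const C 1) ρ ht).1 ?_
  · simpa only [mul_one] using (Cone.SG.const C 1).int1 0 one_pos
  · filter_upwards [C.aeZ] with ω hω
    rw [mul_one]
    exact le_mul_of_one_le_right (gk_pos n 0 one_pos _).le (C.one_le_F (C.smulZ _ hω ρ h0) ht)

theorem Cone.Phi_anti {ρ r : ℝ} (h0 : 0 < ρ) (h : ρ ≤ r) (h1 : r < 1) :
    √(1 - r ^ 2) * C.Q (fun _ => 1) r ≤ √(1 - ρ ^ 2) * C.Q (fun _ => 1) ρ := by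
  rw [Phi_Ker C h0 (h.trans_lt h1), Phi_Ker C (h0.trans_le h) h1]
  refine integral_mono (prod_Ker C (Cone.SG.const C 1) r (by nlinarith)).1
    (prod_Ker C (Cone.SG.const C 1) ρ (by nlinarith)).1 fun ω => ?_
  exact mul_le_mul_of_nonneg_left (C.F_anti _ h0 h h1)
    (mul_nonneg (gk_pos n 0 one_pos _).le zero_le_one)

end Vale.Agent.P224
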