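import Vale.Agent.P224.Defs

/-!
# Linear algebra of an injective differential  (TASK)

`gop A` is injective (`⟪gop A h, h⟫ = ‖A h‖²`, `ContinuousLinearMap.adjoint_inner_left`), hence
invertible (`LinearEquiv.ofInjectiveEndo`, `toContinuousLinearEquiv`).  The matrix of `gop A` in
`EuclideanSpace.basisFun` is the Gram matrix (`LinearMap.det_toMatrix`,
`LinearMap.toMatrix_orthonormalBasis`-like lemmas or `LinearMap.toMatrix_apply`); positivity of
the determinant from `Matrix.PosDef.det_pos`.  `gram_inv`: `Matrix.inv_eq_right_inv`.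
`tco_eq`: `tco A v` is the unique `w` with `⟪A w, A h⟫ = ⟪v, A h⟫` for all `h`; this gives the
behaviour under a change of coordinates `T`.  `prj_tr`: `∑ᵢ ⟪eᵢ, prj eᵢ⟫` is the trace
(`LinearMap.trace_eq_sum_inner`), `trace (A ∘ tco) = trace (tco ∘ A) = trace id`
(`LinearMap.trace_comp_comm’`).  The last three theorems can be copied from `P219/Det.lean`
(`contDiff_det`, `det_line`, `fderiv_det`; do not import it).
-/

namespace Vale.Agent.P224

open scoped RealInnerProductSpace ENNReal Topology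
open MeasureTheory Set Filter

variable {m N : ℕ} {A : Euc m →L[ℝ] Euc N}

theorem gop_inner (A : Euc m →L[ℝ] Euc N) (h k : Euc m) : ⟪gop A h, k⟫ = ⟪A h, A k⟫ := by
  exact ContinuousLinearMap.adjoint_inner_left A k (A h)

theorem gop_isInvertible (hA : Function.Injective A) : (gop A).IsInvertible := by
  have h : Function.Injective (gop A) := by
    refine (injective_iff_map_eq_zero _).2 fun h h0 => hA ?_
    have h1 := gop_inner A h h
    rw [h0, inner_zero_left] at h1
    rw [map_zero]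
    exact inner_self_eq_zero.1 h1.symm
  exact ⟨(LinearEquiv.ofInjectiveEndo (gop A : Euc m →ₗ[ℝ] Euc m) h).toContinuousLinearEquiv, rfl⟩

theorem det_LinA (A : Euc m →L[ℝ] Euc N) :
    (gop A).det = (A : Euc m →ₗ[ℝ] Euc N).normDet ^ 2 := A.normDet_sq.symm

theorem sqrt_LinA (A : Euc m →L[ℝ] Euc N) :
    √(gop A).det = (A : Euc m →ₗ[ℝ] Euc N).normDet := by
  rw [det_LinA, Real.sqrt_sq (LinearMap.normDet_nonneg _)]

theorem gop_det_pos (hA : Function.Injective A) : 0 < (gop A).det := by
  rw [det_LinA]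
  refine pow_pos (lt_of_le_of_ne (LinearMap.normDet_nonneg _) fun h => ?_) 2
  exact LinearMap.normDet_eq_zero_iff_ker_ne_bot.1 h.symm (LinearMap.ker_eq_bot.2 hA)

theorem gram_det (φ : Euc m → Euc N) (z : Euc m) : (gram φ z).det = (gop (fderiv ℝ φ z)).det := by
  rw [det_LinA]
  have h := LinearMap.normDet_sq_eq_det_gram (fderiv ℝ φ z : Euc m →ₗ[ℝ] Euc N)
    (EuclideanSpace.basisFun (Fin m) ℝ)
  refine Eq.trans (congrArg Matrix.det ?_) h.symm
  ext i j
  simp [gram, pd, Matrix.gram]

theorem sum_LinA (v : Euc m) : ∑ i, v i • EuclideanSpace.single i (1 : ℝ) = v := by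
  simpa using (EuclideanSpace.basisFun (Fin m) ℝ).sum_repr v

theorem gram_inv {φ : Euc m → Euc N} {z : Euc m} (hA : Function.Injective (fderiv ℝ φ z))
    (i j : Fin m) : (gram φ z)⁻¹ i j =
      (gop (fderiv ℝ φ z)).inverse (EuclideanSpace.single j 1) i := by
  have h : gram φ z * Matrix.of (fun i j =>
      (gop (fderiv ℝ φ z)).inverse (EuclideanSpace.single j 1) i) = 1 := by
    ext a b
    have h1 := gop_inner (fderiv ℝ φ z) ((gop (fderiv ℝ φ z)).inverse (EuclideanSpace.single b 1))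
      (EuclideanSpace.single a 1)
    rw [(gop_isInvertible hA).self_apply_inverse,
      ← sum_LinA ((gop (fderiv ℝ φ z)).inverse (EuclideanSpace.single b 1)), map_sum,
      sum_inner] at h1
    rw [Matrix.mul_apply, Matrix.one_apply]
    refine Eq.trans ?_ (h1.symm.trans ?_)
    · refine Finset.sum_congr rfl fun k _ => ?_
      rw [map_smul, real_inner_smul_left, real_inner_comm, mul_comm]
      rfl
    · simp [EuclideanSpace.inner_single_left, eq_comm]
  rw [Matrix.inv_eq_right_inv h]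
  rfl

theorem gop_inverse_symm (hA : Function.Injective A) (h k : Euc m) :
    ⟪(gop A).inverse h, k⟫ = ⟪h, (gop A).inverse k⟫ := by
  have hi := gop_isInvertible hA
  have h1 := gop_inner A ((gop A).inverse h) ((gop A).inverse k)
  have h2 := gop_inner A ((gop A).inverse k) ((gop A).inverse h)
  rw [hi.self_apply_inverse] at h1 h2
  rw [h1, real_inner_comm, h2, real_inner_comm]

theorem tco_inner (hA : Function.Injective A) (v : Euc N) (h : Euc m) :
    ⟪A (tco A v), A h⟫ = ⟪v, A h⟫ := by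
  rw [← gop_inner, tco, ContinuousLinearMap.comp_apply, (gop_isInvertible hA).self_apply_inverse,
    ContinuousLinearMap.adjoint_inner_left]

theorem tco_eq (hA : Function.Injective A) {v : Euc N} {w : Euc m}
    (hw : ∀ h, ⟪A w, A h⟫ = ⟪v, A h⟫) : tco A v = w := by
  refine hA (sub_eq_zero.1 (inner_self_eq_zero (𝕜 := ℝ).1 ?_))
  nth_rewrite 2 [← map_sub]
  rw [inner_sub_left, tco_inner hA, hw, sub_self]

theorem prj_symm (hA : Function.Injective A) (u v : Euc N) : ⟪prj A u, v⟫ = ⟪u, prj A v⟫ := by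
  have h1 := tco_inner hA u (tco A v)
  have h2 := tco_inner hA v (tco A u)
  change ⟪A (tco A u), v⟫ = ⟪u, A (tco A v)⟫
  rw [← h1, real_inner_comm, ← h2, real_inner_comm]

theorem prj_idem (hA : Function.Injective A) (v : Euc N) : prj A (prj A v) = prj A v := by
  exact congrArg A (tco_eq hA (w := tco A v) fun h => rfl)

theorem prj_normal (hA : Function.Injective A) {v : Euc N} (hv : ∀ h, ⟪v, A h⟫ = 0) :
    prj A v = 0 := by
  change A (tco A v) = 0
  rw [tco_eq hA (w := 0) fun h => by rw [map_zero, inner_zero_left, hv], map_zero]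

theorem trace_LinA (B : Euc m →L[ℝ] Euc m) :
    ∑ i, B (EuclideanSpace.single i 1) i = LinearMap.trace ℝ _ (B : Euc m →ₗ[ℝ] Euc m) := by
  rw [LinearMap.trace_eq_sum_inner _ (EuclideanSpace.basisFun (Fin m) ℝ)]
  simp [EuclideanSpace.inner_single_left]

theorem prj_tr (hA : Function.Injective A) :
    ∑ i, prj A (EuclideanSpace.single i 1) i = m := by
  have h : (tco A : Euc N →ₗ[ℝ] Euc m) ∘ₗ (A : Euc m →ₗ[ℝ] Euc N) = LinearMap.id :=
    LinearMap.ext fun w => tco_eq hA fun h => rfl
  rw [trace_LinA]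
  refine (LinearMap.trace_comp_comm' (tco A : Euc N →ₗ[ℝ] Euc m)
    (A : Euc m →ₗ[ℝ] Euc N)).trans ?_
  rw [h, LinearMap.trace_id]
  simp

theorem tco_comp {T : Euc m →L[ℝ] Euc m} (hA : Function.Injective (A.comp T)) 
    (hA2 : Function.Injective A) (v : Euc N) : T (tco (A.comp T) v) = tco A v := by
  have h1 : Function.Injective T := Function.Injective.of_comp (f := A) hA
  have h2 : Function.Surjective T :=
    (LinearMap.injective_iff_surjective (f := (T : Euc m →ₗ[ℝ] Euc m))).1 h1
  refine (tco_eq hA2 fun h => ?_).symm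
  obtain ⟨k, rfl⟩ := h2 h
  exact tco_inner hA v k

theorem prj_comp {T : Euc m →L[ℝ] Euc m} (hA : Function.Injective (A.comp T))
    (hA2 : Function.Injective A) : prj (A.comp T) = prj A := by
  refine ContinuousLinearMap.ext fun v => ?_
  exact congrArg A (tco_comp hA hA2 v)

theorem gop_det_comp (A : Euc m →L[ℝ] Euc N) (T : Euc m →L[ℝ] Euc m) :
    √(gop (A.comp T)).det = |T.det| * √(gop A).det := by
  rw [sqrt_LinA, sqrt_LinA, ContinuousLinearMap.det, ← LinearMap.normDet_eq_abs_det, mul_comm]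
  exact LinearMap.normDet_comp_of_finrank_eq (T : Euc m →ₗ[ℝ] Euc m) (A : Euc m →ₗ[ℝ] Euc N) rfl

theorem exists_sqrt (hA : Function.Injective A) : ∃ B : Euc m →L[ℝ] Euc m,
    (∀ h, ‖B h‖ = ‖A h‖) ∧ |B.det| = √(gop A).det := by
  have h : Module.finrank ℝ (LinearMap.range (A : Euc m →ₗ[ℝ] Euc N)) = m := by
    rw [LinearMap.finrank_range_of_inj hA]
    simp
  let J := ((stdOrthonormalBasis ℝ (LinearMap.range (A : Euc m →ₗ[ℝ] Euc N))).reindex
    (finCongr h)).repr
  let B : Euc m →L[ℝ] Euc m := LinearMap.toContinuousLinearMap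
    (J.toLinearEquiv.toLinearMap ∘ₗ (A : Euc m →ₗ[ℝ] Euc N).rangeRestrict)
  have hB : ∀ u v, ⟪B u, B v⟫ = ⟪A u, A v⟫ := fun u v => J.inner_map_map _ _
  have e : gop B = gop A := ContinuousLinearMap.ext fun u => ext_inner_right ℝ fun v => by
    rw [gop_inner, gop_inner, hB]
  refine ⟨B, fun u => J.norm_map _, ?_⟩
  rw [← e, sqrt_LinA, LinearMap.normDet_eq_abs_det]

theorem adj_LinA : ContDiff ℝ 1 fun B : Euc m →L[ℝ] Euc N => ContinuousLinearMap.adjoint B := by
  let L : (Euc m →L[ℝ] Euc N) →ₗ[ℝ] (Euc N →L[ℝ] Euc m) :=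
    { toFun := fun B => ContinuousLinearMap.adjoint B
      map_add' := fun B C => map_add _ B C
      map_smul' := fun c B => by simp }
  exact (LinearMap.toContinuousLinearMap L).contDiff

theorem contDiffAt_tco (hA : Function.Injective A) :
    ContDiffAt ℝ 1 (fun B : Euc m →L[ℝ] Euc N => tco B) A := by
  have h : ContDiff ℝ 1 fun B : Euc m →L[ℝ] Euc N => gop B := adj_LinA.clm_comp contDiff_id
  exact (((gop_isInvertible hA).contDiffAt_map_inverse (n := 1)).comp A h.contDiffAt).clm_comp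
    adj_LinA.contDiffAt

theorem contDiff_gop : ContDiff ℝ 1 fun B : Euc m →L[ℝ] Euc N => gop B := by
  exact adj_LinA.clm_comp contDiff_id

theorem contDiff_det : ContDiff ℝ 1 fun B : Euc m →L[ℝ] Euc m => B.det := by
  classical
  let b := Module.finBasis ℝ (Euc m)
  have e : (fun A : Euc m →L[ℝ] Euc m => A.det) = fun A => ∑ σ : Equiv.Perm _,
      ((Equiv.Perm.sign σ : ℤ) : ℝ) * ∏ i, (b.coord (σ i)).toContinuousLinearMap (A (b i)) := by
    funext A
    rw [ContinuousLinearMap.det, ← LinearMap.det_toMatrix b, Matrix.det_apply']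
    simp [LinearMap.toMatrix_apply]
  rw [e]
  refine ContDiff.sum fun σ _ => contDiff_const.mul (contDiff_prod fun i _ => ?_)
  exact (ContinuousLinearMap.contDiff _).comp (contDiff_id.clm_apply contDiff_const)

theorem line_LinA (H : Euc m →L[ℝ] Euc m) :
    HasDerivAt (fun t : ℝ => (1 + t • H : Euc m →L[ℝ] Euc m).det)
      (LinearMap.trace ℝ (Euc m) (H : Euc m →ₗ[ℝ] Euc m)) 0 := by
  classical
  let b := Module.finBasis ℝ (Euc m)
  obtain ⟨q, hq⟩ : ∃ q : Polynomial ℝ, ∀ t : ℝ, (1 + t • H : Euc m →L[ℝ] Euc m).det =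
      1 + LinearMap.trace ℝ (Euc m) (H : Euc m →ₗ[ℝ] Euc m) * t + q.eval t * t ^ 2 := by
    refine ⟨_, fun t => Eq.trans ?_ ((Matrix.det_one_add_smul t
      (LinearMap.toMatrix b b (H : Euc m →ₗ[ℝ] Euc m))).trans
      (by rw [LinearMap.trace_eq_matrix_trace ℝ b]))⟩
    rw [ContinuousLinearMap.det, ← LinearMap.det_toMatrix b, ← map_smul,
      ← LinearMap.toMatrix_one b, ← map_add]
    rfl
  simp only [hq]
  have h := (((hasDerivAt_id' (0 : ℝ)).const_mul
    (LinearMap.trace ℝ (Euc m) (H : Euc m →ₗ[ℝ] Euc m))).const_add 1).fun_add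
    ((q.hasDerivAt 0).fun_mul (hasDerivAt_pow 2 (0 : ℝ)))
  simpa using h

theorem fderiv_det {B : Euc m →L[ℝ] Euc m} (hB : B.IsInvertible) (H : Euc m →L[ℝ] Euc m) :
    fderiv ℝ (fun B : Euc m →L[ℝ] Euc m => B.det) B H =
      B.det * ∑ i, B.inverse (H (EuclideanSpace.single i 1)) i := by
  have hd : DifferentiableAt ℝ (fun A : Euc m →L[ℝ] Euc m => A.det) B :=
    contDiff_det.differentiable (by simp) B
  have h1 := hd.hasFDerivAt.hasLineDerivAt H
  have h2 := (line_LinA (B.inverse.comp H)).const_mul B.det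
  have e : (fun t : ℝ => (B + t • H).det) =
      fun t : ℝ => B.det * (1 + t • B.inverse.comp H : Euc m →L[ℝ] Euc m).det := by
    funext t
    have : B + t • H = B.comp (1 + t • B.inverse.comp H) := by
      refine ContinuousLinearMap.ext fun v => ?_
      simp [hB.self_apply_inverse]
    rw [this]
    exact LinearMap.det_comp _ _
  rw [← e, ← trace_LinA] at h2
  exact HasDerivAt.unique h1 h2

end Vale.Agent.P224
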