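import Vale.Agent.P224.Div

/-!
# The volume measure of an immersion  (TASK)

`chm_lint`: `lintegral_map’` (`e.symm` is a.e.-measurable on `e.target`:
`ContinuousOn.aemeasurable`), `lintegral_withDensity_eq_lintegral_mul₀` (`contDiffOn_J`).
`chm_compat`: for measurable `A ⊆ e.source ∩ e₂.source`, apply
`lintegral_image_eq_lintegral_abs_det_fderiv_mul` to `T = e₂ ∘ e.symm` on
`e.target ∩ e.symm ⁻¹’ A`; chain rule `D(F ∘ e.symm) = D(F ∘ e₂.symm) ∘ DT`, `gram_det`,
`gop_det_comp`.
`exists_meas`: finitely many charts `e i` (`i : Fin K`) cover `M`; `A = disjointed` of the sources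
(or `A i = source i \ ⋃_{j < i} source j`); `σ = ∑ᵢ (chm m F (e i)).restrict (A i)`.  Then
`σ.restrict e.source = ∑ᵢ (chm m F e).restrict (A i) = chm m F e`.  `σ univ ≤ vol` with
`S i = (e i).target ∩ (e i).symm ⁻¹’ A i`.  Finite: every point has a compact neighbourhood
`e.symm ’’ closedBall` of finite measure, and `M` is compact.
-/

namespace Vale.Agent.P224

open scoped RealInnerProductSpace ENNReal Topology
open MeasureTheory Set Filter

variable {m N : ℕ} {M : Type*} [TopologicalSpace M] [ChartedSpace (Euc m) M]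
  [MeasurableSpace M] [BorelSpace M] {F : M → Euc N}

omit [ChartedSpace (Euc m) M] in
theorem symm_ae_Meas (e : OpenPartialHomeomorph M (Euc m)) :
    AEMeasurable e.symm (volume.restrict e.target) :=
  e.continuousOn_symm.aemeasurable e.open_target.measurableSet

omit [MeasurableSpace M] [BorelSpace M] in
theorem Imm.J_Meas (h : Imm m F) {e : OpenPartialHomeomorph M (Euc m)}
    (he : e ∈ atlas (Euc m) M) : ContinuousOn (fun z => √(gram (F ∘ e.symm) z).det) e.target :=
  (contDiffOn_J e.open_target (h.smooth e he) (h.inj e he)).continuousOn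

omit [MeasurableSpace M] [BorelSpace M] in
theorem Imm.J_ae_Meas (h : Imm m F) {e : OpenPartialHomeomorph M (Euc m)}
    (he : e ∈ atlas (Euc m) M) : AEMeasurable
      (fun z => ENNReal.ofReal √(gram (F ∘ e.symm) z).det) (volume.restrict e.target) :=
  ((h.J_Meas he).aemeasurable e.open_target.measurableSet).ennreal_ofReal

omit [ChartedSpace (Euc m) M] in
theorem pre_Meas (e : OpenPartialHomeomorph M (Euc m)) {A : Set M} (hA : MeasurableSet A) :
    MeasurableSet (e.target ∩ e.symm ⁻¹' A) := by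
  have h := e.open_target.measurableSet.subtype_image
    ((continuousOn_iff_continuous_domRestrict.1 e.continuousOn_symm).measurable hA)
  refine h.congr (Set.ext fun z => ?_)
  exact ⟨fun ⟨w, h1, h2⟩ => h2 ▸ ⟨w.2, h1⟩, fun hz => ⟨⟨z, hz.1⟩, hz.2, rfl⟩⟩

omit [ChartedSpace (Euc m) M] in
theorem chm_apply_Meas (e : OpenPartialHomeomorph M (Euc m)) {A : Set M} (hA : MeasurableSet A) :
    chm m F e A =
      ∫⁻ z in e.target ∩ e.symm ⁻¹' A, ENNReal.ofReal √(gram (F ∘ e.symm) z).det := by
  rw [chm, Measure.map_apply_of_aemeasurable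
      ((symm_ae_Meas e).mono' (withDensity_absolutelyContinuous _ _)) hA, withDensity_apply',
    Measure.restrict_restrict' e.open_target.measurableSet, inter_comm]

theorem Imm.chm_lint (h : Imm m F) {e : OpenPartialHomeomorph M (Euc m)}
    (he : e ∈ atlas (Euc m) M) {f : M → ℝ≥0∞} (hf : Measurable f) :
    ∫⁻ p, f p ∂chm m F e =
      ∫⁻ z in e.target, f (e.symm z) * ENNReal.ofReal √(gram (F ∘ e.symm) z).det := by
  rw [chm, lintegral_map' hf.aemeasurable
      ((symm_ae_Meas e).mono' (withDensity_absolutelyContinuous _ _)),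
    lintegral_withDensity_eq_lintegral_mul₀ (h.J_ae_Meas he)
      (g := fun z => f (e.symm z)) (hf.comp_aemeasurable (symm_ae_Meas e))]
  exact lintegral_congr fun z => mul_comm _ _

theorem Imm.chm_int (h : Imm m F) {e : OpenPartialHomeomorph M (Euc m)}
    (he : e ∈ atlas (Euc m) M) {f : M → ℝ} (hf : Measurable f) :
    ∫ p, f p ∂chm m F e = ∫ z in e.target, √(gram (F ∘ e.symm) z).det * f (e.symm z) := by
  rw [chm, integral_map ((symm_ae_Meas e).mono' (withDensity_absolutelyContinuous _ _))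
      hf.aestronglyMeasurable, integral_withDensity_eq_integral_toReal_smul₀ (h.J_ae_Meas he)
      (Eventually.of_forall fun _ => ENNReal.ofReal_lt_top)]
  simp only [ENNReal.toReal_ofReal (Real.sqrt_nonneg _), smul_eq_mul]

omit [MeasurableSpace M] [BorelSpace M] in
theorem Imm.diff_Meas (h : Imm m F) {e e₂ : OpenPartialHomeomorph M (Euc m)}
    (he : e ∈ atlas (Euc m) M) (he₂ : e₂ ∈ atlas (Euc m) M) {z : Euc m}
    (hz : z ∈ e.target ∩ e.symm ⁻¹' e₂.source) : DifferentiableAt ℝ (e₂ ∘ e.symm) z :=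
  ((h.trans e he e₂ he₂).contDiffAt
    ((e.isOpen_inter_preimage_symm e₂.open_source).mem_nhds hz)).differentiableAt two_ne_zero

theorem Imm.chain (h : Imm m F) {e e₂ : OpenPartialHomeomorph M (Euc m)}
    (he : e ∈ atlas (Euc m) M) (he₂ : e₂ ∈ atlas (Euc m) M) {G : Type*} [NormedAddCommGroup G]
    [NormedSpace ℝ G] {u : M → G} {p : M} (hp : p ∈ e.source) (hp₂ : p ∈ e₂.source)
    (hu : DifferentiableAt ℝ (u ∘ e₂.symm) (e₂ p)) :
    fderiv ℝ (u ∘ e.symm) (e p) =
      (fderiv ℝ (u ∘ e₂.symm) (e₂ p)).comp (fderiv ℝ (e₂ ∘ e.symm) (e p)) := by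
  have hz : e p ∈ e.target ∩ e.symm ⁻¹' e₂.source :=
    ⟨e.map_source hp, by rwa [mem_preimage, e.left_inv hp]⟩
  have e1 : (e₂ ∘ e.symm) (e p) = e₂ p := congrArg e₂ (e.left_inv hp)
  rw [← e1] at hu ⊢
  rw [← fderiv_comp _ hu (h.diff_Meas he he₂ hz)]
  refine Filter.EventuallyEq.fderiv_eq ?_
  filter_upwards [(e.isOpen_inter_preimage_symm e₂.open_source).mem_nhds hz] with z hz'
  exact congrArg u (e₂.left_inv hz'.2).symm

theorem Imm.chm_eq_Meas (h : Imm m F) {e e₂ : OpenPartialHomeomorph M (Euc m)}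
    (he : e ∈ atlas (Euc m) M) (he₂ : e₂ ∈ atlas (Euc m) M) {A : Set M} (hA : MeasurableSet A)
    (h1 : A ⊆ e.source) (h2 : A ⊆ e₂.source) : chm m F e A = chm m F e₂ A := by
  have e1 : e₂.target ∩ e₂.symm ⁻¹' A = (e₂ ∘ e.symm) '' (e.target ∩ e.symm ⁻¹' A) := by
    ext w
    constructor
    · rintro ⟨a1, a2⟩
      have a3 := e.left_inv (h1 a2)
      exact ⟨e (e₂.symm w), ⟨e.map_source (h1 a2), by rwa [mem_preimage, a3]⟩,
        (congrArg e₂ a3).trans (e₂.right_inv a1)⟩
    · rintro ⟨z, hz, rfl⟩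
      exact ⟨e₂.map_source (h2 hz.2), by
        rw [mem_preimage, Function.comp_apply, e₂.left_inv (h2 hz.2)]
        exact hz.2⟩
  rw [chm_apply_Meas e hA, chm_apply_Meas e₂ hA, e1,
    lintegral_image_eq_lintegral_abs_det_fderiv_mul volume (pre_Meas e hA)
      (fun z hz => (h.diff_Meas he he₂ ⟨hz.1, h2 hz.2⟩).hasFDerivAt.hasFDerivWithinAt)
      fun z hz w hw e' => e.symm.injOn hz.1 hw.1 (e₂.injOn (h2 hz.2) (h2 hw.2) e')]
  refine setLIntegral_congr_fun (pre_Meas e hA) fun z hz => ?_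
  have a1 := h.chain he he₂ (h1 hz.2) (h2 hz.2) (((h.smooth e₂ he₂).contDiffAt
    (e₂.open_target.mem_nhds (e₂.map_source (h2 hz.2)))).differentiableAt two_ne_zero)
  rw [e.right_inv hz.1] at a1
  beta_reduce
  rw [gram_det, gram_det, a1, gop_det_comp, ENNReal.ofReal_mul (abs_nonneg _)]
  rfl

theorem Imm.chm_compat (h : Imm m F) {e e₂ : OpenPartialHomeomorph M (Euc m)}
    (he : e ∈ atlas (Euc m) M) (he₂ : e₂ ∈ atlas (Euc m) M) :
    (chm m F e).restrict (e.source ∩ e₂.source) =
      (chm m F e₂).restrict (e.source ∩ e₂.source) := by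
  ext A hA
  rw [Measure.restrict_apply hA, Measure.restrict_apply hA]
  exact h.chm_eq_Meas he he₂
    (hA.inter (e.open_source.inter e₂.open_source).measurableSet) (fun _ hp => hp.2.1)
    fun _ hp => hp.2.2

theorem Imm.exists_meas [CompactSpace M] (h : Imm m F) : ∃ σ : Measure M, IsFiniteMeasure σ ∧
    σ univ ≤ vol m F ∧ ∀ e ∈ atlas (Euc m) M, σ.restrict e.source = chm m F e := by
  obtain ⟨t, ht⟩ := isCompact_univ.elim_finite_subcover (fun p : M => (chartAt (Euc m) p).source)
    (fun p => (chartAt (Euc m) p).open_source)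
    fun p _ => mem_iUnion.2 ⟨p, mem_chart_source _ p⟩
  let c : Fin t.card → OpenPartialHomeomorph M (Euc m) := fun i =>
    chartAt (Euc m) (t.equivFin.symm i : M)
  have hc : ∀ i, c i ∈ atlas (Euc m) M := fun i => chart_mem_atlas _ _
  let A : Fin t.card → Set M := fun i => (c i).source \ ⋃ j, ⋃ (_ : j < i), (c j).source
  have hA : ∀ i, MeasurableSet (A i) := fun i => (c i).open_source.measurableSet.diff
    (isOpen_iUnion fun j => isOpen_iUnion fun _ => (c j).open_source).measurableSet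
  have hd : Pairwise (Function.onFun Disjoint A) := fun i j hij => disjoint_left.2 fun p hi hj => by
    rcases lt_or_gt_of_ne hij with h1 | h1
    · exact hj.2 (mem_iUnion₂.2 ⟨i, h1, hi.1⟩)
    · exact hi.2 (mem_iUnion₂.2 ⟨j, h1, hj.1⟩)
  have hu : ∀ p, ∃ i, p ∈ A i := fun p => by
    obtain ⟨q, hq, hp⟩ := mem_iUnion₂.1 (ht (mem_univ p))
    obtain ⟨i, h1, h2⟩ := wellFounded_lt.has_min {i | p ∈ (c i).source}
      ⟨t.equivFin ⟨q, hq⟩, by simpa [c] using hp⟩
    exact ⟨i, h1, fun h3 => let ⟨j, a1, a2⟩ := mem_iUnion₂.1 h3; h2 j a2 a1⟩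
  have key : ∀ e ∈ atlas (Euc m) M,
      (∑ i, (chm m F (c i)).restrict (A i)).restrict e.source = chm m F e := fun e he => by
    ext B hB
    have hB' := hB.inter e.open_source.measurableSet
    have e1 : chm m F e B = chm m F e (⋃ i, B ∩ e.source ∩ A i) := by
      rw [chm_apply_Meas e hB, chm_apply_Meas e (MeasurableSet.iUnion fun i => hB'.inter (hA i))]
      refine setLIntegral_congr (EventuallyEq.of_eq (Set.ext fun z => and_congr_right fun hz => ?_))
      obtain ⟨i, hi⟩ := hu (e.symm z)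
      exact ⟨fun h1 => mem_iUnion.2 ⟨i, ⟨h1, e.map_target hz⟩, hi⟩,
        fun h1 => let ⟨_, h2⟩ := mem_iUnion.1 h1; h2.1.1⟩
    rw [e1, measure_iUnion (fun i j hij => (hd hij).mono inter_subset_right inter_subset_right)
      fun i => hB'.inter (hA i), tsum_fintype, Measure.restrict_apply hB, Measure.finsetSum_apply]
    refine Finset.sum_congr rfl fun i _ => ?_
    rw [Measure.restrict_apply hB']
    exact h.chm_eq_Meas (hc i) he (hB'.inter (hA i)) (fun _ hp => hp.2.1) fun _ hp => hp.1.2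
  refine ⟨_, ?_, ?_, key⟩
  · have : IsLocallyFiniteMeasure (∑ i, (chm m F (c i)).restrict (A i)) := ⟨fun p => by
      set e := chartAt (Euc m) p with he
      obtain ⟨K, hK, h1, h2⟩ := exists_compact_subset e.open_target
        (e.map_source (mem_chart_source _ p))
      have h3 := e.isOpen_inter_preimage (isOpen_interior (s := K))
      refine ⟨_, h3.mem_nhds ⟨mem_chart_source _ p, h1⟩, ?_⟩
      rw [← Measure.restrict_eq_self _ inter_subset_left, key e (chart_mem_atlas _ _),
        chm_apply_Meas e h3.measurableSet]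
      refine (lintegral_mono_set fun z hz => ?_).trans_lt
        (((h.J_Meas (chart_mem_atlas _ _)).mono h2).integrableOn_compact hK).lintegral_lt_top
      exact e.right_inv hz.1 ▸ interior_subset hz.2.2⟩
    infer_instance
  · rw [Measure.finsetSum_apply]
    simp only [Measure.restrict_apply_univ, fun i => chm_apply_Meas (F := F) (c i) (hA i)]
    refine le_iSup_of_le t.card (le_iSup_of_le c (le_iSup_of_le
      (fun i => (c i).target ∩ (c i).symm ⁻¹' A i) (le_iSup_of_le
      (fun i => ⟨hc i, pre_Meas _ (hA i), inter_subset_left⟩) (le_iSup_of_le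
      (fun i j hij => (hd hij).mono ?_ ?_) le_rfl))))
    all_goals
      rintro _ ⟨z, hz, rfl⟩
      exact hz.2

end Vale.Agent.P224
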