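import Vale.Agent.P224.Herm

/-!
# The Mehler formula  (TASK)

Put `Z = cz x ξ`, `W = cz y η`, `s = ∑ₐ Zₐ * conj Wₐ`.  Then
`∑ᵢ herm i x * conj (herm i y) = ∫∫ gw ξ gw η s ^ k` (`Finset.prod_univ_sum` or `Finset.sum_pow`
via `Fintype.piFinset_univ`, `integral_prod_mul`, `integral_conj`, `integral_finset_sum`),
`‖s‖ ≤ (‖x‖² + ∑ ξ² + ‖y‖² + ∑ η²) / 2`, `(r u) ^ k / k! ≤ exp (r u)` (this gives `pk_bound`).
`mehler`: `hasSum_integral_of_dominated_convergence` on the product with the bounds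
`(ρ / r) ^ k * gw ξ gw η exp (r (…) / 2)`, `r = (1 + ρ) / 2`, gives
`HasSum … (∫∫ gw ξ gw η cexp (ρ s))`.  Evaluate by `integral_prod` and twice
`GaussianFourier.integral_cexp_neg_mul_sum_add`: the `η`-integral (`b = 1/2`, `cₐ = -I ρ Zₐ`) is
`cexp (ρ ∑ Zₐ yₐ - ρ² ∑ Zₐ² / 2)`; the `ξ`-integral has `b = (1 - ρ²) / 2`,
`cₐ = I (ρ yₐ - ρ² xₐ)` and constant `ρ ⟪x,y⟫ - ρ² ‖x‖² / 2`.
-/

namespace Vale.Agent.P224

open scoped RealInnerProductSpace ENNReal Topology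
open MeasureTheory Set Filter

variable {N : ℕ}

/-- The degree `k` Hermite projection kernel. -/
noncomputable def pk (k : ℕ) (x y : Euc N) : ℂ :=
  (k.factorial : ℂ)⁻¹ * ∑ i : Fin k → Fin N, herm i x * (starRingEnd ℂ) (herm i y)

/-- the pairing of the complexified points -/
noncomputable def ss_Mehler (x y : Euc N) (p : (Fin N → ℝ) × (Fin N → ℝ)) : ℂ :=
  ∑ a, cz x p.1 a * (starRingEnd ℂ) (cz y p.2 a)

/-- the integrand of degree `k` -/
noncomputable def gg_Mehler (k : ℕ) (x y : Euc N) (p : (Fin N → ℝ) × (Fin N → ℝ)) : ℂ :=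
  (gw N p.1 : ℂ) * gw N p.2 * (ss_Mehler x y p ^ k / k.factorial)

/-- the majorant -/
noncomputable def bb_Mehler (r : ℝ) (x y : Euc N) (p : (Fin N → ℝ) × (Fin N → ℝ)) : ℝ :=
  gw N p.1 * Real.exp (r / 2 * ∑ a, p.1 a ^ 2) * (gw N p.2 * Real.exp (r / 2 * ∑ a, p.2 a ^ 2)) *
    (Real.exp (r / 2 * ‖x‖ ^ 2) * Real.exp (r / 2 * ‖y‖ ^ 2))

theorem pk_eq_Mehler (k : ℕ) (x y : Euc N) :
    pk k x y = ∫ p, gg_Mehler k x y p ∂(volume.prod volume) := by
  have h1 : ∀ i : Fin k → Fin N, herm i x * (starRingEnd ℂ) (herm i y) =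
      ∫ p : (Fin N → ℝ) × (Fin N → ℝ), ((gw N p.1 : ℂ) * ∏ j, cz x p.1 (i j)) *
        (starRingEnd ℂ) ((gw N p.2 : ℂ) * ∏ j, cz y p.2 (i j)) ∂(volume.prod volume) := by
    intro i
    rw [integral_prod_mul (fun ξ => (gw N ξ : ℂ) * ∏ j, cz x ξ (i j))
      (fun η => (starRingEnd ℂ) ((gw N η : ℂ) * ∏ j, cz y η (i j))), integral_conj]
    rfl
  unfold pk
  simp_rw [h1]
  rw [← integral_finsetSum, ← integral_const_mul]
  · refine integral_congr_ae (Eventually.of_forall fun p => ?_)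
    simp only [gg_Mehler, ss_Mehler]
    rw [Fintype.sum_pow, Finset.mul_sum, Finset.sum_div, Finset.mul_sum]
    refine Finset.sum_congr rfl fun i _ => ?_
    rw [map_mul, Complex.conj_ofReal, map_prod, Finset.prod_mul_distrib]
    ring
  · intro i _
    exact (herm_int i x).mul_prod
      (Complex.conjCLE.toContinuousLinearMap.integrable_comp (herm_int i y))

theorem cz_sq_Mehler (x : Euc N) (ξ : Fin N → ℝ) (a : Fin N) :
    ‖cz x ξ a‖ ^ 2 = x a ^ 2 + ξ a ^ 2 := by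
  rw [Complex.sq_norm, cz, mul_comm, Complex.normSq_add_mul_I]

theorem ss_le_Mehler (x y : Euc N) (p : (Fin N → ℝ) × (Fin N → ℝ)) :
    ‖ss_Mehler x y p‖ ≤ (∑ a, p.1 a ^ 2 + ∑ a, p.2 a ^ 2 + ‖x‖ ^ 2 + ‖y‖ ^ 2) / 2 := by
  rw [EuclideanSpace.real_norm_sq_eq, EuclideanSpace.real_norm_sq_eq, ← Finset.sum_add_distrib,
    ← Finset.sum_add_distrib, ← Finset.sum_add_distrib, Finset.sum_div]
  refine (norm_sum_le _ _).trans (Finset.sum_le_sum fun a _ => ?_)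
  rw [norm_mul, Complex.norm_conj]
  nlinarith [cz_sq_Mehler x p.1 a, cz_sq_Mehler y p.2 a,
    sq_nonneg (‖cz x p.1 a‖ - ‖cz y p.2 a‖)]

theorem exp_le_Mehler {r : ℝ} (h0 : 0 ≤ r) (x y : Euc N) (p : (Fin N → ℝ) × (Fin N → ℝ)) :
    gw N p.1 * gw N p.2 * Real.exp (r * ‖ss_Mehler x y p‖) ≤ bb_Mehler r x y p := by
  have e : bb_Mehler r x y p = gw N p.1 * gw N p.2 *
      Real.exp (r * ((∑ a, p.1 a ^ 2 + ∑ a, p.2 a ^ 2 + ‖x‖ ^ 2 + ‖y‖ ^ 2) / 2)) := by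
    unfold bb_Mehler
    rw [show r * ((∑ a, p.1 a ^ 2 + ∑ a, p.2 a ^ 2 + ‖x‖ ^ 2 + ‖y‖ ^ 2) / 2) =
      r / 2 * ∑ a, p.1 a ^ 2 + r / 2 * ∑ a, p.2 a ^ 2 + r / 2 * ‖x‖ ^ 2 + r / 2 * ‖y‖ ^ 2 by ring,
      Real.exp_add, Real.exp_add, Real.exp_add]
    ring
  rw [e]
  exact mul_le_mul_of_nonneg_left
    (Real.exp_le_exp.2 (mul_le_mul_of_nonneg_left (ss_le_Mehler x y p) h0))
    (mul_pos (gw_pos _) (gw_pos _)).le

theorem gg_le_Mehler {r : ℝ} (h0 : 0 ≤ r) (k : ℕ) (x y : Euc N)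
    (p : (Fin N → ℝ) × (Fin N → ℝ)) : r ^ k * ‖gg_Mehler k x y p‖ ≤ bb_Mehler r x y p := by
  refine le_trans ?_ (exp_le_Mehler h0 x y p)
  have h := Real.pow_div_factorial_le_exp (r * ‖ss_Mehler x y p‖) (by positivity) k
  have e : r ^ k * ‖gg_Mehler k x y p‖ =
      gw N p.1 * gw N p.2 * ((r * ‖ss_Mehler x y p‖) ^ k / k.factorial) := by
    unfold gg_Mehler
    rw [norm_mul, norm_mul, norm_div, norm_pow, Complex.norm_real, Complex.norm_real,
      Complex.norm_natCast, Real.norm_of_nonneg (gw_pos _).le, Real.norm_of_nonneg (gw_pos _).le]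
    ring
  rw [e]
  exact mul_le_mul_of_nonneg_left h (mul_pos (gw_pos _) (gw_pos _)).le

theorem bb_int_Mehler {r : ℝ} (h1 : r < 1) (x y : Euc N) :
    Integrable (bb_Mehler r x y) (volume.prod volume) :=
  ((gw_int (c := r / 2) (by linarith)).mul_prod (gw_int (c := r / 2) (by linarith))).mul_const _

theorem gw_cont_Mehler : Continuous (gw N) := by
  unfold gw
  fun_prop

theorem ss_cont_Mehler (x y : Euc N) : Continuous (ss_Mehler x y) := by
  unfold ss_Mehler cz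
  fun_prop

theorem gauss_Mehler {t : ℝ} (ht : 0 < 1 - 2 * t) (c : Fin N → ℂ) (d : ℂ) :
    ∫ η : Fin N → ℝ, (gw N η : ℂ) * Complex.exp (t * ∑ a, (η a : ℂ) ^ 2 + ∑ a, c a * η a + d) =
      (((1 - 2 * t) ^ (-(N : ℝ) / 2) : ℝ) : ℂ) *
        Complex.exp ((∑ a, c a ^ 2) / (2 * (1 - 2 * t)) + d) := by
  have hb : 0 < ((((1 - 2 * t) / 2 : ℝ) : ℂ)).re := by
    rw [Complex.ofReal_re]; linarith
  have h := GaussianFourier.integral_cexp_neg_mul_sum_add hb c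
  have e : ∀ η : Fin N → ℝ,
      (gw N η : ℂ) * Complex.exp (t * ∑ a, (η a : ℂ) ^ 2 + ∑ a, c a * η a + d) =
      ((((2 * Real.pi) ^ (-(N : ℝ) / 2) : ℝ) : ℂ) * Complex.exp d) *
        Complex.exp (-(((1 - 2 * t) / 2 : ℝ) : ℂ) * ∑ a, (η a : ℂ) ^ 2 + ∑ a, c a * η a) := by
    intro η
    unfold gw
    rw [Complex.ofReal_mul, Complex.ofReal_exp, mul_assoc, mul_assoc, ← Complex.exp_add,
      ← Complex.exp_add]
    congr 2
    push_cast
    ring
  have e2 : ((Real.pi : ℂ) / (((1 - 2 * t) / 2 : ℝ) : ℂ)) ^ ((Fintype.card (Fin N) : ℂ) / 2) =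
      (((2 * Real.pi / (1 - 2 * t)) ^ ((N : ℝ) / 2) : ℝ) : ℂ) := by
    rw [Complex.ofReal_cpow (by positivity), Fintype.card_fin, ← Complex.ofReal_div]
    congr 1
    · congr 1
      field_simp
    · push_cast
      rfl
  have e3 : (2 * Real.pi) ^ (-(N : ℝ) / 2) * (2 * Real.pi / (1 - 2 * t)) ^ ((N : ℝ) / 2) =
      (1 - 2 * t) ^ (-(N : ℝ) / 2) := by
    rw [Real.div_rpow (by positivity) ht.le, neg_div, Real.rpow_neg (by positivity),
      Real.rpow_neg ht.le]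
    have : (2 * Real.pi) ^ ((N : ℝ) / 2) ≠ 0 := by positivity
    field_simp
  simp_rw [e]
  rw [integral_const_mul, h, e2, ← e3, Complex.exp_add, Complex.ofReal_mul]
  have e4 : (4 : ℂ) * (((1 - 2 * t) / 2 : ℝ) : ℂ) = 2 * (1 - 2 * t) := by
    push_cast
    ring
  rw [e4]
  ring

theorem eval_Mehler {ρ : ℝ} (h0 : 0 ≤ ρ) (h1 : ρ < 1) (x y : Euc N) :
    ∫ p, (gw N p.1 : ℂ) * gw N p.2 * Complex.exp (ρ * ss_Mehler x y p) ∂(volume.prod volume) =
      (meh ρ x y : ℂ) := by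
  have hi : Integrable (fun p : (Fin N → ℝ) × (Fin N → ℝ) =>
      (gw N p.1 : ℂ) * gw N p.2 * Complex.exp (ρ * ss_Mehler x y p)) (volume.prod volume) := by
    refine (bb_int_Mehler h1 x y).mono' (Continuous.aestronglyMeasurable ?_)
      (Eventually.of_forall fun p => le_trans ?_ (exp_le_Mehler h0 x y p))
    · have := gw_cont_Mehler (N := N)
      have := ss_cont_Mehler x y
      fun_prop
    · rw [norm_mul, norm_mul, Complex.norm_real, Complex.norm_real,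
        Real.norm_of_nonneg (gw_pos _).le, Real.norm_of_nonneg (gw_pos _).le]
      refine mul_le_mul_of_nonneg_left ((Complex.norm_exp_le_exp_norm _).trans_eq ?_)
        (mul_pos (gw_pos _) (gw_pos _)).le
      rw [norm_mul, Complex.norm_real, Real.norm_of_nonneg h0]
  have hρ : 0 < 1 - 2 * (ρ ^ 2 / 2) := by nlinarith
  have h2 : ∀ ξ : Fin N → ℝ, ∫ η : Fin N → ℝ,
      (gw N ξ : ℂ) * gw N η * Complex.exp (ρ * ss_Mehler x y (ξ, η)) =
      (gw N ξ : ℂ) * Complex.exp (((ρ ^ 2 / 2 : ℝ) : ℂ) * ∑ a, (ξ a : ℂ) ^ 2 +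
        ∑ a, (Complex.I * (ρ * y a - ρ ^ 2 * x a)) * ξ a +
        ∑ a, ((ρ : ℂ) * (x a * y a) - ρ ^ 2 / 2 * (x a : ℂ) ^ 2)) := by
    intro ξ
    have h := gauss_Mehler (t := 0) (by norm_num) (fun a => -Complex.I * ρ * cz x ξ a)
      (∑ a, ρ * cz x ξ a * y a)
    have e : ∀ η : Fin N → ℝ, (gw N ξ : ℂ) * gw N η * Complex.exp (ρ * ss_Mehler x y (ξ, η)) =
        (gw N ξ : ℂ) * ((gw N η : ℂ) * Complex.exp (((0 : ℝ) : ℂ) * ∑ a, (η a : ℂ) ^ 2 +
          ∑ a, (-Complex.I * ρ * cz x ξ a) * η a + ∑ a, ρ * cz x ξ a * y a)) := by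
      intro η
      rw [mul_assoc]
      congr 3
      rw [Complex.ofReal_zero, zero_mul, zero_add, ss_Mehler, Finset.mul_sum,
        ← Finset.sum_add_distrib]
      refine Finset.sum_congr rfl fun a _ => ?_
      simp only [cz, map_add, map_mul, Complex.conj_ofReal, Complex.conj_I]
      ring
    simp_rw [e]
    rw [integral_const_mul, h]
    congr 1
    rw [mul_zero, sub_zero, Real.one_rpow, Complex.ofReal_one, one_mul]
    congr 1
    rw [Finset.sum_div, Finset.mul_sum, ← Finset.sum_add_distrib, ← Finset.sum_add_distrib,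
      ← Finset.sum_add_distrib]
    refine Finset.sum_congr rfl fun a _ => ?_
    simp only [cz]
    push_cast
    linear_combination ((ρ : ℂ) ^ 2 / 2 * ((x a + Complex.I * ξ a) ^ 2 - (ξ a : ℂ) ^ 2)) *
      Complex.I_mul_I
  rw [integral_prod _ hi]
  simp_rw [h2]
  rw [gauss_Mehler hρ, meh, Complex.ofReal_mul, Complex.ofReal_exp]
  have e5 : 1 - 2 * (ρ ^ 2 / 2) = 1 - ρ ^ 2 := by ring
  rw [e5]
  congr 2
  have hρ' : (1 : ℂ) - ρ ^ 2 ≠ 0 := by
    rw [e5] at hρ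
    exact_mod_cast hρ.ne'
  have e6 : ⟪x, y⟫ = ∑ a, x a * y a := by
    rw [PiLp.inner_apply]
    exact Finset.sum_congr rfl fun a _ => by simp [mul_comm]
  rw [e6, EuclideanSpace.real_norm_sq_eq, EuclideanSpace.real_norm_sq_eq, Finset.mul_sum,
    Finset.mul_sum, Finset.mul_sum, ← Finset.sum_sub_distrib, ← Finset.sum_sub_distrib,
    Finset.sum_div, Finset.sum_div, ← Finset.sum_add_distrib, Complex.ofReal_sum]
  refine Finset.sum_congr rfl fun a _ => ?_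
  have e7 : (1 : ℂ) - 2 * ((ρ ^ 2 / 2 : ℝ) : ℂ) = 1 - ρ ^ 2 := by
    push_cast
    ring
  rw [e7, mul_pow, Complex.I_sq]
  push_cast
  field_simp
  ring

theorem pk_bound (N : ℕ) {r : ℝ} (h0 : 0 < r) (h1 : r < 1) : ∃ K : ℝ, ∀ (k : ℕ) (x y : Euc N),
    r ^ k * ‖pk k x y‖ ≤ K * (Real.exp (r / 2 * ‖x‖ ^ 2) * Real.exp (r / 2 * ‖y‖ ^ 2)) := by
  refine ⟨∫ p : (Fin N → ℝ) × (Fin N → ℝ), gw N p.1 * Real.exp (r / 2 * ∑ a, p.1 a ^ 2) *
    (gw N p.2 * Real.exp (r / 2 * ∑ a, p.2 a ^ 2)) ∂(volume.prod volume), fun k x y => ?_⟩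
  rw [← integral_mul_const, pk_eq_Mehler, ← Real.norm_of_nonneg (pow_pos h0 k).le, ← norm_smul,
    ← integral_smul]
  refine norm_integral_le_of_norm_le (bb_int_Mehler h1 x y) (Eventually.of_forall fun p => ?_)
  rw [norm_smul, Real.norm_of_nonneg (pow_pos h0 k).le]
  exact gg_le_Mehler h0.le k x y p

theorem mehler {ρ : ℝ} (h0 : 0 ≤ ρ) (h1 : ρ < 1) (x y : Euc N) :
    HasSum (fun k => (ρ : ℂ) ^ k * pk k x y) (meh ρ x y : ℂ) := by
  have hr0 : 0 < (1 + ρ) / 2 := by linarith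
  have hq0 : 0 ≤ ρ / ((1 + ρ) / 2) := by positivity
  have hq1 : ρ / ((1 + ρ) / 2) < 1 := (div_lt_one hr0).2 (by linarith)
  rw [← eval_Mehler h0 h1]
  simp_rw [pk_eq_Mehler, ← integral_const_mul]
  refine hasSum_integral_of_dominated_convergence
    (fun k p => (ρ / ((1 + ρ) / 2)) ^ k * bb_Mehler ((1 + ρ) / 2) x y p)
    (fun k => Continuous.aestronglyMeasurable ?_) (fun k => Eventually.of_forall fun p => ?_)
    (Eventually.of_forall fun p => (summable_geometric_of_lt_one hq0 hq1).mul_right _) ?_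
    (Eventually.of_forall fun p => ?_)
  · have := gw_cont_Mehler (N := N)
    have := ss_cont_Mehler x y
    unfold gg_Mehler
    fun_prop
  · refine le_trans (le_of_eq ?_)
      (mul_le_mul_of_nonneg_left (gg_le_Mehler hr0.le k x y p) (pow_nonneg hq0 k))
    rw [norm_mul, norm_pow, Complex.norm_real, Real.norm_of_nonneg h0, ← mul_assoc, ← mul_pow,
      div_mul_cancel₀ _ hr0.ne']
  · simp_rw [tsum_mul_right]
    exact (bb_int_Mehler (by linarith) x y).const_mul _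
  · have h := (NormedSpace.expSeries_div_hasSum_exp ((ρ : ℂ) * ss_Mehler x y p)).mul_left
      ((gw N p.1 : ℂ) * gw N p.2)
    rw [← Complex.exp_eq_exp_ℂ] at h
    have e : (fun k => (ρ : ℂ) ^ k * gg_Mehler k x y p) = fun k =>
        (gw N p.1 : ℂ) * gw N p.2 * (((ρ : ℂ) * ss_Mehler x y p) ^ k / k.factorial) := by
      funext k
      unfold gg_Mehler
      ring
    rw [e]
    exact h

end Vale.Agent.P224
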