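import Vale.Agent.P224.Stat

/-!
# Monotonicity of Gaussian densities  (TASK)

`mono_W`: `hasDerivAt_gauss` with `D = ‖X - z‖²`, `w = (⟪a,X⟫ + c)²` (`SG.int1` up to the constant),
`key_ineq`, `C.nonneg`, `monotoneOn_of_deriv_nonneg` on `Ioi 0`.
`low_W`: `C.dens` with `W = (⟪a,·⟫ + c)²`, `ofReal_integral_eq_lintegral_ofReal`, and `mono_W`
between a small `s ≤ t` and `t`.  `gk_scale`: `gk n (l • z) (l² t) (l • x) = (l ^ n)⁻¹ gk n z t x`.
`scale_F`, `scale_P`: `C.scale` applied to `h x P = gk n z t (l⁻¹ • x) …` or with `l⁻¹`.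
`F_le`: `F z t ≤ F z (l² t) = F (l⁻¹ • z) t → F 0 t = θ` as `l → ∞` (dominated convergence,
`gk n z t x ≤ K gk n 0 (2t) x` for `‖z‖ ≤ 1`; or `continuousAt_of_dominated`).
`F_anti`: `F (ρ • y) (1 - ρ²) = F y ((1 - ρ²) / ρ²)` and `mono_W` with `a = 0`, `c = 1`.
`S_pos`: if `S a = 0` then `⟪a, X⟫ = 0` a.e. (`integral_eq_zero_iff_of_nonneg`), contradicting
`low_W` with `c = 0`.
-/

namespace Vale.Agent.P224

open scoped RealInnerProductSpace ENNReal Topology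
open MeasureTheory Set Filter

variable {n : ℕ} {Ω : Type*} [MeasurableSpace Ω] (C : Cone n Ω)

theorem Cone.sg_W_Mono (a : Euc (n + 1)) (c : ℝ) : C.SG fun ω => (⟪a, C.X ω⟫ + c) ^ 2 :=
  ((Cone.SG.inner C a).add (Cone.SG.const C c)).pow 2

theorem Cone.mono_W (a z : Euc (n + 1)) (c : ℝ) :
    MonotoneOn (fun t => ∫ ω, gk n z t (C.X ω) * (⟪a, C.X ω⟫ + c) ^ 2 ∂C.μ) (Ioi 0) := by
  have hw := C.sg_W_Mono a c
  have hd : ∀ t : ℝ, 0 < t →
      HasDerivAt (fun t => ∫ ω, gk n z t (C.X ω) * (⟪a, C.X ω⟫ + c) ^ 2 ∂C.μ)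
        (∫ ω, gk n z t (C.X ω) * (⟪a, C.X ω⟫ + c) ^ 2 *
          (‖C.X ω - z‖ ^ 2 / (2 * t ^ 2) - n / (2 * t)) ∂C.μ) t := by
    intro t ht
    refine (hasDerivAt_gauss n (D := fun ω => ‖C.X ω - z‖ ^ 2)
      (w := fun ω => (⟪a, C.X ω⟫ + c) ^ 2) (Cone.SG.normSq C z).1 (fun _ => sq_nonneg _) hw.1
      (fun s hs => ?_) ht).2
    have hk : (2 * Real.pi * s) ^ (-(n : ℝ) / 2) ≠ 0 :=
      (Real.rpow_pos_of_pos (by positivity) _).ne'
    refine ((hw.int1 z hs).const_mul ((2 * Real.pi * s) ^ (-(n : ℝ) / 2))⁻¹).congr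
      (Eventually.of_forall fun ω => ?_)
    simp only [gk]
    rw [mul_assoc _ (Real.exp _), inv_mul_cancel_left₀ hk]
  refine monotoneOn_of_deriv_nonneg (convex_Ioi 0)
    (fun t ht => (hd t ht).continuousAt.continuousWithinAt) ?_ ?_
  · rw [interior_Ioi]
    exact fun t ht => (hd t ht).differentiableAt.differentiableWithinAt
  · rw [interior_Ioi]
    intro t ht
    rw [(hd t ht).deriv]
    exact le_trans (integral_nonneg fun ω => mul_nonneg (gk_pos n z ht _).le (C.nonneg ω a))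
      (C.key_ineq a z c ht)

theorem Cone.low_W (a : Euc (n + 1)) {z : Euc (n + 1)} (hz : z ∈ C.Z) (c : ℝ) {t : ℝ}
    (ht : 0 < t) : (⟪a, z⟫ + c) ^ 2 ≤ ∫ ω, gk n z t (C.X ω) * (⟪a, C.X ω⟫ + c) ^ 2 ∂C.μ := by
  refine le_of_forall_lt_imp_le_of_dense fun b hb => ?_
  have h1 := C.dens z hz (fun x => (⟪a, x⟫ + c) ^ 2) (by fun_prop) (fun _ => sq_nonneg _) b hb
  obtain ⟨s, h2, h3⟩ := (h1.and (Ioc_mem_nhdsGT ht)).exists
  have hn : ∀ ω, 0 ≤ gk n z s (C.X ω) * (⟪a, C.X ω⟫ + c) ^ 2 := fun ω =>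
    mul_nonneg (gk_pos n z h3.1 _).le (sq_nonneg _)
  rw [← ofReal_integral_eq_lintegral_ofReal ((C.sg_W_Mono a c).int1 z h3.1)
    (Eventually.of_forall hn), ENNReal.ofReal_le_ofReal_iff (integral_nonneg hn)] at h2
  exact h2.trans (C.mono_W a z c h3.1 ht h3.2)

theorem gk_scale (n : ℕ) {N : ℕ} (z x : Euc N) {l t : ℝ} (hl : 0 < l) (ht : 0 < t) :
    gk n (l • z) (l ^ 2 * t) (l • x) = (l ^ n)⁻¹ * gk n z t x := by
  have e1 : (2 * Real.pi * (l ^ 2 * t)) ^ (-(n : ℝ) / 2) =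
      (l ^ n)⁻¹ * (2 * Real.pi * t) ^ (-(n : ℝ) / 2) := by
    have e : 2 * Real.pi * (l ^ 2 * t) = l ^ 2 * (2 * Real.pi * t) := by ring
    rw [e, Real.mul_rpow (by positivity) (by positivity), ← Real.rpow_natCast l 2,
      ← Real.rpow_mul hl.le, ← Real.rpow_natCast l n, ← Real.rpow_neg hl.le]
    congr 2
    push_cast
    ring
  have e2 : -‖l • x - l • z‖ ^ 2 / (2 * (l ^ 2 * t)) = -‖x - z‖ ^ 2 / (2 * t) := by
    rw [← smul_sub, norm_smul, Real.norm_eq_abs, abs_of_pos hl]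
    field_simp
  rw [gk, gk, e1, e2, mul_assoc]

theorem Cone.scale_Mono (z : Euc (n + 1)) (φ : (Euc (n + 1) →L[ℝ] Euc (n + 1)) → ℝ) {l t : ℝ}
    (hl : 0 < l) (ht : 0 < t) :
    ∫ ω, gk n (l • z) (l ^ 2 * t) (C.X ω) * φ (C.P ω) ∂C.μ =
      ∫ ω, gk n z t (C.X ω) * φ (C.P ω) ∂C.μ := by
  have h := C.scale l hl fun x P => gk n (l • z) (l ^ 2 * t) x * φ P
  simp only [gk_scale n z _ hl ht, mul_assoc] at h
  rw [integral_const_mul] at h
  exact (mul_left_cancel₀ (inv_ne_zero (pow_ne_zero n hl.ne')) h).symm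

theorem Cone.scale_F (z : Euc (n + 1)) {l t : ℝ} (hl : 0 < l) (ht : 0 < t) :
    ∫ ω, gk n (l • z) (l ^ 2 * t) (C.X ω) ∂C.μ = ∫ ω, gk n z t (C.X ω) ∂C.μ := by
  simpa using C.scale_Mono z (fun _ => 1) hl ht

theorem Cone.scale_P (a b : Euc (n + 1)) {t : ℝ} (ht : 0 < t) :
    ∫ ω, gk n 0 t (C.X ω) * ⟪C.P ω a, b⟫ ∂C.μ = ∫ ω, gk n 0 1 (C.X ω) * ⟪C.P ω a, b⟫ ∂C.μ := by
  have h := C.scale_Mono 0 (fun P => ⟪P a, b⟫) (Real.sqrt_pos.2 ht) one_pos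
  rwa [smul_zero, Real.sq_sqrt ht.le, mul_one] at h

theorem Cone.one_le_F {z : Euc (n + 1)} (hz : z ∈ C.Z) {t : ℝ} (ht : 0 < t) :
    1 ≤ ∫ ω, gk n z t (C.X ω) ∂C.μ := by
  simpa using C.low_W 0 hz 1 ht

theorem Cone.mono_F_Mono (z : Euc (n + 1)) {s t : ℝ} (hs : 0 < s) (h : s ≤ t) :
    ∫ ω, gk n z s (C.X ω) ∂C.μ ≤ ∫ ω, gk n z t (C.X ω) ∂C.μ := by
  simpa using C.mono_W 0 z 1 hs (hs.trans_le h) h

theorem Cone.scale_F_Mono (z : Euc (n + 1)) {l t : ℝ} (hl : 0 < l) (ht : 0 < t) :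
    ∫ ω, gk n (l • z) t (C.X ω) ∂C.μ = ∫ ω, gk n z (t / l ^ 2) (C.X ω) ∂C.μ := by
  have h := C.scale_F z hl (t := t / l ^ 2) (by positivity)
  rwa [mul_div_cancel₀ _ (pow_ne_zero 2 hl.ne')] at h

theorem Cone.F_le (z : Euc (n + 1)) {t : ℝ} (ht : 0 < t) :
    ∫ ω, gk n z t (C.X ω) ∂C.μ ≤ C.θ := by
  have h0 : ∫ ω, gk n 0 t (C.X ω) ∂C.μ = C.θ := by
    have h := C.scale_F 0 (Real.sqrt_pos.2 ht) one_pos
    rwa [smul_zero, Real.sq_sqrt ht.le, mul_one] at h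
  have hk : 0 < (2 * Real.pi * t) ^ (-(n : ℝ) / 2) := Real.rpow_pos_of_pos (by positivity) _
  have hlim : Tendsto (fun s : ℝ => ∫ ω, gk n (s • z) t (C.X ω) ∂C.μ) (𝓝[>] 0)
      (𝓝 (∫ ω, gk n 0 t (C.X ω) ∂C.μ)) := by
    refine tendsto_integral_filter_of_dominated_convergence
      (fun ω => (2 * Real.pi * t) ^ (-(n : ℝ) / 2) * Real.exp (‖z‖ ^ 2 / (2 * t)) *
        Real.exp (-(1 / (4 * t)) * ‖C.X ω‖ ^ 2)) (Eventually.of_forall fun s => ?_) ?_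
      ((C.integ _ (by positivity)).const_mul _) (Eventually.of_forall fun ω => ?_)
    · have hc : Continuous fun x => gk n (s • z) t x := by
        unfold gk
        fun_prop
      exact (hc.measurable.comp C.mX).aestronglyMeasurable
    · filter_upwards [Ioc_mem_nhdsGT one_pos] with s hs
      refine Eventually.of_forall fun ω => ?_
      rw [Real.norm_of_nonneg (gk_pos n _ ht _).le, gk, mul_assoc _ (Real.exp _),
        ← Real.exp_add]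
      refine mul_le_mul_of_nonneg_left (Real.exp_le_exp.2 ?_) hk.le
      have h1 : ‖C.X ω‖ ≤ ‖C.X ω - s • z‖ + ‖z‖ := by
        have h2 : ‖s • z‖ ≤ ‖z‖ := by
          rw [norm_smul, Real.norm_eq_abs, abs_of_pos hs.1]
          exact mul_le_of_le_one_left (norm_nonneg _) hs.2
        have h3 := norm_add_le (C.X ω - s • z) (s • z)
        rw [sub_add_cancel] at h3
        linarith
      have h4 : ‖C.X ω‖ ^ 2 ≤ 2 * ‖C.X ω - s • z‖ ^ 2 + 2 * ‖z‖ ^ 2 := by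
        have h5 := pow_le_pow_left₀ (norm_nonneg _) h1 2
        nlinarith [sq_nonneg (‖C.X ω - s • z‖ - ‖z‖)]
      have e : ‖z‖ ^ 2 / (2 * t) + -(1 / (4 * t)) * ‖C.X ω‖ ^ 2 =
          (‖z‖ ^ 2 - ‖C.X ω‖ ^ 2 / 2) / (2 * t) := by
        field_simp
        ring
      rw [e]
      exact div_le_div_of_nonneg_right (by linarith) (by positivity)
    · have hc : Continuous fun s : ℝ => gk n (s • z) t (C.X ω) := by
        unfold gk
        fun_prop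
      have h1 := hc.tendsto 0
      rw [zero_smul] at h1
      exact h1.mono_left nhdsWithin_le_nhds
  rw [← h0]
  refine ge_of_tendsto hlim ?_
  filter_upwards [Ioc_mem_nhdsGT one_pos] with s hs
  rw [C.scale_F_Mono z hs.1 ht]
  refine C.mono_F_Mono z ht ?_
  rw [le_div_iff₀ (pow_pos hs.1 2)]
  exact mul_le_of_le_one_right ht.le (pow_le_one₀ hs.1.le hs.2)

theorem Cone.F_anti (y : Euc (n + 1)) {ρ r : ℝ} (h0 : 0 < ρ) (h : ρ ≤ r) (h1 : r < 1) :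
    ∫ ω, gk n (r • y) (1 - r ^ 2) (C.X ω) ∂C.μ ≤
      ∫ ω, gk n (ρ • y) (1 - ρ ^ 2) (C.X ω) ∂C.μ := by
  have hr : 0 < r := h0.trans_le h
  have h2 : 0 < 1 - r ^ 2 := by nlinarith
  have h3 : ρ ^ 2 ≤ r ^ 2 := pow_le_pow_left₀ h0.le h 2
  rw [C.scale_F_Mono y hr h2, C.scale_F_Mono y h0 (by linarith)]
  refine C.mono_F_Mono y (by positivity) ?_
  exact div_le_div₀ (by linarith) (by linarith) (pow_pos h0 2) h3

theorem Cone.S_pos {a z : Euc (n + 1)} (hz : z ∈ C.Z) (ha : ⟪a, z⟫ ≠ 0) : 0 < C.S a := by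
  have hn : ∀ ω, 0 ≤ gk n 0 1 (C.X ω) * ⟪a, C.X ω⟫ ^ 2 := fun ω =>
    mul_nonneg (gk_pos n 0 one_pos _).le (sq_nonneg _)
  refine lt_of_le_of_ne (integral_nonneg hn) fun h => ?_
  have h1 := (integral_eq_zero_iff_of_nonneg hn
    (((Cone.SG.inner C a).pow 2).int1 0 one_pos)).1 h.symm
  have h2 := C.low_W a hz 0 one_pos
  have h3 : ∫ ω, gk n z 1 (C.X ω) * (⟪a, C.X ω⟫ + 0) ^ 2 ∂C.μ = 0 := by
    refine integral_eq_zero_of_ae ?_
    filter_upwards [h1] with ω hω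
    have h4 := (mul_eq_zero.1 hω).resolve_left (gk_pos n 0 one_pos _).ne'
    rw [add_zero, h4, mul_zero]
    rfl
  rw [h3, add_zero] at h2
  exact ha (pow_eq_zero_iff two_ne_zero |>.1 (le_antisymm h2 (sq_nonneg _)))

end Vale.Agent.P224
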