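import Vale.Agent.P224.Defs

/-!
# The cone over a link: measure, scaling, stationarity  (TASK)

`rad_int`: `integral_withDensity_eq_integral_smul` / `integral_withDensity_eq_integral_toReal_smul`.
`c_integ`: `‖r • x‖ = |r|`; `Integrable.mul_prod`-type argument or `Integrable.comp_fst`,
`integrable_withDensity_iff`, `integrableOn_rpow_mul_exp_neg_mul_sq`.
`c_scale`: the measurable equivalence `(r, p) ↦ (l r, p)` maps `cμ` to `(l ^ (m+1))⁻¹ • cμ`
(`Measure.map_prod_map`, one-dimensional statement via `lintegral` and `Real.map_volume_mul_left`),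
`integral_map_equiv`, `integral_smul_measure`.
`c_theta`: `integral_prod` or `integral_fun_fst`, `integral_rpow_mul_exp_neg_mul_rpow`.
`c_stat`: `cP v = P v + ⟪x,v⟫ x`.  For `r > 0`, `L.stat` applied to `y ↦ g (r • y)` gives
`r ∫ Dg(r x)(P v) = m ∫ g(r x) ⟪x,v⟫`.  For fixed `p`, `(r ^ m g(r x))’ = m r^(m-1) g + r^m Dg(r x) x`
integrates to `0` on `Ioi 0` when `m ≥ 1` (`integral_Ioi_of_hasDerivAt_of_tendsto`).  Fubini both
ways (`integral_prod`, `integral_prod_symm`, or `integral_integral_swap` on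
`(volume.restrict (Ioi 0)).prod σ`).
-/

namespace Vale.Agent.P224

open scoped RealInnerProductSpace ENNReal Topology
open MeasureTheory Set Filter

variable {m : ℕ} {M : Type*} [MeasurableSpace M] (L : Link m M)

instance Link.instFin : IsFiniteMeasure L.σ := L.fin

/-- The radial measure `r ^ m dr` on `(0, ∞)`. -/
noncomputable def rad (m : ℕ) : Measure ℝ :=
  (volume.restrict (Ioi (0 : ℝ))).withDensity fun r => ENNReal.ofReal (r ^ m)

instance instSFiniteRad (m : ℕ) : SFinite (rad m) := by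
  unfold rad; infer_instance

/-- The cone measure. -/
noncomputable def Link.cμ : Measure (ℝ × M) := (rad m).prod L.σ

/-- The position on the cone. -/
noncomputable def Link.cX (q : ℝ × M) : Euc (m + 2) := q.1 • L.x q.2

/-- The tangent projection of the cone. -/
noncomputable def Link.cP (q : ℝ × M) : Euc (m + 2) →L[ℝ] Euc (m + 2) :=
  L.P q.2 + (innerSL ℝ (L.x q.2)).smulRight (L.x q.2)

theorem rad_int (m : ℕ) (f : ℝ → ℝ) : ∫ r, f r ∂rad m = ∫ r in Ioi (0 : ℝ), r ^ m * f r := by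
  unfold rad
  rw [integral_withDensity_eq_integral_toReal_smul (by fun_prop)
    (Eventually.of_forall fun _ => ENNReal.ofReal_lt_top)]
  refine setIntegral_congr_fun measurableSet_Ioi fun r hr => ?_
  have : (0 : ℝ) < r := hr
  simp only [smul_eq_mul]
  rw [ENNReal.toReal_ofReal (by positivity)]

theorem integ_Rad (m : ℕ) (f : ℝ → ℝ) :
    Integrable f (rad m) ↔ IntegrableOn (fun r => r ^ m * f r) (Ioi (0 : ℝ)) := by
  unfold rad
  rw [integrable_withDensity_iff_integrable_smul' (by fun_prop)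
    (Eventually.of_forall fun _ => ENNReal.ofReal_lt_top)]
  refine integrableOn_congr_fun (fun r hr => ?_) measurableSet_Ioi
  have : (0 : ℝ) < r := hr
  simp only [smul_eq_mul]
  rw [ENNReal.toReal_ofReal (by positivity)]

theorem gauss_Rad (m : ℕ) {c : ℝ} (hc : 0 < c) :
    Integrable (fun r : ℝ => Real.exp (-c * r ^ 2)) (rad m) := by
  rw [integ_Rad]
  have := integrableOn_rpow_mul_exp_neg_mul_sq hc (s := m)
    (lt_of_lt_of_le (by norm_num) (Nat.cast_nonneg m))
  simpa only [Real.rpow_natCast] using this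

theorem Link.cX_norm_Rad (q : ℝ × M) : ‖L.cX q‖ ^ 2 = q.1 ^ 2 := by
  unfold Link.cX
  rw [norm_smul, L.unit, mul_one, Real.norm_eq_abs, sq_abs]

theorem Link.c_integ {c : ℝ} (hc : 0 < c) :
    Integrable (fun q => Real.exp (-c * ‖L.cX q‖ ^ 2)) L.cμ := by
  simp only [L.cX_norm_Rad]
  exact (gauss_Rad m hc).comp_fst L.σ

theorem map_Rad (m : ℕ) {l : ℝ} (hl : 0 < l) :
    Measure.map (fun r => l * r) (rad m) = ENNReal.ofReal (l ^ (m + 1))⁻¹ • rad m := by
  refine Measure.ext_of_lintegral _ fun f hf => ?_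
  have hd : Measurable fun r : ℝ => ENNReal.ofReal (r ^ m) := by fun_prop
  rw [lintegral_map hf (measurable_const_mul l), lintegral_smul_measure]
  unfold rad
  rw [lintegral_withDensity_eq_lintegral_mul _ hd (g := fun r => f (l * r))
      (hf.comp (measurable_const_mul l)),
    lintegral_withDensity_eq_lintegral_mul _ hd hf, ← lintegral_indicator measurableSet_Ioi,
    ← lintegral_indicator measurableSet_Ioi]
  have hG : Measurable ((Ioi (0 : ℝ)).indicator ((fun r : ℝ => ENNReal.ofReal (r ^ m)) * f)) :=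
    (hd.mul hf).indicator measurableSet_Ioi
  have h1 := lintegral_map (μ := volume) hG (measurable_const_mul l)
  rw [Real.map_volume_mul_left hl.ne', lintegral_smul_measure] at h1
  have h2 : (l ^ (m + 1))⁻¹ = (l ^ m)⁻¹ * |l⁻¹| := by
    rw [abs_of_pos (inv_pos.mpr hl), pow_succ, mul_inv]
  rw [h2, ENNReal.ofReal_mul (by positivity), smul_eq_mul, mul_assoc]
  rw [smul_eq_mul] at h1
  rw [h1, ← lintegral_const_mul' _ _ ENNReal.ofReal_ne_top]
  refine lintegral_congr fun r => ?_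
  by_cases hr : 0 < r
  · rw [indicator_of_mem (show r ∈ Ioi (0 : ℝ) from hr),
      indicator_of_mem (show l * r ∈ Ioi (0 : ℝ) from mul_pos hl hr)]
    simp only [Pi.mul_apply]
    rw [← mul_assoc, ← ENNReal.ofReal_mul (by positivity), mul_pow,
      inv_mul_cancel_left₀ (by positivity)]
  · rw [indicator_of_notMem (show r ∉ Ioi (0 : ℝ) from hr),
      indicator_of_notMem (show l * r ∉ Ioi (0 : ℝ) from
        fun c => hr ((mul_pos_iff_of_pos_left hl).mp c)), mul_zero]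

theorem Link.c_scale {l : ℝ} (hl : 0 < l)
    (h : Euc (m + 2) → (Euc (m + 2) →L[ℝ] Euc (m + 2)) → ℝ) :
    ∫ q, h (l • L.cX q) (L.cP q) ∂L.cμ = (l ^ (m + 1))⁻¹ * ∫ q, h (L.cX q) (L.cP q) ∂L.cμ := by
  let e : (ℝ × M) ≃ᵐ (ℝ × M) :=
    MeasurableEquiv.prodCongr (MeasurableEquiv.mulLeft₀ l hl.ne') (MeasurableEquiv.refl M)
  have h1 : Measure.map e L.cμ = ENNReal.ofReal (l ^ (m + 1))⁻¹ • L.cμ := by
    have h2 := Measure.map_prod_map (rad m) L.σ (measurable_const_mul l) measurable_id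
    rw [map_Rad m hl, Measure.map_id, Measure.prod_smul_left] at h2
    exact h2.symm
  have h3 := integral_map_equiv (μ := L.cμ) e fun q => h (L.cX q) (L.cP q)
  rw [h1, integral_smul_measure, ENNReal.toReal_ofReal (by positivity), smul_eq_mul] at h3
  rw [h3]
  refine integral_congr_ae (Eventually.of_forall fun q => ?_)
  show h (l • q.1 • L.x q.2) (L.cP q) = h ((l * q.1) • L.x q.2) (L.cP q)
  rw [mul_smul]

theorem Link.c_theta : ∫ q, gk (m + 1) 0 1 (L.cX q) ∂L.cμ =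
    (L.σ univ).toReal * (Real.Gamma ((m + 1) / 2) / (2 * Real.pi ^ (((m : ℝ) + 1) / 2))) := by
  have h1 : ∀ q, gk (m + 1) 0 1 (L.cX q) = (fun r : ℝ =>
      (2 * Real.pi) ^ (-((m : ℝ) + 1) / 2) * Real.exp (-(1 / 2) * r ^ 2)) q.1 := by
    intro q
    unfold gk
    rw [sub_zero, L.cX_norm_Rad, mul_one, mul_one]
    push_cast
    congr 2
    ring
  simp only [h1]
  unfold Link.cμ
  rw [integral_fun_fst (fun r : ℝ =>
      (2 * Real.pi) ^ (-((m : ℝ) + 1) / 2) * Real.exp (-(1 / 2) * r ^ 2)), integral_const_mul,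
    rad_int, smul_eq_mul]
  have h2 := integral_rpow_mul_exp_neg_mul_rpow (p := 2) (q := m) (b := 1 / 2) (by norm_num)
    (lt_of_lt_of_le (by norm_num) (Nat.cast_nonneg m)) (by norm_num)
  simp only [Real.rpow_natCast, Real.rpow_two] at h2
  rw [h2]
  refine congrArg (fun t => (L.σ univ).toReal * t) ?_
  have hp := Real.pi_pos
  rw [← mul_assoc, ← mul_assoc, ← Real.mul_rpow (by positivity) (by positivity)]
  have e : 2 * Real.pi * (1 / 2) = Real.pi := by ring
  rw [e, neg_div, Real.rpow_neg hp.le]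
  field_simp

theorem Link.P_norm (p : M) (v : Euc (m + 2)) : ‖L.P p v‖ ≤ ‖v‖ := by
  have h1 : ‖L.P p v‖ ^ 2 ≤ ‖v‖ * ‖L.P p v‖ := by
    rw [← real_inner_self_eq_norm_sq, L.symm, L.idem]
    exact real_inner_le_norm _ _
  by_contra c
  have c1 := not_le.mp c
  nlinarith [norm_nonneg v]

theorem Link.dom_Rad (k : ℕ) {c : ℝ} (hc : 0 < c) {f : ℝ × M → ℝ} (hf : Measurable f) (K : ℝ)
    (h : ∀ q, |f q| ≤ K * Real.exp (-c * q.1 ^ 2)) : Integrable f ((rad k).prod L.σ) :=
  (((gauss_Rad k hc).comp_fst L.σ).const_mul K).mono' hf.aestronglyMeasurable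
    (Eventually.of_forall h)

theorem dom_Rad (k : ℕ) {c : ℝ} (hc : 0 < c) {f : ℝ → ℝ} (hf : Continuous f) (K : ℝ)
    (h : ∀ r, |f r| ≤ K * Real.exp (-c * r ^ 2)) :
    IntegrableOn (fun r => r ^ k * f r) (Ioi (0 : ℝ)) :=
  (integ_Rad k f).mp (((gauss_Rad k hc).const_mul K).mono' hf.aestronglyMeasurable
    (Eventually.of_forall h))

theorem ray_Rad {N : ℕ} (k : ℕ) {g : Euc N → ℝ} {C c : ℝ} (hg : ContDiff ℝ 1 g) (hc : 0 < c)
    (h0 : ∀ x, |g x| ≤ C * Real.exp (-c * ‖x‖ ^ 2))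
    (h1 : ∀ x, ‖fderiv ℝ g x‖ ≤ C * Real.exp (-c * ‖x‖ ^ 2)) {x : Euc N} (hx : ‖x‖ = 1) :
    ∫ r, fderiv ℝ g (r • x) x ∂rad (k + 1) = -(k + 1 : ℕ) * ∫ r, g (r • x) ∂rad k := by
  have n : ∀ r : ℝ, ‖r • x‖ ^ 2 = r ^ 2 := fun r => by
    rw [norm_smul, hx, mul_one, Real.norm_eq_abs, sq_abs]
  have cs : Continuous fun r : ℝ => r • x := by fun_prop
  have iG : ∀ j : ℕ, IntegrableOn (fun r : ℝ => r ^ j * g (r • x)) (Ioi 0) := fun j =>
    dom_Rad j hc (hg.continuous.comp cs) C fun r => by rw [← n]; exact h0 _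
  have iD : IntegrableOn (fun r : ℝ => r ^ (k + 1) * fderiv ℝ g (r • x) x) (Ioi 0) :=
    dom_Rad _ hc ((hg.continuous_fderiv_apply one_ne_zero).comp (cs.prodMk continuous_const)) C
      fun r => by
        have a1 := (fderiv ℝ g (r • x)).le_opNorm x
        rw [hx, mul_one, Real.norm_eq_abs] at a1
        rw [← n]
        exact a1.trans (h1 _)
  have hd : ∀ r : ℝ, HasDerivAt (fun r : ℝ => r ^ (k + 1) * g (r • x))
      ((k + 1 : ℕ) * (r ^ k * g (r • x)) + r ^ (k + 1) * fderiv ℝ g (r • x) x) r := by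
    intro r
    have a1 := ((hg.differentiable one_ne_zero) (r • x)).hasFDerivAt.comp_hasDerivAt r
      ((hasDerivAt_id r).smul_const x)
    rw [one_smul] at a1
    have a2 := (hasDerivAt_pow (k + 1) r).mul a1
    rw [Nat.add_sub_cancel, mul_assoc] at a2
    exact a2
  have i1 := ((iG k).const_mul ((k + 1 : ℕ) : ℝ)).add iD
  have a3 := integral_Ioi_of_hasDerivAt_of_tendsto' (fun r _ => hd r) i1
    (tendsto_zero_of_hasDerivAt_of_integrableOn_Ioi (fun r _ => hd r) i1 (iG (k + 1)))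
  rw [integral_add ((iG k).const_mul _) iD, integral_const_mul, zero_pow (Nat.succ_ne_zero k),
    zero_mul, sub_zero] at a3
  rw [rad_int, rad_int]
  linarith

theorem Link.c_stat (hm : 1 ≤ m) (g : Euc (m + 2) → ℝ) (C c : ℝ) (hg : ContDiff ℝ 1 g) (hc : 0 < c)
    (h0 : ∀ x, |g x| ≤ C * Real.exp (-c * ‖x‖ ^ 2))
    (h1 : ∀ x, ‖fderiv ℝ g x‖ ≤ C * Real.exp (-c * ‖x‖ ^ 2)) (v : Euc (m + 2)) :
    ∫ q, fderiv ℝ g (L.cX q) (L.cP q v) ∂L.cμ = 0 := by
  obtain ⟨k, rfl⟩ : ∃ k, m = k + 1 := ⟨m - 1, by omega⟩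
  have hC : 0 ≤ C := by
    have := (abs_nonneg _).trans (h0 0)
    exact nonneg_of_mul_nonneg_left this (Real.exp_pos _)
  have mX : Measurable L.cX := measurable_fst.smul (L.mx.comp measurable_snd)
  have mD := (hg.continuous_fderiv_apply one_ne_zero).measurable
  have mI : Measurable fun q : ℝ × M => ⟪L.x q.2, v⟫ :=
    (L.mx.comp measurable_snd).inner measurable_const
  have bI : ∀ p, |⟪L.x p, v⟫| ≤ ‖v‖ := fun p => by
    have := abs_real_inner_le_norm (L.x p) v
    rwa [L.unit, one_mul] at this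
  have bD : ∀ (q : ℝ × M) (w : Euc (k + 1 + 2)), ‖w‖ ≤ ‖v‖ →
      |fderiv ℝ g (L.cX q) w| ≤ C * ‖v‖ * Real.exp (-c * q.1 ^ 2) := by
    intro q w hw
    have a1 := (fderiv ℝ g (L.cX q)).le_opNorm w
    have a2 := h1 (L.cX q)
    rw [L.cX_norm_Rad] at a2
    have a3 := mul_le_mul a2 hw (norm_nonneg _) (by positivity)
    rw [Real.norm_eq_abs] at a1
    linarith
  have iA : Integrable (fun q => fderiv ℝ g (L.cX q) (L.P q.2 v)) ((rad (k + 1)).prod L.σ) :=
    L.dom_Rad _ hc (mD.comp (mX.prodMk ((L.mP v).comp measurable_snd))) (C * ‖v‖)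
      fun q => bD q _ (L.P_norm _ _)
  have iB : Integrable (fun q => fderiv ℝ g (L.cX q) (L.x q.2) * ⟪L.x q.2, v⟫)
      ((rad (k + 1)).prod L.σ) :=
    L.dom_Rad _ hc ((mD.comp (mX.prodMk (L.mx.comp measurable_snd))).mul mI) (C * ‖v‖) fun q => by
      have := bD q (⟪L.x q.2, v⟫ • L.x q.2)
        (by rw [norm_smul, L.unit, mul_one, Real.norm_eq_abs]; exact bI _)
      rwa [map_smul, smul_eq_mul, mul_comm] at this
  have iG : Integrable (fun q => g (L.cX q) * ⟪L.x q.2, v⟫) ((rad k).prod L.σ) :=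
    L.dom_Rad _ hc ((hg.continuous.measurable.comp mX).mul mI) (C * ‖v‖) fun q => by
      have a2 := h0 (L.cX q)
      rw [L.cX_norm_Rad] at a2
      have a3 := mul_le_mul a2 (bI q.2) (abs_nonneg _) (by positivity)
      rw [abs_mul]
      linarith
  have eA : ∫ q, fderiv ℝ g (L.cX q) (L.P q.2 v) ∂(rad (k + 1)).prod L.σ =
      (k + 1 : ℕ) * ∫ q, g (L.cX q) * ⟪L.x q.2, v⟫ ∂(rad k).prod L.σ := by
    rw [integral_prod _ iA, integral_prod _ iG, rad_int, rad_int, ← integral_const_mul]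
    refine integral_congr_ae (Eventually.of_forall fun r => ?_)
    have a1 := L.stat (fun y => g (r • y)) (hg.comp (contDiff_id.const_smul r)) v
    have a2 : ∀ y w : Euc (k + 1 + 2),
        fderiv ℝ (fun y => g (r • y)) y w = r * fderiv ℝ g (r • y) w := by
      intro y w
      have b1 := ((hg.differentiable one_ne_zero) (r • y)).hasFDerivAt.comp y
        ((hasFDerivAt_id y).const_smul r)
      have b2 : fderiv ℝ (fun y => g (r • y)) y = _ := b1.fderiv
      rw [b2]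
      simp
    simp only [a2] at a1
    rw [integral_const_mul] at a1
    show r ^ (k + 1) * ∫ p, fderiv ℝ g (r • L.x p) (L.P p v) ∂L.σ =
      (k + 1 : ℕ) * (r ^ k * ∫ p, g (r • L.x p) * ⟪L.x p, v⟫ ∂L.σ)
    rw [pow_succ, mul_assoc, a1]
    ring
  have eB : ∫ q, fderiv ℝ g (L.cX q) (L.x q.2) * ⟪L.x q.2, v⟫ ∂(rad (k + 1)).prod L.σ =
      -(k + 1 : ℕ) * ∫ q, g (L.cX q) * ⟪L.x q.2, v⟫ ∂(rad k).prod L.σ := by
    rw [integral_prod_symm _ iB, integral_prod_symm _ iG, ← integral_const_mul]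
    refine integral_congr_ae (Eventually.of_forall fun p => ?_)
    show ∫ r, fderiv ℝ g (r • L.x p) (L.x p) * ⟪L.x p, v⟫ ∂rad (k + 1) =
      -(k + 1 : ℕ) * ∫ r, g (r • L.x p) * ⟪L.x p, v⟫ ∂rad k
    rw [integral_mul_const, integral_mul_const, ray_Rad k hg hc h0 h1 (L.unit p)]
    ring
  have e : ∀ q, fderiv ℝ g (L.cX q) (L.cP q v) = fderiv ℝ g (L.cX q) (L.P q.2 v) +
      fderiv ℝ g (L.cX q) (L.x q.2) * ⟪L.x q.2, v⟫ := by
    intro q
    unfold Link.cP
    rw [add_apply, map_add, ContinuousLinearMap.smulRight_apply, map_smul,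
      innerSL_apply_apply, smul_eq_mul, mul_comm]
  simp only [e]
  unfold Link.cμ
  rw [integral_add iA iB, eA, eB]
  ring

end Vale.Agent.P224
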