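import Vale.Agent.P224.Int

/-!
# Consequences of stationarity  (TASK)

`stat_poly`: `C.stat` applies to `g x = gk n z t x * p x` when `p` is `C¹` and `p`, `Dp` have
sub-Gaussian growth (`D (gk n z t) x v = - gk n z t x * ⟪x - z, v⟫ / t`).
`key_ineq`, with `G = gk n z t`, `ℓ x = ⟪a,x⟫ + c`, `y = X - z`:
(1) `p = ℓ`, `v = a`: `∫ G ⟪P a, a⟫ = (1/t) ∫ G ℓ ⟪y, P a⟫`;
(2) `p = ℓ² (x - z)ᵢ`, `v = eᵢ`, summed over `i` (`C.tr`, `C.symm`, `∑ᵢ yᵢ eᵢ = y`):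
`∫ G ℓ² (⟪P y, y⟫ / t - n) = 2 ∫ G ℓ ⟪a, P y⟫`.
Hence `∫ G ℓ² (⟪P y, y⟫ / (2t²) - n / (2t)) = ∫ G ⟪P a, a⟫` and `⟪P y, y⟫ ≤ ‖y‖²` (`C.nrm`).
For integrability note `⟪P y, y⟫ = ∑ᵢⱼ yᵢ yⱼ ⟪P eᵢ, eⱼ⟫` or use `|⟪P y, y⟫| ≤ ‖y‖²`
(measurability from `C.mP`: `P ω y = ∑ᵢ yᵢ • P ω eᵢ`).
`mom1`: `p = 1`, `z = 0`, `t = 1`, `⟪X, P a⟫ = ⟪P X, a⟫ = ⟪X, a⟫` (`C.fix`).
`mom2`: `p = ⟪b, ·⟫`, `v = a`.
-/

namespace Vale.Agent.P224

open scoped RealInnerProductSpace ENNReal Topology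
open MeasureTheory Set Filter

variable {n : ℕ} {Ω : Type*} [MeasurableSpace Ω] (C : Cone n Ω)

def G_Stat {N : ℕ} (f : Euc N → ℝ) : Prop :=
  ∀ ε : ℝ, 0 < ε → ∃ K : ℝ, ∀ x, |f x| ≤ K * Real.exp (ε * ‖x‖ ^ 2)

theorem G_Stat.mono {N : ℕ} {f g : Euc N → ℝ} (h : G_Stat g) (hle : ∀ x, |f x| ≤ g x) :
    G_Stat f := fun ε hε => (h ε hε).imp fun _ hK x => (hle x).trans ((le_abs_self _).trans (hK x))

theorem G_Stat.const {N : ℕ} (c : ℝ) : G_Stat fun _ : Euc N => c := fun ε hε =>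
  ⟨|c|, fun x => le_mul_of_one_le_right (abs_nonneg c) (Real.one_le_exp (by positivity))⟩

theorem G_Stat.add {N : ℕ} {f g : Euc N → ℝ} (hf : G_Stat f) (hg : G_Stat g) :
    G_Stat fun x => f x + g x := fun ε hε => by
  obtain ⟨K, hK⟩ := hf ε hε
  obtain ⟨L, hL⟩ := hg ε hε
  refine ⟨K + L, fun x => (abs_add_le _ _).trans ?_⟩
  rw [add_mul]
  exact add_le_add (hK x) (hL x)

theorem G_Stat.mul {N : ℕ} {f g : Euc N → ℝ} (hf : G_Stat f) (hg : G_Stat g) :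
    G_Stat fun x => f x * g x := fun ε hε => by
  obtain ⟨K, hK⟩ := hf (ε / 2) (half_pos hε)
  obtain ⟨L, hL⟩ := hg (ε / 2) (half_pos hε)
  refine ⟨K * L, fun x => ?_⟩
  rw [abs_mul]
  refine (mul_le_mul (hK x) (hL x) (abs_nonneg _) ((abs_nonneg _).trans (hK x))).trans_eq ?_
  rw [mul_mul_mul_comm, ← Real.exp_add, ← add_mul, add_halves]

theorem G_Stat.abs {N : ℕ} {f : Euc N → ℝ} (hf : G_Stat f) : G_Stat fun x => |f x| :=
  fun ε hε => (hf ε hε).imp fun _ hK x => (abs_abs _).trans_le (hK x)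

theorem G_Stat.norm {N : ℕ} : G_Stat fun x : Euc N => ‖x‖ := fun ε hε => by
  refine ⟨1 + 1 / ε, fun x => ?_⟩
  rw [abs_norm]
  have h1 := Real.add_one_le_exp (ε * ‖x‖ ^ 2)
  have h2 : (1 + 1 / ε) * (ε * ‖x‖ ^ 2 + 1) = ε * ‖x‖ ^ 2 + 1 + ‖x‖ ^ 2 + 1 / ε := by
    field_simp
    ring
  have h3 : 0 < 1 / ε := by positivity
  have h4 : 0 ≤ ε * ‖x‖ ^ 2 := by positivity
  refine le_trans ?_ (mul_le_mul_of_nonneg_left h1 (by positivity))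
  nlinarith [sq_nonneg (‖x‖ - 1)]

def PG_Stat {N : ℕ} (p : Euc N → ℝ) : Prop :=
  ContDiff ℝ 1 p ∧ G_Stat p ∧ G_Stat fun x => ‖fderiv ℝ p x‖

theorem aff_Stat {N : ℕ} (a : Euc N) (c : ℝ) (x : Euc N) :
    HasFDerivAt (fun x => ⟪a, x⟫ + c) (innerSL ℝ a) x := (innerSL ℝ a).hasFDerivAt.add_const c

theorem PG_Stat.aff {N : ℕ} (a : Euc N) (c : ℝ) : PG_Stat fun x => ⟪a, x⟫ + c := by
  refine ⟨(innerSL ℝ a).contDiff.add contDiff_const,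
    (((G_Stat.const ‖a‖).mul G_Stat.norm).mono fun x => abs_real_inner_le_norm a x).add
      (G_Stat.const c), ?_⟩
  simp only [(aff_Stat a c _).fderiv]
  exact G_Stat.const _

theorem PG_Stat.mul {N : ℕ} {p q : Euc N → ℝ} (hp : PG_Stat p) (hq : PG_Stat q) :
    PG_Stat fun x => p x * q x := by
  refine ⟨hp.1.mul hq.1, hp.2.1.mul hq.2.1,
    ((hp.2.1.abs.mul hq.2.2).add (hq.2.1.abs.mul hp.2.2)).mono fun x => ?_⟩
  rw [abs_norm, fderiv_fun_mul (hp.1.differentiable one_ne_zero x)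
    (hq.1.differentiable one_ne_zero x)]
  refine (norm_add_le _ _).trans_eq ?_
  rw [norm_smul, norm_smul, Real.norm_eq_abs, Real.norm_eq_abs]

theorem gk_Stat (n : ℕ) {N : ℕ} (z : Euc N) (t : ℝ) (x : Euc N) :
    HasFDerivAt (gk n z t) ((-(gk n z t x / t)) • innerSL ℝ (x - z)) x := by
  have h1 := ((((hasFDerivAt_id x).sub_const z).norm_sq.neg.mul_const (2 * t)⁻¹).exp).const_mul
    ((2 * Real.pi * t) ^ (-(n : ℝ) / 2))
  refine h1.congr_fderiv ?_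
  ext v
  simp only [gk, smul_apply, neg_apply,
    ContinuousLinearMap.comp_apply, ContinuousLinearMap.id_apply, id, smul_eq_mul, nsmul_eq_mul,
    Pi.neg_apply, div_eq_mul_inv, mul_inv]
  push_cast
  ring

theorem dec_Stat (n : ℕ) {N : ℕ} (z : Euc N) {t : ℝ} (ht : 0 < t) {h : Euc N → ℝ}
    (hh : G_Stat h) :
    ∃ K : ℝ, ∀ x, gk n z t x * |h x| ≤ K * Real.exp (-(1 / (8 * t)) * ‖x‖ ^ 2) := by
  obtain ⟨K, hK⟩ := hh (1 / (8 * t)) (by positivity)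
  refine ⟨(2 * Real.pi * t) ^ (-(n : ℝ) / 2) * Real.exp (‖z‖ ^ 2 / (2 * t)) * K, fun x => ?_⟩
  have hK0 : 0 ≤ K := nonneg_of_mul_nonneg_left ((abs_nonneg _).trans (hK x)) (Real.exp_pos _)
  have hA : 0 ≤ (2 * Real.pi * t) ^ (-(n : ℝ) / 2) := by positivity
  refine (mul_le_mul_of_nonneg_left (hK x) (gk_pos n z ht x).le).trans ?_
  have h1 : ‖x‖ ^ 2 ≤ 2 * ‖x - z‖ ^ 2 + 2 * ‖z‖ ^ 2 := by
    have h2 : ‖x‖ ≤ ‖x - z‖ + ‖z‖ := by simpa using norm_add_le (x - z) z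
    nlinarith [sq_nonneg (‖x - z‖ - ‖z‖), norm_nonneg x, norm_nonneg (x - z), norm_nonneg z]
  have h3 : -‖x - z‖ ^ 2 / (2 * t) + 1 / (8 * t) * ‖x‖ ^ 2 ≤
      ‖z‖ ^ 2 / (2 * t) + -(1 / (8 * t)) * ‖x‖ ^ 2 := by
    have h4 : ‖z‖ ^ 2 / (2 * t) + -(1 / (8 * t)) * ‖x‖ ^ 2 -
        (-‖x - z‖ ^ 2 / (2 * t) + 1 / (8 * t) * ‖x‖ ^ 2) =
        (2 * ‖x - z‖ ^ 2 + 2 * ‖z‖ ^ 2 - ‖x‖ ^ 2) / (4 * t) := by
      field_simp
      ring
    have h5 : 0 ≤ (2 * ‖x - z‖ ^ 2 + 2 * ‖z‖ ^ 2 - ‖x‖ ^ 2) / (4 * t) :=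
      div_nonneg (by linarith) (by positivity)
    linarith
  have h6 := mul_le_mul_of_nonneg_left (Real.exp_le_exp.2 h3) (mul_nonneg hA hK0)
  rw [Real.exp_add, Real.exp_add] at h6
  unfold gk
  linarith

theorem Cone.stat_poly (z : Euc (n + 1)) {t : ℝ} (ht : 0 < t) {p : Euc (n + 1) → ℝ}
    (hp : ContDiff ℝ 1 p)
    (hb : ∀ ε : ℝ, 0 < ε → ∃ K : ℝ, ∀ x, |p x| ≤ K * Real.exp (ε * ‖x‖ ^ 2) ∧
      ‖fderiv ℝ p x‖ ≤ K * Real.exp (ε * ‖x‖ ^ 2)) (v : Euc (n + 1)) :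
    ∫ ω, gk n z t (C.X ω) *
      (fderiv ℝ p (C.X ω) (C.P ω v) - p (C.X ω) * ⟪C.X ω - z, C.P ω v⟫ / t) ∂C.μ = 0 := by
  have g1 : G_Stat p := fun ε hε => (hb ε hε).imp fun _ h x => (h x).1
  have g2 : G_Stat fun x => ‖fderiv ℝ p x‖ := fun ε hε =>
    (hb ε hε).imp fun _ h x => (abs_norm _).trans_le (h x).2
  have g3 : G_Stat fun x : Euc (n + 1) => ‖x - z‖ :=
    (G_Stat.norm.add (G_Stat.const ‖z‖)).mono fun x => (abs_norm _).trans_le (norm_sub_le _ _)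
  obtain ⟨K, hK⟩ := dec_Stat n z ht g1
  obtain ⟨L, hL⟩ := dec_Stat n z ht (g2.add ((g1.abs.mul g3).mul (G_Stat.const t⁻¹)))
  have hd : ∀ x, HasFDerivAt (fun x => gk n z t x * p x)
      (gk n z t x • fderiv ℝ p x + p x • ((-(gk n z t x / t)) • innerSL ℝ (x - z))) x := fun x =>
    (gk_Stat n z t x).mul (hp.differentiable one_ne_zero x).hasFDerivAt
  have hc : ContDiff ℝ 1 (gk n z t) :=
    contDiff_const.mul (((contDiff_id.sub contDiff_const).norm_sq ℝ).neg.div_const _).exp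
  have h := C.stat (fun x => gk n z t x * p x) (max K L) (1 / (8 * t)) (hc.mul hp) (by positivity)
    (fun x => by
      rw [abs_mul, abs_of_pos (gk_pos n z ht x)]
      exact (hK x).trans (mul_le_mul_of_nonneg_right (le_max_left _ _) (Real.exp_pos _).le))
    (fun x => by
      refine le_trans ?_ ((hL x).trans
        (mul_le_mul_of_nonneg_right (le_max_right _ _) (Real.exp_pos _).le))
      have h0 := gk_pos n z ht x
      rw [(hd x).fderiv, abs_of_nonneg (by positivity)]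
      refine (norm_add_le _ _).trans_eq ?_
      rw [norm_smul, norm_smul, norm_smul, innerSL_apply_norm, norm_neg, Real.norm_of_nonneg h0.le,
        Real.norm_of_nonneg (by positivity : 0 ≤ gk n z t x / t), Real.norm_eq_abs]
      ring) v
  rw [← h]
  refine integral_congr_ae (Eventually.of_forall fun ω => ?_)
  simp only [(hd _).fderiv, add_apply, smul_apply,
    innerSL_apply_apply, smul_eq_mul]
  ring

theorem Cone.pg_Stat (z : Euc (n + 1)) {t : ℝ} (ht : 0 < t) {p : Euc (n + 1) → ℝ}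
    (hp : PG_Stat p) {p' : Euc (n + 1) → Euc (n + 1) →L[ℝ] ℝ} (hd : ∀ x, HasFDerivAt p (p' x) x)
    (v : Euc (n + 1)) :
    ∫ ω, gk n z t (C.X ω) *
      (p' (C.X ω) (C.P ω v) - p (C.X ω) * ⟪C.X ω - z, C.P ω v⟫ / t) ∂C.μ = 0 := by
  have h := C.stat_poly z ht hp.1 (fun ε hε => by
    obtain ⟨K, hK⟩ := hp.2.1 ε hε
    obtain ⟨L, hL⟩ := hp.2.2 ε hε
    exact ⟨max K L, fun x =>
      ⟨(hK x).trans (mul_le_mul_of_nonneg_right (le_max_left _ _) (Real.exp_pos _).le),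
        ((le_abs_self _).trans (hL x)).trans
          (mul_le_mul_of_nonneg_right (le_max_right _ _) (Real.exp_pos _).le)⟩⟩) v
  simpa only [(hd _).fderiv] using h

theorem Cone.fix_Stat (ω : Ω) (v : Euc (n + 1)) : ⟪C.X ω, C.P ω v⟫ = ⟪v, C.X ω⟫ := by
  rw [← C.symm, C.fix, real_inner_comm]

theorem Cone.sg1_Stat (u v : Euc (n + 1)) : C.SG fun ω => ⟪u, C.P ω v⟫ := by
  simp only [← C.symm]
  exact Cone.SG.proj C u v

theorem Cone.sg2_Stat (z v : Euc (n + 1)) : C.SG fun ω => ⟪C.X ω - z, C.P ω v⟫ := by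
  simp only [inner_sub_left, C.fix_Stat]
  exact (Cone.SG.inner C v).sub (C.sg1_Stat z v)

theorem sg_div_Stat {C : Cone n Ω} {f : Ω → ℝ} (hf : C.SG f) (t : ℝ) : C.SG fun ω => f ω / t := by
  simp only [div_eq_mul_inv]
  exact hf.mul (Cone.SG.const C _)

theorem Cone.key_ineq (a z : Euc (n + 1)) (c : ℝ) {t : ℝ} (ht : 0 < t) :
    ∫ ω, gk n z t (C.X ω) * ⟪C.P ω a, a⟫ ∂C.μ ≤
      ∫ ω, gk n z t (C.X ω) * (⟪a, C.X ω⟫ + c) ^ 2 *
        (‖C.X ω - z‖ ^ 2 / (2 * t ^ 2) - n / (2 * t)) ∂C.μ := by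
  have sl : ∀ (b : Euc (n + 1)) (d : ℝ), C.SG fun ω => ⟪b, C.X ω⟫ + d := fun b d =>
    (Cone.SG.inner C b).add (Cone.SG.const C d)
  set e : Fin (n + 1) → Euc (n + 1) := fun i => EuclideanSpace.single i 1 with he
  set F0 : Ω → ℝ := fun ω => gk n z t (C.X ω) *
    (⟪a, C.P ω a⟫ - (⟪a, C.X ω⟫ + c) * ⟪C.X ω - z, C.P ω a⟫ / t) with hF0
  set F : Fin (n + 1) → Ω → ℝ := fun i ω => gk n z t (C.X ω) *
    ((⟪a, C.X ω⟫ + c) * (⟪a, C.X ω⟫ + c) * ⟪e i, C.P ω (e i)⟫ +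
      (⟪e i, C.X ω⟫ + -z i) * ((⟪a, C.X ω⟫ + c) * ⟪a, C.P ω (e i)⟫ +
        (⟪a, C.X ω⟫ + c) * ⟪a, C.P ω (e i)⟫) -
      (⟪a, C.X ω⟫ + c) * (⟪a, C.X ω⟫ + c) * (⟪e i, C.X ω⟫ + -z i) *
        ⟪C.X ω - z, C.P ω (e i)⟫ / t) with hF
  have i0 : Integrable F0 C.μ :=
    ((C.sg1_Stat a a).sub (sg_div_Stat ((sl a c).mul (C.sg2_Stat z a)) t)).int1 z ht
  have i1 : ∀ i, Integrable (F i) C.μ := fun i =>
    (((((sl a c).mul (sl a c)).mul (C.sg1_Stat _ _)).add ((sl _ _).mul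
      (((sl a c).mul (C.sg1_Stat _ _)).add ((sl a c).mul (C.sg1_Stat _ _))))).sub
      (sg_div_Stat ((((sl a c).mul (sl a c)).mul (sl _ _)).mul (C.sg2_Stat z _)) t)).int1 z ht
  have z0 : ∫ ω, F0 ω ∂C.μ = 0 := C.pg_Stat z ht (PG_Stat.aff a c) (aff_Stat a c) a
  have z1 : ∀ i, ∫ ω, F i ω ∂C.μ = 0 := fun i =>
    C.pg_Stat z ht (((PG_Stat.aff a c).mul (PG_Stat.aff a c)).mul (PG_Stat.aff (e i) (-z i)))
      (fun x => ((aff_Stat a c x).mul (aff_Stat a c x)).mul (aff_Stat (e i) (-z i) x)) (e i)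
  have i2 : Integrable (fun ω => gk n z t (C.X ω) * ⟪C.P ω a, a⟫) C.μ :=
    (Cone.SG.proj C a a).int1 z ht
  have i3 : Integrable (fun ω => 1 / (2 * t) * ∑ i, F i ω) C.μ :=
    (integrable_finsetSum _ fun i _ => i1 i).const_mul _
  have i4 : Integrable (fun ω => gk n z t (C.X ω) * ⟪C.P ω a, a⟫ - F0 ω) C.μ := i2.sub i0
  have e1 : ∫ ω, gk n z t (C.X ω) * ⟪C.P ω a, a⟫ ∂C.μ =
      ∫ ω, (gk n z t (C.X ω) * ⟪C.P ω a, a⟫ - F0 ω - 1 / (2 * t) * ∑ i, F i ω) ∂C.μ := by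
    rw [integral_sub i4 i3, integral_sub i2 i0, integral_const_mul,
      integral_finsetSum _ fun i _ => i1 i, z0]
    simp only [z1, Finset.sum_const_zero, mul_zero, sub_zero]
  rw [e1]
  refine integral_mono (i4.sub i3) ?_ fun ω => ?_
  · simp only [mul_assoc]
    exact (((sl a c).pow 2).mul ((sg_div_Stat (Cone.SG.normSq C z) _).sub
      (Cone.SG.const C _))).int1 z ht
  have h0 := gk_pos n z ht (C.X ω)
  have s1 : ∀ u : Euc (n + 1), ∑ i, (⟪e i, C.X ω⟫ + -z i) * ⟪u, C.P ω (e i)⟫ =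
      ⟪C.P ω u, C.X ω - z⟫ := by
    intro u
    rw [PiLp.inner_apply]
    refine Finset.sum_congr rfl fun i _ => ?_
    rw [← C.symm, he]
    simp only [EuclideanSpace.inner_single_left, EuclideanSpace.inner_single_right, conj_trivial,
      one_mul, RCLike.inner_apply, sub_eq_add_neg, PiLp.add_apply, PiLp.neg_apply]
  have s2 : ∑ i, ⟪e i, C.P ω (e i)⟫ = n := by
    rw [← C.tr ω]
    refine Finset.sum_congr rfl fun i _ => ?_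
    rw [he]
    simp only [EuclideanSpace.inner_single_left, conj_trivial, one_mul]
  have s3 : ∑ i, F i ω = gk n z t (C.X ω) * ((⟪a, C.X ω⟫ + c) ^ 2 * n +
      2 * (⟪a, C.X ω⟫ + c) * ⟪C.P ω a, C.X ω - z⟫ -
      (⟪a, C.X ω⟫ + c) ^ 2 / t * ⟪C.P ω (C.X ω - z), C.X ω - z⟫) := by
    rw [← s1, ← s1, ← s2]
    simp only [hF, Finset.mul_sum, ← Finset.sum_add_distrib, ← Finset.sum_sub_distrib]
    refine Finset.sum_congr rfl fun i _ => ?_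
    ring
  have s4 : ⟪C.P ω (C.X ω - z), C.X ω - z⟫ ≤ ‖C.X ω - z‖ ^ 2 := by
    refine (real_inner_le_norm _ _).trans ?_
    rw [sq]
    exact mul_le_mul_of_nonneg_right (C.nrm ω _) (norm_nonneg _)
  have s5 := mul_le_mul_of_nonneg_left s4
    (show 0 ≤ gk n z t (C.X ω) * (⟪a, C.X ω⟫ + c) ^ 2 / (2 * t ^ 2) by positivity)
  have s6 : gk n z t (C.X ω) * ⟪C.P ω a, a⟫ - F0 ω - 1 / (2 * t) * ∑ i, F i ω =
      gk n z t (C.X ω) * (⟪a, C.X ω⟫ + c) ^ 2 / (2 * t ^ 2) * ⟪C.P ω (C.X ω - z), C.X ω - z⟫ -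
        gk n z t (C.X ω) * (⟪a, C.X ω⟫ + c) ^ 2 * (n / (2 * t)) := by
    rw [s3]
    simp only [hF0]
    rw [real_inner_comm (C.P ω a) a, real_inner_comm (C.P ω a) (C.X ω - z)]
    field_simp
    ring
  change gk n z t (C.X ω) * ⟪C.P ω a, a⟫ - F0 ω - 1 / (2 * t) * ∑ i, F i ω ≤ _
  rw [s6, mul_sub]
  refine sub_le_sub_right (s5.trans_eq ?_) _
  ring

theorem Cone.mom1 (a : Euc (n + 1)) : ∫ ω, gk n 0 1 (C.X ω) * ⟪a, C.X ω⟫ ∂C.μ = 0 := by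
  have h := C.pg_Stat 0 one_pos (PG_Stat.aff 0 1) (aff_Stat 0 1) a
  simp only [innerSL_apply_apply, inner_zero_left, zero_add, one_mul, div_one, sub_zero, zero_sub,
    C.fix_Stat, mul_neg, integral_neg, neg_eq_zero] at h
  exact h

theorem Cone.mom2 (a b : Euc (n + 1)) :
    ∫ ω, gk n 0 1 (C.X ω) * (⟪a, C.X ω⟫ * ⟪b, C.X ω⟫) ∂C.μ =
      ∫ ω, gk n 0 1 (C.X ω) * ⟪C.P ω a, b⟫ ∂C.μ := by
  have h := C.pg_Stat 0 one_pos (PG_Stat.aff b 0) (aff_Stat b 0) a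
  simp only [innerSL_apply_apply, add_zero, div_one, sub_zero, C.fix_Stat, mul_sub] at h
  rw [integral_sub ((C.sg1_Stat b a).int1 0 one_pos)
    (((Cone.SG.inner C b).mul (Cone.SG.inner C a)).int1 0 one_pos), sub_eq_zero] at h
  simp only [real_inner_comm b (C.P _ a), mul_comm ⟪a, C.X _⟫]
  exact h.symm

end Vale.Agent.P224
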