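import Mathlib

/-!
Definitions used by the final statement: minimal immersions into the unit sphere and their volume.
-/

namespace Vale.Agent.P224

open scoped RealInnerProductSpace ENNReal
open MeasureTheory Set

/-- Euclidean `k`-space. -/
abbrev Euc (k : ℕ) : Type := EuclideanSpace ℝ (Fin k)

variable {m N : ℕ}

/-- The partial derivative `∂ᵢ φ`. -/
noncomputable def pd (φ : Euc m → Euc N) (i : Fin m) (z : Euc m) : Euc N :=
  fderiv ℝ φ z (EuclideanSpace.single i 1)

/-- The induced metric `gᵢⱼ = ⟪∂ᵢ φ, ∂ⱼ φ⟫` of a parametrisation. -/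
noncomputable def gram (φ : Euc m → Euc N) (z : Euc m) : Matrix (Fin m) (Fin m) ℝ :=
  Matrix.of fun i j => ⟪pd φ i z, pd φ j z⟫

/-- The volume element `√det g`. -/
noncomputable def dens (φ : Euc m → Euc N) (z : Euc m) : ℝ≥0∞ := ENNReal.ofReal √(gram φ z).det

/-- A parametrisation `φ` with values in the unit sphere has zero mean curvature at `z`: the trace
`gⁱʲ ⟪∂ᵢ∂ⱼ φ, w⟫` of the second fundamental form vanishes for every `w` tangent to the sphere at
`φ z` and normal to the image of `dφ`. -/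
def MinAt (φ : Euc m → Euc N) (z : Euc m) : Prop :=
  ∀ w : Euc N, ⟪w, φ z⟫ = 0 → (∀ i, ⟪w, pd φ i z⟫ = 0) →
    ∑ i, ∑ j, (gram φ z)⁻¹ i j * ⟪pd (pd φ j) i z, w⟫ = 0

/-- The great sphere orthogonal to `a`. -/
def equator (a : Euc N) : Set (Euc N) := {y | ‖y‖ = 1 ∧ ⟪a, y⟫ = 0}

/-- The volume `2 π ^ ((m+1)/2) / Γ((m+1)/2)` of the unit `m`-sphere. -/
noncomputable def sphereVol (m : ℕ) : ℝ :=
  2 * Real.pi ^ (((m : ℝ) + 1) / 2) / Real.Gamma ((m + 1) / 2)

variable {M : Type*} [TopologicalSpace M] [ChartedSpace (Euc m) M]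

variable (m) in
/-- `F` has zero mean curvature in every chart. -/
def IsMinimal (F : M → Euc N) : Prop :=
  ∀ e ∈ atlas (Euc m) M, ∀ z ∈ e.target, MinAt (F ∘ e.symm) z

variable (m) in
/-- The volume of `(M, F^* g)`: the supremum of `∑ᵢ ∫_{Sᵢ} √det g` over finitely many charts `eᵢ`
and Borel sets `Sᵢ` in their targets whose preimages in `M` are pairwise disjoint. -/
noncomputable def vol (F : M → Euc N) : ℝ≥0∞ :=
  ⨆ (K : ℕ) (e : Fin K → OpenPartialHomeomorph M (Euc m)) (S : Fin K → Set (Euc m))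
    (_ : ∀ i, e i ∈ atlas (Euc m) M ∧ MeasurableSet (S i) ∧ S i ⊆ (e i).target)
    (_ : ∀ i j, i ≠ j → Disjoint ((e i).symm '' S i) ((e j).symm '' S j)),
    ∑ i, ∫⁻ z in S i, dens (F ∘ (e i).symm) z

open scoped Manifold ContDiff in
/-- `F` is a smooth immersion of the manifold `X` (modelled on `E`) into the unit sphere of `V`. -/
structure IsSphereImmersion (E : Type*) {V X : Type*} [NormedAddCommGroup E] [NormedSpace ℝ E]
    [NormedAddCommGroup V] [NormedSpace ℝ V] [TopologicalSpace X] [ChartedSpace E X]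
    (F : X → V) : Prop where
  smooth : ContMDiff 𝓘(ℝ, E) 𝓘(ℝ, V) ∞ F
  unit : ∀ p, ‖F p‖ = 1
  inj : ∀ p, Function.Injective (mfderiv 𝓘(ℝ, E) 𝓘(ℝ, V) F p)

end Vale.Agent.P224
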