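import Vale.Agent.P224.Mono

/-!
# The two-point inequality  (TASK)

`gk_swap`: complete the square (`c(1) c(τ) = c(τ + ρ²) c(τ / (τ + ρ²))`; expand the norms with
`norm_sub_sq_real`, `norm_smul`, `inner_smul_left`).
`two_ineq`: let `Ξ t` be the double integral with variance `t`.  By `hasDerivAt_gauss` on
`C.μ.prod C.μ` (`D = ‖X p.2 - ρ • X p.1‖²`, `w = gk n 0 1 (X p.1) * (…)²`, `SG.int2` after expanding
the square) and `integral_prod`, `key_ineq` (with `c = β ⟪a, X p.1⟫`):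
`Ξ’ t ≥ ∫∫ gk n 0 1 Y * gk n (ρ Y) t X * ⟪P a, a⟫`, which by `gk_swap`, `integral_prod_symm`,
`one_le_F` (`aeZ`, `smulZ`), `scale_P`, `mom2` is at least `C.S a`.  Also `Ξ s ≥ (ρ + β)² C.S a`
for every `s > 0` by `low_W`.  So `Ξ t ≥ (ρ + β)² S + (t - s) S` for `0 < s < t`
(`monotoneOn_of_deriv_nonneg` for `Ξ t - t S`); let `s → 0` (`le_of_forall_pos_le_add`).
-/

namespace Vale.Agent.P224

open scoped RealInnerProductSpace ENNReal Topology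
open MeasureTheory Set Filter

variable {n : ℕ} {Ω : Type*} [MeasurableSpace Ω] (C : Cone n Ω)

theorem gk_swap (n : ℕ) {N : ℕ} (x y : Euc N) (ρ : ℝ) {τ : ℝ} (hτ : 0 < τ) :
    gk n 0 1 y * gk n (ρ • y) τ x =
      gk n 0 (τ + ρ ^ 2) x * gk n ((ρ / (τ + ρ ^ 2)) • x) (τ / (τ + ρ ^ 2)) y := by
  have hσ : 0 < τ + ρ ^ 2 := by positivity
  have hp := Real.pi_pos
  have e1 : (2 * Real.pi * 1) ^ (-(n : ℝ) / 2) * (2 * Real.pi * τ) ^ (-(n : ℝ) / 2) =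
      (2 * Real.pi * (τ + ρ ^ 2)) ^ (-(n : ℝ) / 2) *
        (2 * Real.pi * (τ / (τ + ρ ^ 2))) ^ (-(n : ℝ) / 2) := by
    rw [← Real.mul_rpow (by positivity) (by positivity),
      ← Real.mul_rpow (by positivity) (by positivity)]
    refine congrArg (· ^ (-(n : ℝ) / 2)) ?_
    field_simp
  have e2 : -‖y - 0‖ ^ 2 / (2 * 1) + -‖x - ρ • y‖ ^ 2 / (2 * τ) =
      -‖x - 0‖ ^ 2 / (2 * (τ + ρ ^ 2)) +
        -‖y - (ρ / (τ + ρ ^ 2)) • x‖ ^ 2 / (2 * (τ / (τ + ρ ^ 2))) := by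
    rw [sub_zero, sub_zero, norm_sub_sq_real, norm_sub_sq_real, norm_smul, norm_smul,
      real_inner_smul_right, real_inner_smul_right, mul_pow, mul_pow, Real.norm_eq_abs,
      Real.norm_eq_abs, sq_abs, sq_abs, real_inner_comm x y]
    field_simp
    ring
  unfold gk
  rw [mul_mul_mul_comm, e1, ← Real.exp_add, e2, Real.exp_add, mul_mul_mul_comm]

theorem Cone.int_Two (a : Euc (n + 1)) (β ρ : ℝ) {s : ℝ} (hs : 0 < s) :
    Integrable (fun p : Ω × Ω => gk n 0 1 (C.X p.1) * gk n (ρ • C.X p.1) s (C.X p.2) *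
      (⟪a, C.X p.2⟫ + β * ⟪a, C.X p.1⟫) ^ 2) (C.μ.prod C.μ) := by
  have h0 := Cone.SG.inner C a
  have h1 := (Cone.SG.const C 1).int2 (h0.pow 2) ρ hs
  have h2 := ((Cone.SG.const C (2 * β)).mul h0).int2 h0 ρ hs
  have h3 := (((Cone.SG.const C β).mul h0).pow 2).int2 (Cone.SG.const C 1) ρ hs
  refine ((h1.add h2).add h3).congr (Eventually.of_forall fun p => ?_)
  simp only [Pi.add_apply]
  ring

theorem Cone.low_Two (a : Euc (n + 1)) (β : ℝ) {ρ s : ℝ} (hρ : 0 < ρ) (hs : 0 < s) :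
    (ρ + β) ^ 2 * C.S a ≤
      ∫ p : Ω × Ω, gk n 0 1 (C.X p.1) * gk n (ρ • C.X p.1) s (C.X p.2) *
        (⟪a, C.X p.2⟫ + β * ⟪a, C.X p.1⟫) ^ 2 ∂(C.μ.prod C.μ) := by
  have hi := C.int_Two a β ρ hs
  rw [integral_prod _ hi, Cone.S, ← integral_const_mul]
  refine integral_mono_ae
    ((((Cone.SG.inner C a).pow 2).int1 0 one_pos).const_mul _) hi.integral_prod_left ?_
  filter_upwards [C.aeZ] with y hy
  simp only [mul_assoc]
  rw [integral_const_mul]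
  have h1 := C.low_W a (C.smulZ _ hy ρ hρ) (β * ⟪a, C.X y⟫) hs
  rw [real_inner_smul_right] at h1
  refine le_trans (le_of_eq ?_) (mul_le_mul_of_nonneg_left h1 (gk_pos n 0 one_pos _).le)
  ring

theorem Cone.proj_Two (a : Euc (n + 1)) {ρ s : ℝ} (hρ : 0 < ρ) (hs : 0 < s) :
    C.S a ≤ ∫ p : Ω × Ω, gk n 0 1 (C.X p.1) * gk n (ρ • C.X p.1) s (C.X p.2) *
      (1 * ⟪C.P p.2 a, a⟫) ∂(C.μ.prod C.μ) := by
  have hi := (Cone.SG.const C 1).int2 (Cone.SG.proj C a a) ρ hs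
  have hσ : 0 < s + ρ ^ 2 := by positivity
  have e : C.S a = ∫ ω, gk n 0 (s + ρ ^ 2) (C.X ω) * ⟪C.P ω a, a⟫ ∂C.μ := by
    rw [C.scale_P a a hσ, ← C.mom2]
    simp only [Cone.S, sq]
  rw [integral_prod_symm _ hi, e]
  refine integral_mono_ae ((Cone.SG.proj C a a).int1 0 hσ) hi.integral_prod_right ?_
  filter_upwards [C.aeZ] with x hx
  have h1 := C.one_le_F (C.smulZ _ hx _ (div_pos hρ hσ)) (div_pos hs hσ)
  have h2 : ∀ y, gk n 0 1 (C.X y) * gk n (ρ • C.X y) s (C.X x) * (1 * ⟪C.P x a, a⟫) =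
      gk n 0 (s + ρ ^ 2) (C.X x) * ⟪C.P x a, a⟫ *
        gk n ((ρ / (s + ρ ^ 2)) • C.X x) (s / (s + ρ ^ 2)) (C.X y) := fun y => by
    rw [gk_swap n _ _ ρ hs]
    ring
  simp only [h2]
  rw [integral_const_mul]
  exact le_mul_of_one_le_right (mul_nonneg (gk_pos n 0 hσ _).le (C.nonneg x a)) h1

theorem Cone.mD_Two (ρ : ℝ) : Measurable fun p : Ω × Ω => ‖C.X p.2 - ρ • C.X p.1‖ ^ 2 := by
  have m1 : Measurable fun p : Ω × Ω => C.X p.1 := C.mX.comp measurable_fst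
  have m2 : Measurable fun p : Ω × Ω => C.X p.2 := C.mX.comp measurable_snd
  have m3 : Measurable fun p : Ω × Ω => C.X p.2 - ρ • C.X p.1 := m2.sub (m1.const_smul ρ)
  exact m3.norm.pow_const 2

theorem Cone.mw_Two (a : Euc (n + 1)) (β : ℝ) : Measurable fun p : Ω × Ω =>
    gk n 0 1 (C.X p.1) * (⟪a, C.X p.2⟫ + β * ⟪a, C.X p.1⟫) ^ 2 := by
  have c1 : Continuous fun x : Euc (n + 1) => gk n 0 1 x := by
    unfold gk
    fun_prop
  have mg : Measurable fun p : Ω × Ω => gk n 0 1 (C.X p.1) :=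
    c1.measurable.comp (C.mX.comp measurable_fst)
  have m1 : Measurable fun p : Ω × Ω => ⟪a, C.X p.1⟫ := (Cone.SG.inner C a).1.comp measurable_fst
  have m2 : Measurable fun p : Ω × Ω => ⟪a, C.X p.2⟫ := (Cone.SG.inner C a).1.comp measurable_snd
  exact mg.mul ((m2.add (m1.const_mul β)).pow_const 2)

theorem gk_eq_Two (n : ℕ) {N : ℕ} (z x : Euc N) (t g w : ℝ) :
    g * gk n z t x * w =
      (2 * Real.pi * t) ^ (-(n : ℝ) / 2) * Real.exp (-‖x - z‖ ^ 2 / (2 * t)) * (g * w) := by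
  unfold gk
  ring

theorem Cone.hint_Two (a : Euc (n + 1)) (β ρ : ℝ) (t : ℝ) (ht : 0 < t) :
    Integrable (fun p : Ω × Ω => Real.exp (-‖C.X p.2 - ρ • C.X p.1‖ ^ 2 / (2 * t)) *
      (gk n 0 1 (C.X p.1) * (⟪a, C.X p.2⟫ + β * ⟪a, C.X p.1⟫) ^ 2)) (C.μ.prod C.μ) := by
  have hc : (2 * Real.pi * t) ^ (-(n : ℝ) / 2) ≠ 0 :=
    (Real.rpow_pos_of_pos (by have := Real.pi_pos; positivity) _).ne'
  refine ((C.int_Two a β ρ ht).const_mul ((2 * Real.pi * t) ^ (-(n : ℝ) / 2))⁻¹).congr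
    (Eventually.of_forall fun p => ?_)
  simp only
  rw [gk_eq_Two, mul_assoc (_ ^ _ : ℝ), inv_mul_cancel_left₀ hc]

theorem Cone.der_Two (a : Euc (n + 1)) (β : ℝ) {ρ s : ℝ} (hρ : 0 < ρ) (hs : 0 < s) :
    ∃ d, C.S a ≤ d ∧ HasDerivAt (fun t : ℝ =>
      ∫ p : Ω × Ω, gk n 0 1 (C.X p.1) * gk n (ρ • C.X p.1) t (C.X p.2) *
        (⟪a, C.X p.2⟫ + β * ⟪a, C.X p.1⟫) ^ 2 ∂(C.μ.prod C.μ)) d s := by
  obtain ⟨h1, h2⟩ := hasDerivAt_gauss n (C.mD_Two ρ) (fun _ => sq_nonneg _) (C.mw_Two a β)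
    (C.hint_Two a β ρ) hs
  simp only [← gk_eq_Two] at h1 h2
  refine ⟨_, (C.proj_Two a hρ hs).trans ?_, h2⟩
  have hi := (Cone.SG.const C 1).int2 (Cone.SG.proj C a a) ρ hs
  rw [integral_prod _ hi, integral_prod _ h1]
  refine integral_mono hi.integral_prod_left h1.integral_prod_left fun y => ?_
  have h3 := mul_le_mul_of_nonneg_left (C.key_ineq a (ρ • C.X y) (β * ⟪a, C.X y⟫) hs)
    (gk_pos n 0 one_pos (C.X y)).le
  rw [← integral_const_mul, ← integral_const_mul] at h3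
  simpa only [mul_assoc, one_mul] using h3

theorem Cone.two_ineq (a : Euc (n + 1)) (β : ℝ) {ρ t : ℝ} (hρ : 0 < ρ) (ht : 0 < t) :
    ((ρ + β) ^ 2 + t) * C.S a ≤
      ∫ p : Ω × Ω, gk n 0 1 (C.X p.1) * gk n (ρ • C.X p.1) t (C.X p.2) *
        (⟪a, C.X p.2⟫ + β * ⟪a, C.X p.1⟫) ^ 2 ∂(C.μ.prod C.μ) := by
  have hd : ∀ s ∈ Ioi (0 : ℝ), ∃ d, 0 ≤ d ∧ HasDerivAt (fun t : ℝ =>
      ∫ p : Ω × Ω, gk n 0 1 (C.X p.1) * gk n (ρ • C.X p.1) t (C.X p.2) *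
        (⟪a, C.X p.2⟫ + β * ⟪a, C.X p.1⟫) ^ 2 ∂(C.μ.prod C.μ) - t * C.S a) d s := fun s hs => by
    obtain ⟨d, h1, h2⟩ := C.der_Two a β hρ hs
    exact ⟨_, by linarith, h2.sub (hasDerivAt_mul_const (C.S a))⟩
  have hm := monotoneOn_of_deriv_nonneg (convex_Ioi (0 : ℝ))
    (fun s hs => (hd s hs).choose_spec.2.continuousAt.continuousWithinAt)
    (fun s hs => (hd s (interior_subset hs)).choose_spec.2.differentiableAt.differentiableWithinAt)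
    (fun s hs => by
      obtain ⟨d, h1, h2⟩ := hd s (interior_subset hs)
      rwa [h2.deriv])
  have hS : 0 ≤ C.S a :=
    integral_nonneg fun ω => mul_nonneg (gk_pos n 0 one_pos _).le (sq_nonneg _)
  refine le_of_forall_pos_le_add fun ε hε => ?_
  have hs : 0 < min t (ε / (C.S a + 1)) := lt_min ht (by positivity)
  have h1 := hm hs ht (min_le_left _ _)
  have h2 := C.low_Two a β hρ hs
  have h3 : min t (ε / (C.S a + 1)) * (C.S a + 1) ≤ ε :=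
    (le_div_iff₀ (by positivity)).1 (min_le_right _ _)
  simp only at h1
  linarith

end Vale.Agent.P224
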